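import Mathlib

/-!
# P162: pure binomial estimates.  No entropy, no bijections.
Notation: `N` even.  `KK N t = ∑_x (C(t,x) C(N-t,N/2-x))²`.
-/

open Finset BigOperators Real

noncomputable section

namespace P162

/-- `KK N t = ∑_x (C(t,x) C(N-t,N/2-x))²` is the number of half sets `T` of a `2N` set
orthogonal to two given half sets meeting in `t` points. -/
def KK (N t : ℕ) : ℕ := ∑ x ∈ range (N / 2 + 1), (t.choose x * (N - t).choose (N / 2 - x)) ^ 2

/-- The central-binomial constant `1/h = C(2N,N) / C(N,N/2)²`. -/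
def hInv (N : ℕ) : ℝ := ((2 * N).choose N : ℝ) / ((N.choose (N / 2) : ℝ)) ^ 2

/-- Wallis in terms of the central binomial. -/
lemma wallis_choose (a : ℕ) :
    Real.Wallis.W a * (((2 * a).choose a : ℝ) ^ 2 * (2 * a + 1)) = 16 ^ a := by
  rw [Real.Wallis.W_eq_factorial_ratio]
  have h1 : ((2 * a).factorial : ℝ) = (2 * a).choose a * (a.factorial * a.factorial) := by
    have := Nat.choose_mul_factorial_mul_factorial (show a ≤ 2 * a by omega)
    have e : 2 * a - a = a := by omega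
    rw [e] at this
    rw [← this]; push_cast; ring
  have h2 : (0 : ℝ) < a.factorial := by exact_mod_cast Nat.factorial_pos a
  have h3 : (0 : ℝ) < (2 * a).factorial := by exact_mod_cast Nat.factorial_pos _
  have h4 : (0 : ℝ) < (2 * a : ℝ) + 1 := by positivity
  have h5 : (2 : ℝ) ^ (4 * a) = 16 ^ a := by
    rw [pow_mul]; norm_num
  have h6 : (0 : ℝ) < ((2 * a).choose a : ℝ) := by
    exact_mod_cast Nat.choose_pos (show a ≤ 2 * a by omega)
  rw [h1, h5]
  field_simp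

/-- The Wallis bounds for the central binomial. -/
lemma choose_central_sq_le (a : ℕ) (ha : 1 ≤ a) :
    (((2 * a).choose a : ℝ)) ^ 2 * (π * a) ≤ 16 ^ a := by
  have h1 := Real.Wallis.le_W a
  have h2 := wallis_choose a
  have hc : 0 ≤ (((2 * a).choose a : ℝ)) ^ 2 := by positivity
  have h3 : (0 : ℝ) < 2 * a + 2 := by positivity
  have h4 : (0 : ℝ) ≤ ((2 * a).choose a : ℝ) ^ 2 * (2 * a + 1) := by positivity
  have h5 := mul_le_mul_of_nonneg_right h1 h4
  rw [h2] at h5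
  refine le_trans ?_ h5
  have h6 : ((2 : ℝ) * a + 1) / (2 * a + 2) * (π / 2) * (((2 * a).choose a : ℝ) ^ 2 * (2 * a + 1))
      = (((2 * a).choose a : ℝ)) ^ 2 * (π * (((2 * a + 1) ^ 2 : ℝ) / (4 * a + 4))) := by
    field_simp
    ring
  rw [h6]
  apply mul_le_mul_of_nonneg_left _ hc
  apply mul_le_mul_of_nonneg_left _ Real.pi_pos.le
  rw [le_div_iff₀ (by positivity)]
  nlinarith

lemma choose_central_sq_ge (a : ℕ) :
    (16 : ℝ) ^ a ≤ (((2 * a).choose a : ℝ)) ^ 2 * (π * (a + 1 / 2)) := by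
  have h1 := Real.Wallis.W_le a
  have h2 := wallis_choose a
  have h4 : (0 : ℝ) ≤ ((2 * a).choose a : ℝ) ^ 2 * (2 * a + 1) := by positivity
  have h5 := mul_le_mul_of_nonneg_right h1 h4
  rw [h2] at h5
  refine le_trans h5 (le_of_eq ?_)
  ring

/-- Upper bound for all `s ≥ 1` (any parity) : `C(s,⌊s/2⌋)² ≤ 2 * 4^s / (π s)`. -/
lemma choose_half_sq_le (s : ℕ) (hs : 1 ≤ s) :
    ((s.choose (s / 2) : ℝ)) ^ 2 * (π * s) ≤ 2 * 4 ^ s := by
  rcases Nat.even_or_odd' s with ⟨a, rfl | rfl⟩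
  · have ha : 1 ≤ a := by omega
    have h := choose_central_sq_le a ha
    have e : 2 * a / 2 = a := by omega
    rw [e]
    have h4 : (4 : ℝ) ^ (2 * a) = 16 ^ a := by rw [pow_mul]; norm_num
    rw [h4]
    push_cast
    have hc : 0 ≤ ((2 * a).choose a : ℝ) ^ 2 * (π * a) := by positivity
    nlinarith
  · have h := choose_central_sq_le (a + 1) (by omega)
    have e : (2 * a + 1) / 2 = a := by omega
    rw [e]
    have h1 : ((2 * (a + 1)).choose (a + 1) : ℝ) = 2 * ((2 * a + 1).choose a : ℝ) := by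
      have e1 : 2 * (a + 1) = (2 * a + 1) + 1 := by ring
      rw [e1, Nat.choose_succ_succ']
      have e2 : (2 * a + 1).choose (a + 1) = (2 * a + 1).choose a := by
        have := Nat.choose_symm_half a
        exact this
      rw [e2]; push_cast; ring
    rw [h1] at h
    have h4 : (4 : ℝ) ^ (2 * a + 1) = 4 * 16 ^ a := by rw [pow_succ, pow_mul]; norm_num; ring
    have h5 : (16 : ℝ) ^ (a + 1) = 16 * 16 ^ a := by ring
    rw [h4]; rw [h5] at h
    push_cast at h ⊢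
    set c : ℝ := ((2 * a + 1).choose a : ℝ) with hc
    have hc0 : 0 ≤ c ^ 2 * π := by positivity
    have ha0 : (0 : ℝ) ≤ a := by positivity
    nlinarith [mul_nonneg hc0 ha0]


/-- `1 - u ≤ (1 + u) exp (-2u)` for `u ≥ 0`. -/
lemma one_sub_le_mul_exp {u : ℝ} (hu : 0 ≤ u) : 1 - u ≤ (1 + u) * exp (-(2 * u)) := by
  set g : ℝ → ℝ := fun v => (1 + v) * exp (-(2 * v)) - (1 - v) with hg
  have hd : ∀ v, HasDerivAt g (1 - (1 + 2 * v) * exp (-(2 * v))) v := by
    intro v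
    have h1 : HasDerivAt (fun v : ℝ => exp (-(2 * v))) (exp (-(2 * v)) * (-(2 : ℝ))) v := by
      have := ((hasDerivAt_id' v).const_mul (2 : ℝ)).neg.exp
      simpa using this
    have h2 : HasDerivAt (fun v : ℝ => 1 + v) 1 v := (hasDerivAt_id' v).const_add 1
    have h3 : HasDerivAt (fun v : ℝ => 1 - v) (-1) v := (hasDerivAt_id' v).const_sub 1
    have h4 := (h2.mul h1).sub h3
    rw [show (1 - (1 + 2 * v) * exp (-(2 * v))) =
      (1 * exp (-(2 * v)) + (1 + v) * (exp (-(2 * v)) * -2) - -1) by ring]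
    exact h4
  have hmono : MonotoneOn g (Set.Ici 0) := by
    apply monotoneOn_of_deriv_nonneg (convex_Ici 0)
    · exact fun v _ => (hd v).continuousAt.continuousWithinAt
    · exact fun v _ => (hd v).differentiableAt.differentiableWithinAt
    · intro v hv
      rw [interior_Ici] at hv
      rw [(hd v).deriv]
      have h5 : 1 + 2 * v ≤ exp (2 * v) := by linarith [Real.add_one_le_exp (2 * v)]
      have h6 : exp (2 * v) * exp (-(2 * v)) = 1 := by rw [← Real.exp_add]; simp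
      have h7 : (1 + 2 * v) * exp (-(2 * v)) ≤ exp (2 * v) * exp (-(2 * v)) :=
        mul_le_mul_of_nonneg_right h5 (Real.exp_pos _).le
      linarith
  have h0 : g 0 = 0 := by simp [hg]
  have := hmono (Set.mem_Ici.mpr le_rfl) (Set.mem_Ici.mpr hu) hu
  rw [h0] at this
  simp only [hg] at this
  linarith

/-- Gaussian decay in the upper half. -/
lemma choose_le_gauss_upper (s : ℕ) (x : ℕ) (hx : x ≤ s) (h2 : s ≤ 2 * x) :
    (s.choose x : ℝ) ≤ s.choose (s / 2) * exp (1 / (2 * (s + 1)))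
        * exp (-(2 * ((x : ℝ) - s / 2) ^ 2 / (s + 1))) := by
  have hs1 : (0 : ℝ) < (s : ℝ) + 1 := by positivity
  induction x, (show (s + 1) / 2 ≤ x by omega) using Nat.le_induction with
  | base =>
    -- central value
    have hc : s.choose ((s + 1) / 2) = s.choose (s / 2) := by
      rcases Nat.even_or_odd' s with ⟨a, rfl | rfl⟩
      · congr 1; omega
      · have e1 : (2 * a + 1 + 1) / 2 = a + 1 := by omega
        have e2 : (2 * a + 1) / 2 = a := by omega
        rw [e1, e2]; exact Nat.choose_symm_half a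
    rw [hc]
    have hpos : (0 : ℝ) ≤ s.choose (s / 2) := by positivity
    have hkey : (1 : ℝ) ≤ exp (1 / (2 * (s + 1))) * exp (-(2 * (((((s + 1) / 2 : ℕ) : ℝ)) - s / 2) ^ 2 / (s + 1))) := by
      rw [← Real.exp_add]
      apply Real.one_le_exp
      have hb : (((s + 1) / 2 : ℕ) : ℝ) - s / 2 = 0 ∨ (((s + 1) / 2 : ℕ) : ℝ) - s / 2 = 1 / 2 := by
        rcases Nat.even_or_odd' s with ⟨a, rfl | rfl⟩
        · left
          have e : (2 * a + 1) / 2 = a := by omega
          rw [e]; push_cast; ring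
        · right
          have e : (2 * a + 1 + 1) / 2 = a + 1 := by omega
          rw [e]; push_cast; ring
      rcases hb with hb | hb
      · rw [hb]; simp; positivity
      · rw [hb]
        have : 1 / (2 * ((s : ℝ) + 1)) + -(2 * (1 / 2 : ℝ) ^ 2 / (s + 1)) = 0 := by
          field_simp; ring
        rw [this]
    calc (s.choose (s / 2) : ℝ) = s.choose (s / 2) * 1 := (mul_one _).symm
      _ ≤ s.choose (s / 2) * (exp (1 / (2 * (s + 1))) * exp (-(2 * (((((s + 1) / 2 : ℕ) : ℝ)) - s / 2) ^ 2 / (s + 1)))) :=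
          mul_le_mul_of_nonneg_left hkey hpos
      _ = _ := by ring
  | succ x hx0 ih =>
    have hxs : x ≤ s := by omega
    have h2x : s ≤ 2 * x := by omega
    have ih' := ih hxs h2x
    -- ratio of consecutive binomials
    have hrec : (s.choose (x + 1) : ℝ) * (x + 1) = s.choose x * (s - x) := by
      have := Nat.choose_succ_right_eq s x
      have e : ((s - x : ℕ) : ℝ) = (s : ℝ) - x := by
        rw [Nat.cast_sub hxs]
      rw [← e]
      exact_mod_cast this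
    set u : ℝ := (2 * (x : ℝ) - s + 1) / (s + 1) with hu
    have hu0 : 0 ≤ u := by
      apply div_nonneg _ hs1.le
      have : (s : ℝ) ≤ 2 * x := by exact_mod_cast h2x
      linarith
    have hkey := one_sub_le_mul_exp hu0
    have hxpos : (0 : ℝ) < (x : ℝ) + 1 := by positivity
    have e1 : 1 - u = 2 * ((s : ℝ) - x) / (s + 1) := by
      rw [hu]; field_simp; ring
    have e2 : 1 + u = 2 * ((x : ℝ) + 1) / (s + 1) := by
      rw [hu]; field_simp; ring
    rw [e1, e2] at hkey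
    have hratio : (s : ℝ) - x ≤ ((x : ℝ) + 1) * exp (-(2 * u)) := by
      have h3 : 2 * ((s : ℝ) - x) ≤ 2 * ((x : ℝ) + 1) * exp (-(2 * u)) := by
        have := mul_le_mul_of_nonneg_right hkey hs1.le
        have e3 : 2 * ((s : ℝ) - x) / (s + 1) * (s + 1) = 2 * ((s : ℝ) - x) := by field_simp
        have e4 : 2 * ((x : ℝ) + 1) / (s + 1) * exp (-(2 * u)) * (s + 1) =
            2 * ((x : ℝ) + 1) * exp (-(2 * u)) := by field_simp
        rw [e3, e4] at this
        exact this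
      linarith
    have hsx0 : (0 : ℝ) ≤ s.choose x := by positivity
    have hstep : (s.choose (x + 1) : ℝ) ≤ s.choose x * exp (-(2 * u)) := by
      have h4 : (s.choose (x + 1) : ℝ) * (x + 1) ≤ (s.choose x * exp (-(2 * u))) * (x + 1) := by
        rw [hrec]
        have := mul_le_mul_of_nonneg_left hratio hsx0
        calc (s.choose x : ℝ) * (s - x) ≤ s.choose x * ((x + 1) * exp (-(2 * u))) := this
          _ = _ := by ring
      exact le_of_mul_le_mul_right h4 hxpos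
    have hexp : exp (-(2 * ((x : ℝ) - s / 2) ^ 2 / (s + 1))) * exp (-(2 * u)) =
        exp (-(2 * (((x + 1 : ℕ) : ℝ) - s / 2) ^ 2 / (s + 1))) := by
      rw [← Real.exp_add]
      congr 1
      rw [hu]
      push_cast
      field_simp
      ring
    calc (s.choose (x + 1) : ℝ) ≤ s.choose x * exp (-(2 * u)) := hstep
      _ ≤ (s.choose (s / 2) * exp (1 / (2 * (s + 1)))
            * exp (-(2 * ((x : ℝ) - s / 2) ^ 2 / (s + 1)))) * exp (-(2 * u)) :=
          mul_le_mul_of_nonneg_right ih' (Real.exp_pos _).le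
      _ = _ := by rw [mul_assoc, hexp]

/-- Gaussian decay around the centre (any parity). -/
lemma choose_le_gauss (s x : ℕ) :
    (s.choose x : ℝ) ≤ s.choose (s / 2) * exp (1 / (2 * (s + 1)))
        * exp (-(2 * ((x : ℝ) - s / 2) ^ 2 / (s + 1))) := by
  by_cases hx : x ≤ s
  · by_cases h2 : s ≤ 2 * x
    · exact choose_le_gauss_upper s x hx h2
    · have h3 := choose_le_gauss_upper s (s - x) (by omega) (by omega)
      rw [Nat.choose_symm hx] at h3
      have e : (((s - x : ℕ) : ℝ) - s / 2) ^ 2 = ((x : ℝ) - s / 2) ^ 2 := by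
        rw [Nat.cast_sub hx]; ring
      rw [e] at h3
      exact h3
  · rw [Nat.choose_eq_zero_of_lt (by omega)]
    push_cast
    positivity

/-- One sided Gaussian sum. -/
lemma gauss_half_sum_le {α β : ℝ} (hα : 0 < α) (hβ : 0 ≤ β) (n : ℕ) :
    ∑ i ∈ range n, exp (-(α * (β + (i : ℝ)) ^ 2)) ≤ 1 + sqrt (π / α) / 2 := by
  have hint : MeasureTheory.Integrable (fun y : ℝ => exp (-α * y ^ 2)) :=
    integrable_exp_neg_mul_sq hα
  have hIoi : ∫ y in Set.Ioi (0 : ℝ), exp (-α * y ^ 2) = sqrt (π / α) / 2 :=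
    integral_gaussian_Ioi α
  rcases n with _ | n
  · simp
    positivity
  · rw [Finset.sum_range_succ']
    have h0 : exp (-(α * (β + ((0 : ℕ) : ℝ)) ^ 2)) ≤ 1 := by
      rw [Real.exp_le_one_iff]
      have : 0 ≤ α * (β + ((0 : ℕ) : ℝ)) ^ 2 := by positivity
      linarith
    set f : ℝ → ℝ := fun y => exp (-α * y ^ 2) with hf
    have hanti : AntitoneOn f (Set.Icc β (β + (n : ℕ))) := by
      intro a ha b hb hab
      apply Real.exp_le_exp.mpr
      have ha0 : 0 ≤ a := hβ.trans ha.1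
      have : a ^ 2 ≤ b ^ 2 := by nlinarith
      nlinarith
    have hs := hanti.sum_le_integral
    have hs' : ∑ i ∈ range n, exp (-(α * (β + ((i + 1 : ℕ) : ℝ)) ^ 2)) = ∑ i ∈ range n, f (β + ((i + 1 : ℕ) : ℝ)) := by
      apply Finset.sum_congr rfl; intro i _; simp only [hf]; congr 1; ring
    rw [hs']
    have hle : (∫ y in β..(β + (n : ℕ)), f y) ≤ sqrt (π / α) / 2 := by
      rw [← hIoi, intervalIntegral.integral_of_le (by have : (0 : ℝ) ≤ n := by positivity
                                                      linarith)]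
      apply MeasureTheory.setIntegral_mono_set hint.integrableOn
      · exact Filter.Eventually.of_forall fun y => (Real.exp_pos _).le
      · apply Filter.Eventually.of_forall
        intro y hy
        exact lt_of_le_of_lt hβ hy.1
    have h9 := add_le_add (hs.trans hle) h0
    linarith

/-- Gaussian sum over a window of integers with an arbitrary shift. -/
lemma gauss_sum_le (α x₀ : ℝ) (hα : 0 < α) (n : ℕ) :
    ∑ x ∈ range n, exp (-(α * ((x : ℝ) - x₀) ^ 2)) ≤ 2 + sqrt (π / α) := by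
  -- enlarge the window so that it contains the centre
  set x₁ : ℕ := ⌈x₀⌉₊ with hx₁
  set n' : ℕ := max n x₁ with hn'
  have hsub : ∑ x ∈ range n, exp (-(α * ((x : ℝ) - x₀) ^ 2)) ≤
      ∑ x ∈ range n', exp (-(α * ((x : ℝ) - x₀) ^ 2)) := by
    apply Finset.sum_le_sum_of_subset_of_nonneg
    · intro a ha
      simp only [Finset.mem_range] at ha ⊢
      exact lt_of_lt_of_le ha (le_max_left _ _)
    · intros; exact (Real.exp_pos _).le
  refine hsub.trans ?_
  have hn1 : x₁ ≤ n' := le_max_right _ _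
  have hsplit : ∑ x ∈ range n', exp (-(α * ((x : ℝ) - x₀) ^ 2)) =
      ∑ x ∈ range x₁, exp (-(α * ((x : ℝ) - x₀) ^ 2)) +
        ∑ x ∈ Finset.Ico x₁ n', exp (-(α * ((x : ℝ) - x₀) ^ 2)) := by
    rw [Finset.range_eq_Ico, Finset.range_eq_Ico]
    exact (Finset.sum_Ico_consecutive _ (Nat.zero_le _) hn1).symm
  rw [hsplit]
  have hup : ∑ x ∈ Finset.Ico x₁ n', exp (-(α * ((x : ℝ) - x₀) ^ 2)) ≤ 1 + sqrt (π / α) / 2 := by
    rw [Finset.sum_Ico_eq_sum_range]
    have hβ : 0 ≤ (x₁ : ℝ) - x₀ := by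
      have := Nat.le_ceil x₀
      linarith
    have := gauss_half_sum_le hα hβ (n' - x₁)
    refine le_trans (le_of_eq ?_) this
    apply Finset.sum_congr rfl; intro i _
    congr 2
    push_cast; ring
  have hlow : ∑ x ∈ range x₁, exp (-(α * ((x : ℝ) - x₀) ^ 2)) ≤ 1 + sqrt (π / α) / 2 := by
    rcases Nat.eq_zero_or_pos x₁ with h0 | hpos
    · rw [h0]; simp; positivity
    · rw [← Finset.sum_range_reflect]
      have hβ : 0 ≤ x₀ - ((x₁ : ℝ) - 1) := by
        have : (x₁ : ℝ) < x₀ + 1 := Nat.ceil_lt_add_one (by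
          by_contra hneg
          push Not at hneg
          have : x₁ = 0 := by rw [hx₁]; exact Nat.ceil_eq_zero.mpr hneg.le
          omega)
        linarith
      have := gauss_half_sum_le hα hβ x₁
      refine le_trans (le_of_eq ?_) this
      apply Finset.sum_congr rfl; intro i hi
      have hi' : i < x₁ := Finset.mem_range.mp hi
      congr 2
      have e : ((x₁ - 1 - i : ℕ) : ℝ) = (x₁ : ℝ) - 1 - i := by
        rw [Nat.cast_sub (by omega), Nat.cast_sub (by omega)]; simp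
      rw [e]
      ring
  linarith

/-- `KK N t ≤ C(N,N/2)²` (probability bound), all `t ≤ N`. -/
lemma KK_le (N t : ℕ) (ht : t ≤ N) : (KK N t : ℝ) ≤ ((N.choose (N / 2) : ℝ)) ^ 2 := by
  have hV : ∑ x ∈ range (N / 2 + 1), t.choose x * (N - t).choose (N / 2 - x) = N.choose (N / 2) := by
    have h := Nat.add_choose_eq t (N - t) (N / 2)
    rw [Nat.add_sub_cancel' ht] at h
    rw [h, Finset.Nat.sum_antidiagonal_eq_sum_range_succ_mk]
  have h2 : KK N t ≤ (N.choose (N / 2)) ^ 2 := by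
    unfold KK
    rw [sq (N.choose (N / 2))]
    calc ∑ x ∈ range (N / 2 + 1), (t.choose x * (N - t).choose (N / 2 - x)) ^ 2
        ≤ ∑ x ∈ range (N / 2 + 1), (t.choose x * (N - t).choose (N / 2 - x)) * N.choose (N / 2) := by
          apply Finset.sum_le_sum
          intro x hx
          rw [sq]
          apply Nat.mul_le_mul_left
          rw [← hV]
          exact Finset.single_le_sum (f := fun x => t.choose x * (N - t).choose (N / 2 - x))
            (fun _ _ => Nat.zero_le _) hx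
      _ = N.choose (N / 2) * N.choose (N / 2) := by
          rw [← Finset.sum_mul, hV]
  exact_mod_cast h2

lemma hInv_pos (N : ℕ) : 0 ≤ hInv N := by
  unfold hInv; positivity

/-- Sharp form of the bound for `1/h`. -/
lemma hInv_le_sharp (N : ℕ) (hN : 2 ≤ N) (hev : Even N) :
    hInv N ≤ sqrt (π * N) / 2 * (1 + 1 / N) := by
  obtain ⟨a, rfl⟩ := hev.exists_two_nsmul
  simp only [smul_eq_mul] at *
  have ha : 1 ≤ a := by omega
  have e : 2 * a / 2 = a := by omega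
  unfold hInv
  rw [e]
  set X : ℝ := ((2 * (2 * a)).choose (2 * a) : ℝ) with hX
  set y : ℝ := ((2 * a).choose a : ℝ) with hy
  have h1 := choose_central_sq_le (2 * a) (by omega)
  have h2 := choose_central_sq_ge a
  rw [← hX] at h1
  rw [← hy] at h2
  have hNpos : (0 : ℝ) < ((2 * a : ℕ) : ℝ) := by
    have : 0 < 2 * a := by omega
    exact_mod_cast this
  set N : ℝ := ((2 * a : ℕ) : ℝ) with hN'
  have haN : (a : ℝ) = N / 2 := by rw [hN']; push_cast; ring
  set r : ℝ := sqrt (π * N) with hr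
  have hr0 : 0 < r := Real.sqrt_pos.mpr (by positivity)
  have hr2 : r ^ 2 = π * N := Real.sq_sqrt (by positivity)
  set Q : ℝ := (16 : ℝ) ^ a with hQ
  have hQ0 : 0 < Q := by positivity
  have h16 : (16 : ℝ) ^ (2 * a) = Q ^ 2 := by rw [hQ, pow_mul']
  rw [h16] at h1
  have hX0 : 0 ≤ X := by positivity
  have hXr : X * r ≤ Q := by
    have : (X * r) ^ 2 ≤ Q ^ 2 := by
      rw [mul_pow, hr2]; exact h1
    exact (pow_le_pow_iff_left₀ (by positivity) hQ0.le two_ne_zero).mp this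
  rw [haN] at h2
  have hy2 : 0 < y ^ 2 := by
    have : 0 < ((2 * a).choose a) := Nat.choose_pos (by omega)
    have : (0 : ℝ) < y := by rw [hy]; exact_mod_cast this
    positivity
  rw [div_le_iff₀ hy2]
  have hgoal : X * r ≤ (r / 2 * (1 + 1 / N) * y ^ 2) * r := by
    have : (r / 2 * (1 + 1 / N) * y ^ 2) * r = y ^ 2 * (π * (N / 2 + 1 / 2)) := by
      have e2 : (r / 2 * (1 + 1 / N) * y ^ 2) * r = r ^ 2 * ((1 + 1 / N) * y ^ 2 / 2) := by ring
      rw [e2, hr2]; field_simp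
    rw [this]
    linarith
  exact le_of_mul_le_mul_right hgoal hr0

lemma sqrt_pi_le_two : sqrt π ≤ 2 := by
  rw [Real.sqrt_le_left (by norm_num)]
  linarith [Real.pi_le_four]

/-- `1/h ≤ 2 √N` for even `N ≥ 2`. -/
lemma hInv_le (N : ℕ) (hN : 2 ≤ N) (hev : Even N) : hInv N ≤ 2 * sqrt N := by
  refine (hInv_le_sharp N hN hev).trans ?_
  have hN0 : (2 : ℝ) ≤ N := by exact_mod_cast hN
  rw [Real.sqrt_mul Real.pi_pos.le]
  have h1 := sqrt_pi_le_two
  have h2 : 0 ≤ sqrt (N : ℝ) := Real.sqrt_nonneg _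
  have h3 : 1 / (N : ℝ) ≤ 1 / 2 := by
    apply one_div_le_one_div_of_le (by norm_num) hN0
  have h4 : 0 ≤ 1 / (N : ℝ) := by positivity
  have h5 : sqrt π * sqrt (N : ℝ) ≤ 2 * sqrt (N : ℝ) := mul_le_mul_of_nonneg_right h1 h2
  have h6 : 0 ≤ sqrt π * sqrt (N : ℝ) := by positivity
  nlinarith

/-- `exp x ≤ 1 + 2 x` for `0 ≤ x ≤ 1/2`. -/
lemma exp_le_one_add_two_mul {x : ℝ} (h0 : 0 ≤ x) (h1 : x ≤ 1 / 2) : exp x ≤ 1 + 2 * x := by
  have h2 : 1 - x ≤ exp (-x) := by linarith [Real.add_one_le_exp (-x)]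
  have h3 : exp x * exp (-x) = 1 := by rw [← Real.exp_add]; simp
  have h4 : 0 < exp x := Real.exp_pos _
  have h5 : exp x * (1 - x) ≤ 1 := by
    calc exp x * (1 - x) ≤ exp x * exp (-x) := mul_le_mul_of_nonneg_left h2 h4.le
      _ = 1 := h3
  -- `(1 + 2x)(1 - x) ≥ 1`
  have h6 : 1 ≤ (1 + 2 * x) * (1 - x) := by nlinarith
  have h7 : 0 < 1 - x := by linarith
  have h8 : exp x * (1 - x) ≤ (1 + 2 * x) * (1 - x) := h5.trans h6
  exact le_of_mul_le_mul_right h8 h7

/-- Polynomial inequality. -/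
lemma kernel_poly {N T : ℝ} (hN : 64 ≤ N) (hT1 : 3 * N ^ 2 / 16 ≤ T) :
    (N + 1) ^ 4 * (T + N + 1) ≤ (N + 10) * (N ^ 2 * (N + 2) * T) := by
  have hN0 : 0 < N := by linarith
  have hT0 : 0 < T := by nlinarith
  have h1 : N * (T + N + 1) ≤ T * (N + 6) := by nlinarith
  have h2 : (N + 1) ^ 4 * (N + 6) ≤ (N + 10) * (N ^ 3 * (N + 2)) := by
    obtain ⟨s, rfl⟩ : ∃ s, N = 64 + s := ⟨N - 64, by ring⟩
    have hs : 0 ≤ s := by linarith
    nlinarith [pow_nonneg hs 2, pow_nonneg hs 3, pow_nonneg hs 4, pow_nonneg hs 5]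
  have h3 : N * ((N + 1) ^ 4 * (T + N + 1)) ≤ N * ((N + 10) * (N ^ 2 * (N + 2) * T)) := by
    calc N * ((N + 1) ^ 4 * (T + N + 1)) = (N + 1) ^ 4 * (N * (T + N + 1)) := by ring
      _ ≤ (N + 1) ^ 4 * (T * (N + 6)) := mul_le_mul_of_nonneg_left h1 (by positivity)
      _ = ((N + 1) ^ 4 * (N + 6)) * T := by ring
      _ ≤ ((N + 10) * (N ^ 3 * (N + 2))) * T := mul_le_mul_of_nonneg_right h2 hT0.le
      _ = _ := by ring
  exact le_of_mul_le_mul_left h3 hN0

/-- The product `Z Y` with `Z = (N+1)²/(√(πN) T)`, `Y = √(π (T+N+1)/(4(N+2)))`. -/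
lemma kernel_ZY {N T w : ℝ} (hN : 64 ≤ N) (hT1 : 3 * N ^ 2 / 16 ≤ T)
    (hw0 : 0 ≤ w) (hw1 : w ≤ 1 / 4) (hTw : N ^ 2 * (1 - w) = 4 * T) :
    (N + 1) ^ 2 / (sqrt (π * N) * T) * sqrt (π * (T + N + 1) / (4 * (N + 2)))
      ≤ (1 + w) * (1 + 5 / N) := by
  have hN0 : 0 < N := by linarith
  have hT0 : 0 < T := by nlinarith
  have hY2 : sqrt (π * (T + N + 1) / (4 * (N + 2))) ^ 2 = π * (T + N + 1) / (4 * (N + 2)) :=
    Real.sq_sqrt (by positivity)
  have hspi2 : sqrt (π * N) ^ 2 = π * N := Real.sq_sqrt (by positivity)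
  have hs0 : 0 < sqrt (π * N) := Real.sqrt_pos.mpr (by positivity)
  have hZY2 : ((N + 1) ^ 2 / (sqrt (π * N) * T) * sqrt (π * (T + N + 1) / (4 * (N + 2)))) ^ 2
      = (N + 1) ^ 4 * (T + N + 1) / (4 * N * (N + 2) * T ^ 2) := by
    rw [mul_pow, hY2, div_pow, mul_pow, hspi2]
    have := Real.pi_pos
    field_simp
  have hpos : 0 ≤ (1 + w) * (1 + 5 / N) := by positivity
  apply (pow_le_pow_iff_left₀ (by positivity) hpos two_ne_zero).mp
  rw [hZY2, div_le_iff₀ (by positivity)]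
  have hw2 : 1 ≤ (1 + w) ^ 2 * (1 - w) := by
    nlinarith [mul_nonneg hw0 hw0, mul_nonneg (mul_nonneg hw0 hw0) hw0]
  have h5 : 1 + 10 / N ≤ (1 + 5 / N) ^ 2 := by
    have e : (1 + 5 / N) ^ 2 = 1 + 10 / N + (5 / N) ^ 2 := by ring
    rw [e]
    have : 0 ≤ (5 / N) ^ 2 := sq_nonneg _
    linarith
  have h6 : (N + 1) ^ 4 * (T + N + 1) ≤ (1 + 10 / N) * (N ^ 3 * (N + 2) * T) := by
    have e : (1 + 10 / N) * (N ^ 3 * (N + 2) * T) = (N + 10) * (N ^ 2 * (N + 2) * T) := by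
      field_simp
    rw [e]
    exact kernel_poly hN hT1
  have hT4 : 4 * T = N ^ 2 * (1 - w) := hTw.symm
  have h9 : ((1 + w) * (1 + 5 / N)) ^ 2 * (4 * N * (N + 2) * T ^ 2) =
      ((1 + w) ^ 2 * (1 - w)) * (1 + 5 / N) ^ 2 * (N ^ 3 * (N + 2) * T) := by
    have : 4 * N * (N + 2) * T ^ 2 = (N ^ 2 * (1 - w)) * (N * (N + 2) * T) := by
      rw [← hT4]; ring
    rw [this]; ring
  rw [h9]
  have hprod : 0 ≤ N ^ 3 * (N + 2) * T := by positivity
  have h10 : (1 + 10 / N) * (N ^ 3 * (N + 2) * T) ≤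
      ((1 + w) ^ 2 * (1 - w)) * (1 + 5 / N) ^ 2 * (N ^ 3 * (N + 2) * T) := by
    apply mul_le_mul_of_nonneg_right _ hprod
    have : (1 : ℝ) * (1 + 10 / N) ≤ ((1 + w) ^ 2 * (1 - w)) * (1 + 5 / N) ^ 2 := by
      apply mul_le_mul hw2 h5 (by positivity) (by positivity)
    linarith
  exact h6.trans h10

/-- `Z ≤ 6/√N`. -/
lemma kernel_Z {N T : ℝ} (hN : 64 ≤ N) (hT1 : 3 * N ^ 2 / 16 ≤ T) :
    (N + 1) ^ 2 / (sqrt (π * N) * T) ≤ 6 / sqrt N := by
  have hN0 : 0 < N := by linarith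
  have hT0 : 0 < T := by nlinarith
  have hr0 : 0 < sqrt N := Real.sqrt_pos.mpr hN0
  have hspi : sqrt (π * N) = sqrt π * sqrt N := by rw [Real.sqrt_mul Real.pi_pos.le]
  have hspi1 : 1 ≤ sqrt π := by
    rw [Real.one_le_sqrt]; linarith [Real.pi_gt_three]
  rw [hspi, div_le_div_iff₀ (by positivity) hr0]
  have h1 : (N + 1) ^ 2 ≤ 6 * T := by nlinarith
  have h2 : 6 * T * sqrt N ≤ 6 * (sqrt π * sqrt N * T) := by
    have : 1 * sqrt N * T ≤ sqrt π * sqrt N * T :=
      mul_le_mul_of_nonneg_right (mul_le_mul_of_nonneg_right hspi1 hr0.le) hT0.le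
    linarith
  calc (N + 1) ^ 2 * sqrt N ≤ 6 * T * sqrt N := mul_le_mul_of_nonneg_right h1 hr0.le
    _ ≤ _ := h2

/-- Final algebra. -/
lemma kernel_final {N r w Z Y E : ℝ} (hN : 64 ≤ N) (hr0 : 0 < r) (hr2 : r ^ 2 = N) (hw0 : 0 ≤ w)
    (hZ0 : 0 ≤ Z) (hZ : Z ≤ 6 / r) (hY0 : 0 ≤ Y) (hZY : Z * Y ≤ (1 + w) * (1 + 5 / N))
    (hE0 : 0 ≤ E) (hE : E ≤ 1 + 16 / N) :
    Z * E * (2 + Y) ≤ 1 + 50 / r + 27 * r * w := by
  have hN0 : 0 < N := by linarith
  have hr8 : 8 ≤ r := by nlinarith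
  have hinvN : 1 / N ≤ 1 / r := by
    apply one_div_le_one_div_of_le hr0
    nlinarith
  have h16 : 16 / N ≤ 1 := by rw [div_le_one hN0]; linarith
  have hE1 : E ≤ 2 := by linarith
  have hmain : Z * Y * E ≤ (1 + w) * (1 + 5 / N) * (1 + 16 / N) :=
    mul_le_mul hZY hE hE0 (by positivity)
  have hsmall : (1 + 5 / N) * (1 + 16 / N) ≤ 1 + 26 / N := by
    have e : (1 + 5 / N) * (1 + 16 / N) = 1 + 21 / N + (5 / N) * (16 / N) := by ring
    have e2 : 26 / N = 21 / N + 5 / N := by ring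
    have : (5 / N) * (16 / N) ≤ (5 / N) * 1 :=
      mul_le_mul_of_nonneg_left h16 (by positivity)
    rw [e, e2]; linarith
  have h3 : (1 + w) * (1 + 5 / N) * (1 + 16 / N) ≤ (1 + w) * (1 + 26 / N) := by
    rw [mul_assoc]
    exact mul_le_mul_of_nonneg_left hsmall (by positivity)
  have h2 : Z * E ≤ 6 / r * 2 := mul_le_mul hZ hE1 hE0 (by positivity)
  have hw3 : w * (26 / N) ≤ w * 1 := by
    apply mul_le_mul_of_nonneg_left _ hw0
    rw [div_le_one hN0]; linarith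
  have hw4 : w * 1 ≤ w * r := mul_le_mul_of_nonneg_left (by linarith) hw0
  have hw5 : w * 27 ≤ 27 * r * w := by
    have : w * 1 ≤ w * r := hw4
    nlinarith
  have e1 : (1 + w) * (1 + 26 / N) = 1 + 26 / N + w + w * (26 / N) := by ring
  have e2 : 26 / N = 26 * (1 / N) := by ring
  have e3 : 50 / r = 26 * (1 / r) + 24 * (1 / r) := by ring
  have e4 : 6 / r * 2 = 12 * (1 / r) := by ring
  have hall : Z * E * (2 + Y) = Z * Y * E + (Z * E) * 2 := by ring
  rw [hall, e3]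
  have hr1 : 0 < 1 / r := by positivity
  rw [e4] at h2
  rw [e1] at h3
  have h26 : 26 / N ≤ 26 * (1 / r) := by rw [e2]; linarith
  have hw6 : w + w * (26 / N) ≤ w * 27 := by nlinarith
  linarith

/-- Purely real estimate behind the kernel bound. -/
lemma kernel_real {N T : ℝ} (hN : 64 ≤ N) (hT1 : 3 * N ^ 2 / 16 ≤ T) (hT2 : T ≤ N ^ 2 / 4)
    {E w : ℝ} (hE0 : 0 ≤ E) (hE : E ≤ 1 + 16 / N) (hw : w = 1 - 4 * T / N ^ 2) :
    (N + 1) ^ 2 / (sqrt (π * N) * T) * E * (2 + sqrt (π * (T + N + 1) / (4 * (N + 2))))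
      ≤ 1 + 50 / sqrt N + 27 * sqrt N * w := by
  have hN0 : 0 < N := by linarith
  have hT0 : 0 < T := by nlinarith
  have hr0 : 0 < sqrt N := Real.sqrt_pos.mpr hN0
  have hr2 : sqrt N ^ 2 = N := Real.sq_sqrt hN0.le
  have hw0 : 0 ≤ w := by
    rw [hw]
    have : 4 * T / N ^ 2 ≤ 1 := by
      rw [div_le_one (by positivity)]; linarith
    linarith
  have hw1 : w ≤ 1 / 4 := by
    rw [hw]
    have : 3 / 4 ≤ 4 * T / N ^ 2 := by
      rw [le_div_iff₀ (by positivity)]; linarith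
    linarith
  have hTw : N ^ 2 * (1 - w) = 4 * T := by
    rw [hw]; field_simp; ring
  exact kernel_final hN hr0 hr2 hw0 (by positivity) (kernel_Z hN hT1) (Real.sqrt_nonneg _)
    (kernel_ZY hN hT1 hw0 hw1 hTw) hE0 hE

/-- Gaussian bound for `KK`. -/
lemma KK_le_gauss (a b : ℕ) (hev : Even (a + b)) :
    (KK (a + b) a : ℝ) ≤ ((a.choose (a / 2) : ℝ) * (b.choose (b / 2) : ℝ)) ^ 2
      * exp (1 / ((a : ℝ) + 1) + 1 / ((b : ℝ) + 1))
      * (2 + sqrt (π / (4 / ((a : ℝ) + 1) + 4 / ((b : ℝ) + 1)))) := by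
  set α : ℝ := 4 / ((a : ℝ) + 1) + 4 / ((b : ℝ) + 1) with hα
  have hα0 : 0 < α := by positivity
  set P : ℝ := ((a.choose (a / 2) : ℝ) * (b.choose (b / 2) : ℝ)) ^ 2 with hP
  set E : ℝ := exp (1 / ((a : ℝ) + 1) + 1 / ((b : ℝ) + 1)) with hE
  have hP0 : 0 ≤ P := by positivity
  have hE0 : 0 < E := Real.exp_pos _
  have hterm : ∀ x ∈ range ((a + b) / 2 + 1),
      ((a.choose x * b.choose ((a + b) / 2 - x) : ℕ) : ℝ) ^ 2 ≤
        P * E * exp (-(α * ((x : ℝ) - (a : ℝ) / 2) ^ 2)) := by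
    intro x hx
    have hx' : x ≤ (a + b) / 2 := by
      have := Finset.mem_range.mp hx; omega
    have h1 := choose_le_gauss a x
    have h2 := choose_le_gauss b ((a + b) / 2 - x)
    have hcast : (((a + b) / 2 - x : ℕ) : ℝ) - (b : ℝ) / 2 = (a : ℝ) / 2 - x := by
      rw [Nat.cast_sub hx']
      have : (((a + b) / 2 : ℕ) : ℝ) = ((a : ℝ) + b) / 2 := by
        obtain ⟨c, hc⟩ := hev
        have e : (a + b) / 2 = c := by omega
        rw [e]
        have : ((a : ℝ) + b) = c + c := by exact_mod_cast hc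
        rw [this]; ring
      rw [this]; ring
    rw [hcast] at h2
    set A : ℝ := (a.choose (a / 2) : ℝ) * exp (1 / (2 * ((a : ℝ) + 1))) *
      exp (-(2 * ((x : ℝ) - (a : ℝ) / 2) ^ 2 / ((a : ℝ) + 1))) with hA
    set B : ℝ := (b.choose (b / 2) : ℝ) * exp (1 / (2 * ((b : ℝ) + 1))) *
      exp (-(2 * ((a : ℝ) / 2 - x) ^ 2 / ((b : ℝ) + 1))) with hB
    have h3 : ((a.choose x * b.choose ((a + b) / 2 - x) : ℕ) : ℝ) ≤ A * B := by
      push_cast
      exact mul_le_mul h1 h2 (by positivity) (by positivity)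
    have h4 : ((a.choose x * b.choose ((a + b) / 2 - x) : ℕ) : ℝ) ^ 2 ≤ (A * B) ^ 2 :=
      pow_le_pow_left₀ (by positivity) h3 2
    refine h4.trans (le_of_eq ?_)
    have e1 : (A * B) ^ 2 = P * (exp (1 / (2 * ((a : ℝ) + 1))) *
        exp (-(2 * ((x : ℝ) - (a : ℝ) / 2) ^ 2 / ((a : ℝ) + 1))) *
        (exp (1 / (2 * ((b : ℝ) + 1))) *
        exp (-(2 * ((a : ℝ) / 2 - x) ^ 2 / ((b : ℝ) + 1))))) ^ 2 := by
      rw [hA, hB, hP]; ring
    rw [e1, mul_assoc P]
    congr 1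
    rw [hE, ← Real.exp_add, ← Real.exp_add, ← Real.exp_add, ← Real.exp_add, ← Real.exp_nat_mul]
    congr 1
    rw [hα]
    push_cast
    field_simp
    ring
  have hsum : (KK (a + b) a : ℝ) ≤ P * E * ∑ x ∈ range ((a + b) / 2 + 1),
      exp (-(α * ((x : ℝ) - (a : ℝ) / 2) ^ 2)) := by
    unfold KK
    rw [Nat.add_sub_cancel_left, Finset.mul_sum]
    push_cast
    apply Finset.sum_le_sum
    intro x hx
    have := hterm x hx
    push_cast at this
    exact this
  refine hsum.trans ?_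
  apply mul_le_mul_of_nonneg_left _ (by positivity)
  exact gauss_sum_le α _ hα0 _

/-- The product of central binomials in the kernel. -/
lemma kernel_prod (a b : ℕ) (ha : 1 ≤ a) (hb : 1 ≤ b) (hev : Even (a + b)) :
    ((2 * (a + b)).choose (a + b) : ℝ) * ((a.choose (a / 2) : ℝ) * (b.choose (b / 2) : ℝ)) ^ 2 /
        (((a + b).choose ((a + b) / 2) : ℝ) ^ 2) ^ 2
      ≤ (((a + b : ℕ) : ℝ) + 1) ^ 2 / (sqrt (π * ((a + b : ℕ) : ℝ)) * ((a : ℝ) * b)) := by
  obtain ⟨c, hc⟩ := hev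
  set N : ℕ := a + b with hN
  have hcN : N = 2 * c := by omega
  have hNpos : 1 ≤ N := by omega
  have hN0 : (0 : ℝ) < N := by exact_mod_cast hNpos
  have ha0 : (0 : ℝ) < a := by exact_mod_cast ha
  have hb0 : (0 : ℝ) < b := by exact_mod_cast hb
  set c0 : ℝ := ((2 * N).choose N : ℝ) with hc0
  set c1 : ℝ := (N.choose (N / 2) : ℝ) ^ 2 with hc1
  set P : ℝ := ((a.choose (a / 2) : ℝ) * (b.choose (b / 2) : ℝ)) ^ 2 with hP
  set Q : ℝ := (4 : ℝ) ^ N with hQ
  have hQ0 : 0 < Q := by positivity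
  have hi : c0 ^ 2 * (π * N) ≤ Q ^ 2 := by
    have := choose_central_sq_le N hNpos
    have e : (16 : ℝ) ^ N = Q ^ 2 := by
      rw [hQ, ← pow_mul, mul_comm, pow_mul]; norm_num
    rw [e] at this
    exact this
  have hii : Q ≤ c1 * (π * ((N : ℝ) + 1) / 2) := by
    have := choose_central_sq_ge c
    have e : (16 : ℝ) ^ c = Q := by
      rw [hQ, hcN, pow_mul]; norm_num
    have e2 : N / 2 = c := by omega
    have e3 : 2 * c = N := hcN.symm
    rw [e, e3] at this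
    rw [hc1, e2]
    have e4 : (N : ℝ) = 2 * c := by exact_mod_cast hcN
    refine this.trans (le_of_eq ?_)
    rw [e4]; ring
  have hiii : P * (π ^ 2 * ((a : ℝ) * b)) ≤ 4 * Q := by
    have h1 := choose_half_sq_le a ha
    have h2 := choose_half_sq_le b hb
    have h3 := mul_le_mul h1 h2 (by positivity) (by positivity)
    have e1 : (2 : ℝ) * 4 ^ a * (2 * 4 ^ b) = 4 * Q := by
      rw [hQ, hN, pow_add]; ring
    rw [e1] at h3
    refine le_trans (le_of_eq ?_) h3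
    rw [hP]; ring
  have hc1pos : 0 < c1 := by
    have : 0 < N.choose (N / 2) := Nat.choose_pos (Nat.div_le_self _ _)
    have : (0 : ℝ) < (N.choose (N / 2) : ℝ) := by exact_mod_cast this
    rw [hc1]; positivity
  set r : ℝ := sqrt (π * N) with hr
  have hr0 : 0 < r := Real.sqrt_pos.mpr (by positivity)
  have hr2 : r ^ 2 = π * N := Real.sq_sqrt (by positivity)
  have hc00 : 0 ≤ c0 := by positivity
  have hcr : c0 * r ≤ Q := by
    have : (c0 * r) ^ 2 ≤ Q ^ 2 := by rw [mul_pow, hr2]; exact hi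
    exact (pow_le_pow_iff_left₀ (by positivity) hQ0.le two_ne_zero).mp this
  rw [div_le_div_iff₀ (by positivity) (by positivity)]
  have hP0 : 0 ≤ P := by positivity
  have hpi := Real.pi_pos
  -- multiply everything by `π²`
  have hkey : π ^ 2 * (c0 * P * (r * ((a : ℝ) * b))) ≤ π ^ 2 * (((N : ℝ) + 1) ^ 2 * (c1 ^ 2)) := by
    calc π ^ 2 * (c0 * P * (r * ((a : ℝ) * b))) = (c0 * r) * (P * (π ^ 2 * ((a : ℝ) * b))) := by ring
      _ ≤ Q * (4 * Q) := mul_le_mul hcr hiii (by positivity) hQ0.le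
      _ = (2 * Q) ^ 2 := by ring
      _ ≤ (c1 * (π * ((N : ℝ) + 1))) ^ 2 := by
          apply pow_le_pow_left₀ (by positivity)
          linarith
      _ = _ := by ring
  exact le_of_mul_le_mul_left hkey (by positivity)

/-- (b') The global form with a quadratic error: for all `t`,
`C(2N,N) KK N t / C(N,N/2)⁴ ≤ 1 + C/√N + C √N ω²`. -/
theorem kernel_bound : ∃ C N₀ : ℝ, 0 < C ∧ ∀ N t : ℕ, N₀ ≤ N → Even N → t ≤ N →
    hInv N * (KK N t : ℝ) / ((N.choose (N / 2) : ℝ)) ^ 2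
      ≤ 1 + C / sqrt N + C * sqrt N * (2 * (t : ℝ) / N - 1) ^ 2 := by
  refine ⟨50, 64, by norm_num, ?_⟩
  intro N t hN64 hev ht
  have hN0 : (0 : ℝ) < N := by linarith
  have hNnat : 2 ≤ N := by
    have : (64 : ℝ) ≤ N := hN64
    have : 64 ≤ N := by exact_mod_cast this
    omega
  have hc1pos : (0 : ℝ) < ((N.choose (N / 2) : ℝ)) ^ 2 := by
    have : 0 < N.choose (N / 2) := Nat.choose_pos (Nat.div_le_self _ _)
    have : (0 : ℝ) < (N.choose (N / 2) : ℝ) := by exact_mod_cast this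
    positivity
  have hr0 : 0 < sqrt (N : ℝ) := Real.sqrt_pos.mpr hN0
  set ω : ℝ := 2 * (t : ℝ) / N - 1 with hω
  by_cases hbig : ω ^ 2 ≤ 1 / 4
  · -- central case
    obtain ⟨b, rfl⟩ : ∃ b, N = t + b := ⟨N - t, by omega⟩
    have hNc : (((t + b : ℕ)) : ℝ) = (t : ℝ) + b := by push_cast; ring
    set M : ℝ := (((t + b : ℕ)) : ℝ) with hM
    have hω' : ω * M = 2 * (t : ℝ) - M := by
      rw [hω]; field_simp
    have hbM : (b : ℝ) = M - t := by rw [hNc]; ring
    have hT : 4 * ((t : ℝ) * b) = M ^ 2 * (1 - ω ^ 2) := by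
      have e : M ^ 2 * (1 - ω ^ 2) = M ^ 2 - (ω * M) ^ 2 := by ring
      rw [e, hω', hbM]; ring
    have hT1 : 3 * M ^ 2 / 16 ≤ (t : ℝ) * b := by
      have : M ^ 2 * (3 / 4) ≤ M ^ 2 * (1 - ω ^ 2) :=
        mul_le_mul_of_nonneg_left (by linarith) (by positivity)
      linarith
    have hT2 : (t : ℝ) * b ≤ M ^ 2 / 4 := by
      have : M ^ 2 * (1 - ω ^ 2) ≤ M ^ 2 * 1 :=
        mul_le_mul_of_nonneg_left (by nlinarith [sq_nonneg ω]) (by positivity)
      linarith
    have hw : ω ^ 2 = 1 - 4 * ((t : ℝ) * b) / M ^ 2 := by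
      rw [hT]; field_simp; ring
    have htpos : (0 : ℝ) ≤ t := by positivity
    have hbpos : (0 : ℝ) ≤ b := by positivity
    -- both sides are at least `M/4`
    have ht4 : M / 4 ≤ (t : ℝ) := by
      have : M = (t : ℝ) + b := hNc
      nlinarith
    have hb4 : M / 4 ≤ (b : ℝ) := by
      have : M = (t : ℝ) + b := hNc
      nlinarith
    have ht1 : 1 ≤ t := by
      have : (1 : ℝ) ≤ t := by linarith
      exact_mod_cast this
    have hb1 : 1 ≤ b := by
      have : (1 : ℝ) ≤ b := by linarith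
      exact_mod_cast this
    have hKK := KK_le_gauss t b hev
    have hprod := kernel_prod t b ht1 hb1 hev
    -- the exponential factor
    set E : ℝ := exp (1 / ((t : ℝ) + 1) + 1 / ((b : ℝ) + 1)) with hE
    have hE0 : 0 ≤ E := (Real.exp_pos _).le
    have hE1 : E ≤ 1 + 16 / M := by
      have h1 : 1 / ((t : ℝ) + 1) ≤ 4 / M := by
        rw [div_le_div_iff₀ (by positivity) (by linarith)]; linarith
      have h2 : 1 / ((b : ℝ) + 1) ≤ 4 / M := by
        rw [div_le_div_iff₀ (by positivity) (by linarith)]; linarith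
      have h3 : 8 / M ≤ 1 / 2 := by
        rw [div_le_div_iff₀ (by linarith) (by norm_num)]; linarith
      have h0 : 0 ≤ 8 / M := by positivity
      calc E ≤ exp (8 / M) := by
            apply Real.exp_le_exp.mpr
            have e : 8 / M = 4 / M + 4 / M := by ring
            rw [e]; linarith
        _ ≤ 1 + 2 * (8 / M) := exp_le_one_add_two_mul h0 h3
        _ = 1 + 16 / M := by ring
    -- the Gaussian width
    have hα : π / (4 / ((t : ℝ) + 1) + 4 / ((b : ℝ) + 1)) =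
        π * ((t : ℝ) * b + M + 1) / (4 * (M + 2)) := by
      rw [hNc]; field_simp; ring
    rw [hα] at hKK
    set G : ℝ := 2 + sqrt (π * ((t : ℝ) * b + M + 1) / (4 * (M + 2))) with hG
    have hG0 : 0 ≤ G := by positivity
    have hmain : hInv (t + b) * (KK (t + b) t : ℝ) / (((t + b).choose ((t + b) / 2) : ℝ)) ^ 2 ≤
        (M + 1) ^ 2 / (sqrt (π * M) * ((t : ℝ) * b)) * E * G := by
      unfold hInv
      set c0 : ℝ := ((2 * (t + b)).choose (t + b) : ℝ) with hc0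
      set c1 : ℝ := ((t + b).choose ((t + b) / 2) : ℝ) ^ 2 with hc1
      set P : ℝ := ((t.choose (t / 2) : ℝ) * (b.choose (b / 2) : ℝ)) ^ 2 with hP
      have e : c0 / c1 * (KK (t + b) t : ℝ) / c1 = c0 / c1 ^ 2 * (KK (t + b) t : ℝ) := by
        field_simp
      rw [e]
      have hc00 : 0 ≤ c0 / c1 ^ 2 := by positivity
      calc c0 / c1 ^ 2 * (KK (t + b) t : ℝ) ≤ c0 / c1 ^ 2 * (P * E * G) :=
            mul_le_mul_of_nonneg_left hKK hc00
        _ = (c0 * P / c1 ^ 2) * E * G := by ring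
        _ ≤ _ := by
          apply mul_le_mul_of_nonneg_right _ hG0
          apply mul_le_mul_of_nonneg_right _ hE0
          exact hprod
    refine hmain.trans ?_
    have := kernel_real (N := M) (T := (t : ℝ) * b) hN64 hT1 hT2 hE0 hE1 hw
    refine this.trans ?_
    have h0 : 0 ≤ sqrt M * ω ^ 2 := by positivity
    have e1 : 27 * sqrt M * ω ^ 2 = 27 * (sqrt M * ω ^ 2) := by ring
    have e2 : 50 * sqrt M * ω ^ 2 = 50 * (sqrt M * ω ^ 2) := by ring
    rw [e1, e2]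
    linarith
  · -- tails
    push Not at hbig
    have h1 : (KK N t : ℝ) / ((N.choose (N / 2) : ℝ)) ^ 2 ≤ 1 := by
      rw [div_le_one hc1pos]; exact KK_le N t ht
    have h2 : hInv N * (KK N t : ℝ) / ((N.choose (N / 2) : ℝ)) ^ 2 ≤ hInv N * 1 := by
      rw [mul_div_assoc]
      exact mul_le_mul_of_nonneg_left h1 (hInv_pos N)
    have h3 := hInv_le N hNnat hev
    have h4 : 2 * sqrt (N : ℝ) ≤ 50 * sqrt N * ω ^ 2 := by nlinarith
    have h5 : 0 ≤ 50 / sqrt (N : ℝ) := by positivity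
    linarith

/-- (c) Exponential moment of the hypergeometric overlap:
`∑_t C(N,t)² exp((t-N/2)²/N) ≤ 2 C(2N,N)` for large even `N`. -/
theorem exp_moment : ∃ N₀ : ℕ, ∀ N : ℕ, N₀ ≤ N → Even N →
    ∑ t ∈ range (N + 1), ((N.choose t : ℝ)) ^ 2 * exp (((t : ℝ) - N / 2) ^ 2 / N)
      ≤ 2 * ((2 * N).choose N : ℝ) := by
  refine ⟨100, ?_⟩
  intro N hN hev
  have hN100 : (100 : ℝ) ≤ N := by exact_mod_cast hN
  have hN0 : (0 : ℝ) < N := by linarith
  obtain ⟨a, ha⟩ := hev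
  have hNa : N = 2 * a := by omega
  set α : ℝ := 4 / ((N : ℝ) + 1) - 1 / N with hα
  have hα2 : 2 / (N : ℝ) ≤ α := by
    have e : α = (3 * (N : ℝ) - 1) / (N * ((N : ℝ) + 1)) := by
      rw [hα]; field_simp; ring
    rw [e, div_le_div_iff₀ hN0 (by positivity)]
    nlinarith
  have hα0 : 0 < α := lt_of_lt_of_le (by positivity) hα2
  set c : ℝ := (N.choose (N / 2) : ℝ) with hc
  set e1 : ℝ := exp (1 / ((N : ℝ) + 1)) with he1
  have he0 : 0 < e1 := Real.exp_pos _
  have hterm : ∀ t ∈ range (N + 1),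
      ((N.choose t : ℝ)) ^ 2 * exp (((t : ℝ) - N / 2) ^ 2 / N) ≤
        c ^ 2 * e1 * exp (-(α * ((t : ℝ) - N / 2) ^ 2)) := by
    intro t _
    have h1 := choose_le_gauss N t
    rw [← hc] at h1
    set y : ℝ := (t : ℝ) - N / 2 with hy
    have h2 := pow_le_pow_left₀ (by positivity : (0 : ℝ) ≤ (N.choose t : ℝ)) h1 2
    have h3 := mul_le_mul_of_nonneg_right h2 (Real.exp_pos (y ^ 2 / N)).le
    refine h3.trans (le_of_eq ?_)
    have e2 : (c * exp (1 / (2 * ((N : ℝ) + 1))) * exp (-(2 * y ^ 2 / ((N : ℝ) + 1)))) ^ 2 * exp (y ^ 2 / N)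
        = c ^ 2 * ((exp (1 / (2 * ((N : ℝ) + 1))) * exp (-(2 * y ^ 2 / ((N : ℝ) + 1)))) ^ 2 * exp (y ^ 2 / N)) := by
      ring
    rw [e2, mul_assoc]
    congr 1
    rw [he1, ← Real.exp_add, ← Real.exp_nat_mul, ← Real.exp_add, ← Real.exp_add]
    congr 1
    rw [hα]
    push_cast
    field_simp
    ring
  have hsum := Finset.sum_le_sum hterm
  rw [← Finset.mul_sum] at hsum
  refine hsum.trans ?_
  have hG := gauss_sum_le α ((N : ℝ) / 2) hα0 (N + 1)
  -- constants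
  set r : ℝ := sqrt (π * N) with hr
  have hr0 : 0 < r := Real.sqrt_pos.mpr (by positivity)
  have hr2 : r ^ 2 = π * N := Real.sq_sqrt (by positivity)
  have hr17 : 17 ≤ r := by
    apply Real.le_sqrt_of_sq_le
    nlinarith [Real.pi_gt_three]
  have hsq : sqrt (π / α) ≤ 3 / 4 * r := by
    rw [hr, Real.sqrt_le_left (by positivity)]
    rw [mul_pow, hr2, div_le_iff₀ hα0]
    have h3 : (3 / 4 : ℝ) ^ 2 * (π * N) * (2 / N) = π * (9 / 8) := by
      field_simp; ring
    have h4 : (3 / 4 : ℝ) ^ 2 * (π * N) * (2 / N) ≤ (3 / 4 : ℝ) ^ 2 * (π * N) * α :=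
      mul_le_mul_of_nonneg_left hα2 (by positivity)
    have hpi := Real.pi_pos
    nlinarith
  have hG2 : ∑ t ∈ range (N + 1), exp (-(α * ((t : ℝ) - N / 2) ^ 2)) ≤ 2 + 3 / 4 * r := by
    linarith
  set Q : ℝ := (4 : ℝ) ^ N with hQ
  have hQ0 : 0 < Q := by positivity
  have h1 : c ^ 2 * (π * N) ≤ 2 * Q := choose_half_sq_le N (by omega)
  have h2 : Q ^ 2 ≤ ((2 * N).choose N : ℝ) ^ 2 * (π * ((N : ℝ) + 1 / 2)) := by
    have := choose_central_sq_ge N
    have e : (16 : ℝ) ^ N = Q ^ 2 := by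
      rw [hQ, ← pow_mul, mul_comm, pow_mul]; norm_num
    rw [e] at this
    exact this
  set c0 : ℝ := ((2 * N).choose N : ℝ) with hc0
  have hc00 : 0 ≤ c0 := by positivity
  -- `Q ≤ c0 * (1.01 r)`
  have h3 : Q ≤ c0 * (101 / 100 * r) := by
    have h4 : Q ^ 2 ≤ (c0 * (101 / 100 * r)) ^ 2 := by
      refine h2.trans ?_
      have e : (c0 * (101 / 100 * r)) ^ 2 = c0 ^ 2 * ((101 / 100) ^ 2 * r ^ 2) := by ring
      rw [e, hr2]
      apply mul_le_mul_of_nonneg_left _ (by positivity)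
      have hpi := Real.pi_pos
      nlinarith
    exact (pow_le_pow_iff_left₀ hQ0.le (by positivity) two_ne_zero).mp h4
  have he1 : e1 ≤ 102 / 100 := by
    have h5 : exp (1 / ((N : ℝ) + 1)) ≤ 1 + 2 * (1 / ((N : ℝ) + 1)) := by
      apply exp_le_one_add_two_mul (by positivity)
      rw [div_le_div_iff₀ (by positivity) (by norm_num)]; linarith
    have h6 : 1 / ((N : ℝ) + 1) ≤ 1 / 100 := by
      apply one_div_le_one_div_of_le (by norm_num); linarith
    rw [he1]; linarith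
  -- final
  have h7 : c ^ 2 * r ^ 2 ≤ 2 * (c0 * (101 / 100 * r)) := by
    rw [hr2]; linarith
  have h8 : c ^ 2 * r ≤ 2 * (c0 * (101 / 100)) := by
    have : (c ^ 2 * r) * r ≤ (2 * (c0 * (101 / 100))) * r := by
      calc (c ^ 2 * r) * r = c ^ 2 * r ^ 2 := by ring
        _ ≤ 2 * (c0 * (101 / 100 * r)) := h7
        _ = _ := by ring
    exact le_of_mul_le_mul_right this hr0
  have hc2 : 0 ≤ c ^ 2 := sq_nonneg _
  have h9 : c ^ 2 * e1 * ∑ t ∈ range (N + 1), exp (-(α * ((t : ℝ) - N / 2) ^ 2))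
      ≤ c ^ 2 * (102 / 100) * (2 + 3 / 4 * r) :=
    mul_le_mul (mul_le_mul_of_nonneg_left he1 hc2) hG2
      (Finset.sum_nonneg fun _ _ => (Real.exp_pos _).le) (by positivity)
  refine h9.trans ?_
  have h10 : c ^ 2 * (2 + 3 / 4 * r) ≤ c ^ 2 * r * (7 / 8) := by
    rw [mul_assoc]
    apply mul_le_mul_of_nonneg_left _ hc2
    linarith
  have h11 : c ^ 2 * r * (7 / 8) ≤ 2 * (c0 * (101 / 100)) * (7 / 8) :=
    mul_le_mul_of_nonneg_right h8 (by norm_num)
  calc c ^ 2 * (102 / 100) * (2 + 3 / 4 * r) = (102 / 100) * (c ^ 2 * (2 + 3 / 4 * r)) := by ring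
    _ ≤ (102 / 100) * (2 * (c0 * (101 / 100)) * (7 / 8)) := by
        apply mul_le_mul_of_nonneg_left (h10.trans h11) (by norm_num)
    _ ≤ 2 * c0 := by nlinarith

/-- Central coefficient `cb k = C(k,k/2)/2^k` for the top level. -/
def cb (k : ℕ) : ℝ := (k.choose (k / 2) : ℝ) / 2 ^ k

lemma cb_nonneg (k : ℕ) : 0 ≤ cb k := by unfold cb; positivity

lemma cb_le_one (k : ℕ) : cb k ≤ 1 := by
  unfold cb
  rw [div_le_one (by positivity)]
  exact_mod_cast Nat.choose_le_two_pow k (k / 2)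

/-- The square of `cb`. -/
lemma cb_sq_le (k : ℕ) (hk : 1 ≤ k) : cb k ^ 2 * (π * k) ≤ 2 := by
  have h := choose_half_sq_le k hk
  unfold cb
  have e : ((k.choose (k / 2) : ℝ) / 2 ^ k) ^ 2 * (π * k) =
      ((k.choose (k / 2) : ℝ) ^ 2 * (π * k)) / 4 ^ k := by
    rw [div_pow, ← pow_mul, mul_comm k 2, pow_mul]; norm_num; ring
  rw [e, div_le_iff₀ (by positivity)]
  exact h

/-- Pointwise bound at the top level. -/
lemma top_pointwise (m k : ℕ) (hm : 16 ≤ m) (hev : Even m) :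
    hInv m * cb k ≤ (1 + 1 / (m : ℝ)) * (1 + 2 * |(k : ℝ) - m / 2| / m)
      + 32 * sqrt m * ((k : ℝ) - m / 2) ^ 2 / (m : ℝ) ^ 2 := by
  have hm16 : (16 : ℝ) ≤ m := by exact_mod_cast hm
  have hm0 : (0 : ℝ) < m := by linarith
  set d : ℝ := (k : ℝ) - m / 2 with hd
  have hI0 := hInv_pos m
  have hrm : 0 < sqrt (m : ℝ) := Real.sqrt_pos.mpr hm0
  have hterm0 : 0 ≤ 32 * sqrt m * d ^ 2 / (m : ℝ) ^ 2 := by positivity
  have hterm1 : 0 ≤ (1 + 1 / (m : ℝ)) * (1 + 2 * |d| / m) := by positivity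
  by_cases hk : (m : ℝ) / 4 ≤ k
  · -- central `k`
    have hk0 : (0 : ℝ) < k := by linarith
    have hk1 : 1 ≤ k := by
      have : (1 : ℝ) ≤ k := by linarith
      exact_mod_cast this
    have hs := hInv_le_sharp m (by omega) hev
    have hcb := cb_sq_le k hk1
    set r : ℝ := sqrt (π * m) with hr
    have hr0 : 0 < r := Real.sqrt_pos.mpr (by positivity)
    have hr2 : r ^ 2 = π * m := Real.sq_sqrt (by positivity)
    set u : ℝ := 2 * |d| / m with hu
    have hu0 : 0 ≤ u := by positivity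
    -- `(r/2) cb k ≤ 1 + u`
    have hmain : r / 2 * cb k ≤ 1 + u := by
      apply (pow_le_pow_iff_left₀ (mul_nonneg (by positivity) (cb_nonneg k)) (by positivity)
        two_ne_zero).mp
      have e : (r / 2 * cb k) ^ 2 = (cb k ^ 2 * (π * k)) * ((m : ℝ) / (4 * k)) := by
        rw [mul_pow, div_pow, hr2]; field_simp; ring
      rw [e]
      have h1 : (cb k ^ 2 * (π * k)) * ((m : ℝ) / (4 * k)) ≤ 2 * ((m : ℝ) / (4 * k)) :=
        mul_le_mul_of_nonneg_right hcb (by positivity)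
      refine h1.trans ?_
      -- `m / (2k) ≤ (1+u)²`
      rcases le_total 0 d with hd0 | hd0
      · have hkm : (m : ℝ) / 2 ≤ k := by linarith
        have h2 : 2 * ((m : ℝ) / (4 * k)) ≤ 1 := by
          have e2 : 2 * ((m : ℝ) / (4 * k)) = (m : ℝ) / (2 * k) := by field_simp; ring
          rw [e2, div_le_one (by positivity)]; linarith
        nlinarith
      · have hdu : u = -2 * d / m := by
          rw [hu, abs_of_nonpos hd0]; ring
        have hku : (k : ℝ) = (m : ℝ) / 2 * (1 - u) := by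
          rw [hdu, hd]; field_simp; ring
        have hu12 : u ≤ 1 / 2 := by
          rw [hu, div_le_iff₀ hm0, abs_of_nonpos hd0, hd]; linarith
        have h1u : 0 < 1 - u := by linarith
        have e2 : 2 * ((m : ℝ) / (4 * k)) = 1 / (1 - u) := by
          rw [hku]; field_simp; norm_num
        rw [e2, div_le_iff₀ h1u]
        nlinarith [mul_nonneg hu0 hu0, mul_nonneg (mul_nonneg hu0 hu0) hu0]
    have h2 : hInv m * cb k ≤ (r / 2 * (1 + 1 / (m : ℝ))) * cb k :=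
      mul_le_mul_of_nonneg_right hs (cb_nonneg k)
    have h3 : (r / 2 * (1 + 1 / (m : ℝ))) * cb k = (1 + 1 / (m : ℝ)) * (r / 2 * cb k) := by ring
    rw [h3] at h2
    have h4 : (1 + 1 / (m : ℝ)) * (r / 2 * cb k) ≤ (1 + 1 / (m : ℝ)) * (1 + u) :=
      mul_le_mul_of_nonneg_left hmain (by positivity)
    linarith
  · -- small `k`
    push Not at hk
    have h1 : hInv m ≤ 2 * sqrt m := hInv_le m (by omega) hev
    have h2 : hInv m * cb k ≤ hInv m * 1 := mul_le_mul_of_nonneg_left (cb_le_one k) hI0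
    have h3 : (m : ℝ) / 4 < -d := by rw [hd]; linarith
    have h4 : (m : ℝ) ^ 2 ≤ 16 * d ^ 2 := by
      have : ((m : ℝ) / 4) ^ 2 ≤ (-d) ^ 2 := pow_le_pow_left₀ (by positivity) h3.le 2
      nlinarith
    have h5 : 2 * sqrt (m : ℝ) ≤ 32 * sqrt m * d ^ 2 / (m : ℝ) ^ 2 := by
      rw [le_div_iff₀ (by positivity)]
      have : 2 * sqrt (m : ℝ) * (m : ℝ) ^ 2 ≤ 2 * sqrt (m : ℝ) * (16 * d ^ 2) :=
        mul_le_mul_of_nonneg_left h4 (by positivity)
      linarith
    linarith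

lemma avg_add_mul {Ω : Type} [Fintype Ω] (A B : ℝ) (f : Ω → ℝ) (hn : (0 : ℝ) < Fintype.card Ω) :
    (∑ ω : Ω, (A + B * f ω)) / (Fintype.card Ω : ℝ) =
      A + B * ((∑ ω : Ω, f ω) / (Fintype.card Ω : ℝ)) := by
  rw [Finset.sum_add_distrib, ← Finset.mul_sum, Finset.sum_const, Finset.card_univ, nsmul_eq_mul]
  field_simp

/-- (top) For a random even number `k(ω) ≤ m` with `E (k - m/2)² ≤ m/2`:
`E cb(k) / h(m) ≤ 1 + C/√m` where `1/h(m) = hInv m`. -/
theorem top_avg_le : ∃ C m₀ : ℝ, 0 < C ∧ ∀ (Ω : Type) [Fintype Ω] [Nonempty Ω] (m : ℕ) (k : Ω → ℕ),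
    m₀ ≤ m → Even m → (∀ ω, Even (k ω)) → (∀ ω, k ω ≤ m) →
    (∑ ω : Ω, (((k ω : ℝ) - (m : ℝ) / 2) ^ 2)) / (Fintype.card Ω : ℝ) ≤ (m : ℝ) / 2 →
    hInv m * ((∑ ω : Ω, cb (k ω)) / (Fintype.card Ω : ℝ)) ≤ 1 + C / sqrt (m : ℝ) := by
  refine ⟨20, 16, by norm_num, ?_⟩
  intro Ω _ _ m k hm hev _ _ hvar
  have hm16 : (16 : ℝ) ≤ m := hm
  have hmn : 16 ≤ m := by exact_mod_cast hm
  have hm0 : (0 : ℝ) < m := by linarith
  have hn : (0 : ℝ) < Fintype.card Ω := by exact_mod_cast Fintype.card_pos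
  set r : ℝ := sqrt (m : ℝ) with hr
  have hr0 : 0 < r := Real.sqrt_pos.mpr hm0
  have hr2 : r ^ 2 = m := Real.sq_sqrt hm0.le
  have hr4 : 4 ≤ r := by
    rw [hr]; apply Real.le_sqrt_of_sq_le; norm_num; linarith
  -- pointwise bound with a quadratic right hand side
  set A : ℝ := (1 + 1 / (m : ℝ)) * (1 + 1 / (2 * r)) with hA
  set B : ℝ := 36 / r ^ 3 with hB
  have hB0 : 0 ≤ B := by positivity
  have hpt : ∀ ω, hInv m * cb (k ω) ≤ A + B * ((k ω : ℝ) - (m : ℝ) / 2) ^ 2 := by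
    intro ω
    refine (top_pointwise m (k ω) hmn hev).trans ?_
    set d : ℝ := (k ω : ℝ) - (m : ℝ) / 2 with hd
    have h1 : 2 * |d| / m ≤ 1 / (2 * r) + 2 * d ^ 2 / r ^ 3 := by
      rw [← hr2]
      have hz : 0 ≤ (|d| / r - 1 / 2) ^ 2 := sq_nonneg _
      have habs : |d| ^ 2 = d ^ 2 := sq_abs d
      have e : 1 / (2 * r) + 2 * d ^ 2 / r ^ 3 - 2 * |d| / r ^ 2 = 2 / r * (|d| / r - 1 / 2) ^ 2 := by
        rw [← habs]; field_simp; ring
      have h2 : 0 ≤ 2 / r * (|d| / r - 1 / 2) ^ 2 := by positivity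
      linarith
    have hmm : 1 + 1 / (m : ℝ) ≤ 2 := by
      have : 1 / (m : ℝ) ≤ 1 := by rw [div_le_one hm0]; linarith
      linarith
    have h3 : (1 + 1 / (m : ℝ)) * (1 + 2 * |d| / m) ≤ A + 2 * (2 * d ^ 2 / r ^ 3) := by
      have hpos : 0 ≤ 2 * d ^ 2 / r ^ 3 := by positivity
      calc (1 + 1 / (m : ℝ)) * (1 + 2 * |d| / m)
          ≤ (1 + 1 / (m : ℝ)) * (1 + (1 / (2 * r) + 2 * d ^ 2 / r ^ 3)) :=
            mul_le_mul_of_nonneg_left (by linarith) (by positivity)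
        _ = A + (1 + 1 / (m : ℝ)) * (2 * d ^ 2 / r ^ 3) := by rw [hA]; ring
        _ ≤ A + 2 * (2 * d ^ 2 / r ^ 3) := by
            have := mul_le_mul_of_nonneg_right hmm hpos
            linarith
    have h4 : 32 * r * d ^ 2 / (m : ℝ) ^ 2 = 32 * d ^ 2 / r ^ 3 := by
      rw [← hr2]; field_simp
    rw [h4]
    have e : B * d ^ 2 = 2 * (2 * d ^ 2 / r ^ 3) + 32 * d ^ 2 / r ^ 3 := by
      rw [hB]; ring
    rw [e]
    linarith
  have hsum : hInv m * ((∑ ω : Ω, cb (k ω)) / (Fintype.card Ω : ℝ)) ≤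
      A + B * ((∑ ω : Ω, (((k ω : ℝ) - (m : ℝ) / 2) ^ 2)) / (Fintype.card Ω : ℝ)) := by
    have e1 : hInv m * ((∑ ω : Ω, cb (k ω)) / (Fintype.card Ω : ℝ)) =
        (∑ ω : Ω, hInv m * cb (k ω)) / (Fintype.card Ω : ℝ) := by
      rw [← Finset.mul_sum]; ring
    have e2 : A + B * ((∑ ω : Ω, (((k ω : ℝ) - (m : ℝ) / 2) ^ 2)) / (Fintype.card Ω : ℝ)) =
        (∑ ω : Ω, (A + B * ((k ω : ℝ) - (m : ℝ) / 2) ^ 2)) / (Fintype.card Ω : ℝ) := by
      exact (avg_add_mul A B _ hn).symm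
    rw [e1, e2]
    exact div_le_div_of_nonneg_right (Finset.sum_le_sum fun ω _ => hpt ω) hn.le
  refine hsum.trans ?_
  have h5 : B * ((∑ ω : Ω, (((k ω : ℝ) - (m : ℝ) / 2) ^ 2)) / (Fintype.card Ω : ℝ)) ≤
      B * ((m : ℝ) / 2) := mul_le_mul_of_nonneg_left hvar hB0
  have h6 : B * ((m : ℝ) / 2) = 18 / r := by
    rw [hB, ← hr2]; field_simp; ring
  have h7 : A ≤ 1 + 2 / r := by
    have h8 : 1 / (m : ℝ) ≤ 1 / r := by
      apply one_div_le_one_div_of_le hr0
      nlinarith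
    have h9 : 1 / (2 * r) ≤ 1 / r * (1 / 2) := by
      apply le_of_eq; field_simp
    have h10 : 1 / r ≤ 1 / 4 := by
      apply one_div_le_one_div_of_le (by norm_num) hr4
    have h11 : 0 < 1 / r := by positivity
    have h12 : 0 < 1 / (m : ℝ) := by positivity
    have e3 : 2 / r = 2 * (1 / r) := by ring
    rw [e3, hA]
    nlinarith
  have e4 : 20 / r = 2 / r + 18 / r := by ring
  rw [e4]
  linarith
end P162
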