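import Vale.Agent.Lib.P162.Binom

/-!
# P162: one-sided version of `top_avg_le`.
-/

open Finset BigOperators Real

noncomputable section

namespace P162

lemma top_pointwise_ge (m k : ℕ) (hm : 16 ≤ m) (hev : Even m) (hk : (m : ℝ) / 2 ≤ k) :
    hInv m * cb k ≤ 1 + 1 / (m : ℝ) := by
  have hm0 : (0 : ℝ) < m := by
    have : 0 < m := by omega
    exact_mod_cast this
  have hk0 : (0 : ℝ) < k := by linarith
  have hk1 : 1 ≤ k := by
    have : 0 < k := by exact_mod_cast hk0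
    omega
  have hs := hInv_le_sharp m (by omega) hev
  have hcb := cb_sq_le k hk1
  set r : ℝ := sqrt (π * m) with hr
  have hr0 : 0 < r := Real.sqrt_pos.mpr (by positivity)
  have hr2 : r ^ 2 = π * m := Real.sq_sqrt (by positivity)
  have hmain : r / 2 * cb k ≤ 1 := by
    apply (pow_le_pow_iff_left₀ (mul_nonneg (by positivity) (cb_nonneg k)) (by positivity)
      two_ne_zero).mp
    have e : (r / 2 * cb k) ^ 2 = (cb k ^ 2 * (π * k)) * ((m : ℝ) / (4 * k)) := by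
      rw [mul_pow, div_pow, hr2]; field_simp; ring
    rw [e]
    have h1 : (cb k ^ 2 * (π * k)) * ((m : ℝ) / (4 * k)) ≤ 2 * ((m : ℝ) / (4 * k)) :=
      mul_le_mul_of_nonneg_right hcb (by positivity)
    refine h1.trans ?_
    have h2 : 2 * ((m : ℝ) / (4 * k)) ≤ 1 := by
      have e2 : 2 * ((m : ℝ) / (4 * k)) = (m : ℝ) / (2 * k) := by field_simp; ring
      rw [e2, div_le_one (by positivity)]; linarith
    simpa using h2
  have h2 : hInv m * cb k ≤ (r / 2 * (1 + 1 / (m : ℝ))) * cb k :=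
    mul_le_mul_of_nonneg_right hs (cb_nonneg k)
  have h3 : (r / 2 * (1 + 1 / (m : ℝ))) * cb k = (1 + 1 / (m : ℝ)) * (r / 2 * cb k) := by ring
  rw [h3] at h2
  have h4 : (1 + 1 / (m : ℝ)) * (r / 2 * cb k) ≤ (1 + 1 / (m : ℝ)) * 1 :=
    mul_le_mul_of_nonneg_left hmain (by positivity)
  linarith

/-- One-sided form: only the lower deviation of `k` matters. -/
theorem top_avg_le' : ∃ C m₀ : ℝ, 0 < C ∧ ∀ (Ω : Type) [Fintype Ω] [Nonempty Ω] (m : ℕ) (k : Ω → ℕ),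
    m₀ ≤ m → Even m →
    (∑ ω : Ω, (max 0 ((m : ℝ) / 2 - (k ω : ℝ))) ^ 2) / (Fintype.card Ω : ℝ) ≤ (m : ℝ) / 2 →
    hInv m * ((∑ ω : Ω, cb (k ω)) / (Fintype.card Ω : ℝ)) ≤ 1 + C / sqrt (m : ℝ) := by
  refine ⟨20, 16, by norm_num, ?_⟩
  intro Ω _ _ m k hm hev hvar
  have hm16 : (16 : ℝ) ≤ m := hm
  have hmn : 16 ≤ m := by exact_mod_cast hm
  have hm0 : (0 : ℝ) < m := by linarith
  have hn : (0 : ℝ) < Fintype.card Ω := by exact_mod_cast Fintype.card_pos
  set r : ℝ := sqrt (m : ℝ) with hr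
  have hr0 : 0 < r := Real.sqrt_pos.mpr hm0
  have hr2 : r ^ 2 = m := Real.sq_sqrt hm0.le
  have hr4 : 4 ≤ r := by
    rw [hr]; apply Real.le_sqrt_of_sq_le; norm_num; linarith
  set A : ℝ := (1 + 1 / (m : ℝ)) * (1 + 1 / (2 * r)) with hA
  set B : ℝ := 36 / r ^ 3 with hB
  have hB0 : 0 ≤ B := by positivity
  have hpt : ∀ ω, hInv m * cb (k ω) ≤ A + B * (max 0 ((m : ℝ) / 2 - (k ω : ℝ))) ^ 2 := by
    intro ω
    by_cases hcase : (m : ℝ) / 2 ≤ k ω
    · have h1 := top_pointwise_ge m (k ω) hmn hev hcase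
      have h2 : max 0 ((m : ℝ) / 2 - (k ω : ℝ)) = 0 := max_eq_left (by linarith)
      rw [h2]
      have h3 : 1 + 1 / (m : ℝ) ≤ A := by
        rw [hA]
        have : 0 ≤ 1 / (2 * r) := by positivity
        have h4 : 0 < 1 + 1 / (m : ℝ) := by positivity
        nlinarith
      have : (0 : ℝ) ≤ B * 0 ^ 2 := by simp
      linarith
    · push Not at hcase
      have h2 : max 0 ((m : ℝ) / 2 - (k ω : ℝ)) = (m : ℝ) / 2 - (k ω : ℝ) := max_eq_right (by linarith)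
      rw [h2]
      refine (top_pointwise m (k ω) hmn hev).trans ?_
      set d : ℝ := (k ω : ℝ) - (m : ℝ) / 2 with hd
      have hdsq : ((m : ℝ) / 2 - (k ω : ℝ)) ^ 2 = d ^ 2 := by rw [hd]; ring
      rw [hdsq]
      have h1 : 2 * |d| / m ≤ 1 / (2 * r) + 2 * d ^ 2 / r ^ 3 := by
        rw [← hr2]
        have hz : 0 ≤ (|d| / r - 1 / 2) ^ 2 := sq_nonneg _
        have habs : |d| ^ 2 = d ^ 2 := sq_abs d
        have e : 1 / (2 * r) + 2 * d ^ 2 / r ^ 3 - 2 * |d| / r ^ 2 = 2 / r * (|d| / r - 1 / 2) ^ 2 := by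
          rw [← habs]; field_simp; ring
        have h2 : 0 ≤ 2 / r * (|d| / r - 1 / 2) ^ 2 := by positivity
        linarith
      have hmm : 1 + 1 / (m : ℝ) ≤ 2 := by
        have : 1 / (m : ℝ) ≤ 1 := by rw [div_le_one hm0]; linarith
        linarith
      have h3 : (1 + 1 / (m : ℝ)) * (1 + 2 * |d| / m) ≤ A + 2 * (2 * d ^ 2 / r ^ 3) := by
        have hpos : 0 ≤ 2 * d ^ 2 / r ^ 3 := by positivity
        calc (1 + 1 / (m : ℝ)) * (1 + 2 * |d| / m)
            ≤ (1 + 1 / (m : ℝ)) * (1 + (1 / (2 * r) + 2 * d ^ 2 / r ^ 3)) :=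
              mul_le_mul_of_nonneg_left (by linarith) (by positivity)
          _ = A + (1 + 1 / (m : ℝ)) * (2 * d ^ 2 / r ^ 3) := by rw [hA]; ring
          _ ≤ A + 2 * (2 * d ^ 2 / r ^ 3) := by
              have := mul_le_mul_of_nonneg_right hmm hpos
              linarith
      have h4 : 32 * r * d ^ 2 / (m : ℝ) ^ 2 = 32 * d ^ 2 / r ^ 3 := by
        rw [← hr2]; field_simp
      rw [h4]
      have e : B * d ^ 2 = 2 * (2 * d ^ 2 / r ^ 3) + 32 * d ^ 2 / r ^ 3 := by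
        rw [hB]; ring
      rw [e]
      linarith
  have hsum : hInv m * ((∑ ω : Ω, cb (k ω)) / (Fintype.card Ω : ℝ)) ≤
      A + B * ((∑ ω : Ω, (max 0 ((m : ℝ) / 2 - (k ω : ℝ))) ^ 2) / (Fintype.card Ω : ℝ)) := by
    have e1 : hInv m * ((∑ ω : Ω, cb (k ω)) / (Fintype.card Ω : ℝ)) =
        (∑ ω : Ω, hInv m * cb (k ω)) / (Fintype.card Ω : ℝ) := by
      rw [← Finset.mul_sum]; ring
    have e2 : A + B * ((∑ ω : Ω, (max 0 ((m : ℝ) / 2 - (k ω : ℝ))) ^ 2) / (Fintype.card Ω : ℝ)) =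
        (∑ ω : Ω, (A + B * (max 0 ((m : ℝ) / 2 - (k ω : ℝ))) ^ 2)) / (Fintype.card Ω : ℝ) := by
      exact (avg_add_mul A B _ hn).symm
    rw [e1, e2]
    exact div_le_div_of_nonneg_right (Finset.sum_le_sum fun ω _ => hpt ω) hn.le
  refine hsum.trans ?_
  have h5 : B * ((∑ ω : Ω, (max 0 ((m : ℝ) / 2 - (k ω : ℝ))) ^ 2) / (Fintype.card Ω : ℝ)) ≤
      B * ((m : ℝ) / 2) := mul_le_mul_of_nonneg_left hvar hB0
  have h6 : B * ((m : ℝ) / 2) = 18 / r := by
    rw [hB, ← hr2]; field_simp; ring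
  have h7 : A ≤ 1 + 2 / r := by
    have h8 : 1 / (m : ℝ) ≤ 1 / r := by
      apply one_div_le_one_div_of_le hr0
      nlinarith
    have h9 : 1 / (2 * r) ≤ 1 / r * (1 / 2) := by
      apply le_of_eq; field_simp
    have h10 : 1 / r ≤ 1 / 4 := by
      apply one_div_le_one_div_of_le (by norm_num) hr4
    have h11 : 0 < 1 / r := by positivity
    have h12 : 0 < 1 / (m : ℝ) := by positivity
    have e3 : 2 / r = 2 * (1 / r) := by ring
    rw [e3, hA]
    nlinarith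
  have e4 : 20 / r = 2 / r + 18 / r := by ring
  rw [e4]
  linarith

end P162
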