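import Vale.Agent.Lib.P162.Entropy

/-!
# P162: the bipartite recursion (steps 1-5 of note P162plan, part II).
-/

open Finset BigOperators Real

noncomputable section

namespace P162

lemma push_push {α β γ : Type*} [Fintype α] [DecidableEq β] [Fintype β] [DecidableEq γ]
    (f : α → β) (g : β → γ) (p : α → ℝ) : push g (push f p) = push (g ∘ f) p := by
  funext c
  unfold push
  rw [Finset.sum_filter, Finset.sum_filter, ← Finset.sum_fiberwise (s := Finset.univ) (g := f)]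
  refine Finset.sum_congr rfl fun b _ => ?_
  have hcomp : ∀ a ∈ Finset.univ.filter (fun a => f a = b),
      (if (g ∘ f) a = c then p a else 0) = if g b = c then p a else 0 := by
    intro a ha
    simp only [Function.comp, (Finset.mem_filter.1 ha).2]
  rw [Finset.sum_congr rfl hcomp]
  split_ifs with h
  · rfl
  · simp

/-- Chain rule for a law on a product type. -/
lemma Dm_prod_chain {U V : Type*} [Fintype U] [Fintype V] [DecidableEq U]
    (hU : (Fintype.card U : ℝ) ≠ 0) (hV : (Fintype.card V : ℝ) ≠ 0) (ρ : U × V → ℝ) :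
    Dm ρ = Dm (push Prod.fst ρ) + ∑ u, Dm (fun v => ρ (u, v)) := by
  have h := DN_chain Prod.fst ρ hU hV
  have hcard : ((Fintype.card (U × V) : ℕ) : ℝ) = (Fintype.card U : ℝ) * Fintype.card V := by
    rw [Fintype.card_prod]; push_cast; ring
  unfold Dm
  rw [hcard, h]
  congr 1
  refine Finset.sum_congr rfl fun u _ => ?_
  -- the slice
  have hinj : Function.Injective (fun v : V => (u, v)) := fun a b h => (Prod.ext_iff.1 h).2
  have hz : ∀ a, a ∉ Set.range (fun v : V => (u, v)) → restr Prod.fst ρ u a = 0 := by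
    intro a ha
    unfold restr
    rw [if_neg]
    intro h'
    exact ha ⟨a.2, Prod.ext h'.symm rfl⟩
  have e : (fun v => ρ (u, v)) = (restr Prod.fst ρ u) ∘ (fun v : V => (u, v)) := by
    funext v
    simp [restr]
  unfold DN
  rw [e, hh_comp_inj _ hinj _ hz, mass_comp_inj _ hinj _ hz]

variable {X Y : Type} [Fintype X] [Fintype Y] [DecidableEq X] [DecidableEq Y]

/-! ### Half sets, counting -/

lemma card_half (hn : Even (Fintype.card X)) :
    Fintype.card (Half X) = (Fintype.card X).choose (Fintype.card X / 2) := by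
  rw [← Fintype.card_finset_len]
  apply Fintype.card_congr
  apply Equiv.subtypeEquivRight
  intro T
  obtain ⟨r, hr⟩ := hn
  omega

lemma equiv_nonempty_of_card (h : Fintype.card X = Fintype.card Y) : Nonempty (X ≃ Y) :=
  ⟨Fintype.equivOfCardEq h⟩

/-! ### Gluing -/

/-- Bijections respecting a pair of subsets. -/
abbrev SplitT (T : Finset X) (Z : Finset Y) : Type :=
  (↥T ≃ ↥Z) × ({x // x ∉ T} ≃ {y // y ∉ Z})

/-- Glue two partial bijections. -/
def glue (T : Finset X) (Z : Finset Y) (e : SplitT T Z) : X ≃ Y :=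
  ((Equiv.sumCompl (· ∈ T)).symm.trans (Equiv.sumCongr e.1 e.2)).trans (Equiv.sumCompl (· ∈ Z))

lemma glue_apply_mem (T : Finset X) (Z : Finset Y) (e : SplitT T Z) (x : ↥T) :
    glue T Z e x = e.1 x := by
  unfold glue
  simp only [Equiv.trans_apply]
  rw [Equiv.sumCompl_symm_apply_of_pos (p := (· ∈ T)) x.2]
  simp

lemma glue_apply_not_mem (T : Finset X) (Z : Finset Y) (e : SplitT T Z) (x : {x // x ∉ T}) :
    glue T Z e x = e.2 x := by
  unfold glue
  simp only [Equiv.trans_apply]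
  rw [Equiv.sumCompl_symm_apply_of_neg (p := (· ∈ T)) x.2]
  simp

lemma glue_injective (T : Finset X) (Z : Finset Y) : Function.Injective (glue T Z) := by
  intro e e' h
  refine Prod.ext ?_ ?_
  · ext x
    have := congrArg (fun c : X ≃ Y => c x) h
    simp only [glue_apply_mem] at this
    rw [this]
  · ext x
    have := congrArg (fun c : X ≃ Y => c x) h
    simp only [glue_apply_not_mem] at this
    rw [this]

/-- The range of `glue`. -/
lemma mem_range_glue (T : Finset X) (Z : Finset Y) (c : X ≃ Y) :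
    c ∈ Set.range (glue T Z) ↔ T.map c.toEmbedding = Z := by
  constructor
  · rintro ⟨e, rfl⟩
    ext y
    simp only [Finset.mem_map, Equiv.coe_toEmbedding]
    constructor
    · rintro ⟨x, hx, rfl⟩
      have := glue_apply_mem T Z e ⟨x, hx⟩
      simp only at this
      rw [this]
      exact (e.1 ⟨x, hx⟩).2
    · intro hy
      refine ⟨(e.1.symm ⟨y, hy⟩).1, (e.1.symm ⟨y, hy⟩).2, ?_⟩
      have := glue_apply_mem T Z e (e.1.symm ⟨y, hy⟩)
      rw [this]
      simp
  · intro h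
    have h1 : ∀ x, x ∈ T ↔ c x ∈ Z := by
      intro x
      rw [← h]
      simp
    have h2 : ∀ x, x ∉ T ↔ c x ∉ Z := fun x => not_congr (h1 x)
    refine ⟨(c.subtypeEquiv h1, c.subtypeEquiv h2), ?_⟩
    ext x
    by_cases hx : x ∈ T
    · have := glue_apply_mem T Z (c.subtypeEquiv h1, c.subtypeEquiv h2) ⟨x, hx⟩
      simp only at this
      rw [this]
      simp
    · have := glue_apply_not_mem T Z (c.subtypeEquiv h1, c.subtypeEquiv h2) ⟨x, hx⟩
      simp only at this
      rw [this]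
      simp

/-- The law on the split system. -/
def split (T : Half X) (Z : Half Y) (ν : (X ≃ Y) → ℝ) : SplitT T.1 Z.1 → ℝ :=
  fun e => ν (glue T.1 Z.1 e)

lemma card_half_sub (T : Half X) : Fintype.card ↥T.1 * 2 = Fintype.card X := by
  rw [Fintype.card_coe]
  have := T.2
  omega

lemma card_half_compl (T : Half X) : Fintype.card {x // x ∉ T.1} * 2 = Fintype.card X := by
  have h1 : Fintype.card {x // x ∉ T.1} = Fintype.card X - T.1.card := by
    rw [Fintype.card_subtype_compl]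
    congr 1
    exact Fintype.card_coe T.1
  have h2 := T.2
  omega

lemma card_splitT (T : Half X) (Z : Half Y) (h : Fintype.card X = Fintype.card Y) :
    Fintype.card (SplitT T.1 Z.1) = ((Fintype.card X / 2).factorial) ^ 2 := by
  have h1 := card_half_sub T
  have h2 := card_half_compl T
  have h3 := card_half_sub Z
  have h4 := card_half_compl Z
  rw [Fintype.card_prod]
  rw [Fintype.card_equiv (Fintype.equivOfCardEq (by omega)),
    Fintype.card_equiv (Fintype.equivOfCardEq (by omega))]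
  have e1 : Fintype.card ↥T.1 = Fintype.card X / 2 := by omega
  have e2 : Fintype.card {x // x ∉ T.1} = Fintype.card X / 2 := by omega
  rw [e1, e2]
  ring

lemma card_equiv_eq (h : Fintype.card X = Fintype.card Y) :
    Fintype.card (X ≃ Y) = (Fintype.card X).factorial :=
  Fintype.card_equiv (Fintype.equivOfCardEq h)

/-! ### Step 1: chain rule -/

/-- `row c T = Z` iff `T.map c = Z`. -/
lemma row_eq_iff (c : X ≃ Y) (T : Half X) (Z : Half Y) :
    row c T = Z ↔ T.1.map c.toEmbedding = Z.1 := by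
  rw [Subtype.ext_iff]
  rfl

lemma row_glue (T : Half X) (Z : Half Y) (e : SplitT T.1 Z.1) : row (glue T.1 Z.1 e) T = Z :=
  (row_eq_iff _ _ _).2 ((mem_range_glue T.1 Z.1 _).1 ⟨e, rfl⟩)

/-- Transport for the slice of the row. -/
lemma split_eq_restr (ν : (X ≃ Y) → ℝ) (T : Half X) (Z : Half Y) :
    split T Z ν = (restr (fun c : X ≃ Y => row c T) ν Z) ∘ glue T.1 Z.1 := by
  funext e
  simp [split, restr, row_glue]

lemma restr_zero_of_not_range (ν : (X ≃ Y) → ℝ) (T : Half X) (Z : Half Y) (c : X ≃ Y)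
    (hc : c ∉ Set.range (glue T.1 Z.1)) : restr (fun c : X ≃ Y => row c T) ν Z c = 0 := by
  unfold restr
  rw [if_neg]
  intro h
  apply hc
  rw [mem_range_glue]
  exact (row_eq_iff _ _ _).1 h

lemma hh_split (ν : (X ≃ Y) → ℝ) (T : Half X) (Z : Half Y) :
    hh (split T Z ν) = hh (restr (fun c : X ≃ Y => row c T) ν Z) := by
  rw [split_eq_restr]
  exact hh_comp_inj _ (glue_injective _ _) _ (restr_zero_of_not_range ν T Z)

lemma mass_split (ν : (X ≃ Y) → ℝ) (T : Half X) (Z : Half Y) :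
    mass (split T Z ν) = mass (restr (fun c : X ≃ Y => row c T) ν Z) := by
  rw [split_eq_restr]
  exact mass_comp_inj _ (glue_injective _ _) _ (restr_zero_of_not_range ν T Z)

/-- Step 1 for a fixed `T`. -/
theorem Dm_split (hc : Fintype.card X = Fintype.card Y) (hn : Even (Fintype.card X))
    (ν : (X ≃ Y) → ℝ) (T : Half X) :
    Dm ν = Dm (push (fun c : X ≃ Y => row c T) ν) + ∑ Z : Half Y, Dm (split T Z ν) := by
  set n := Fintype.card X with hn'
  have hhalfY : Fintype.card (Half Y) = n.choose (n / 2) := by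
    rw [card_half (hc ▸ hn), ← hc]
  have hf : (((n / 2).factorial : ℕ) : ℝ) ^ 2 ≠ 0 := by positivity
  have hB : ((n.choose (n / 2) : ℕ) : ℝ) ≠ 0 := by
    have : 0 < n.choose (n / 2) := Nat.choose_pos (Nat.div_le_self _ _)
    positivity
  have hfact : ((Fintype.card (X ≃ Y) : ℕ) : ℝ)
      = ((n.choose (n / 2) : ℕ) : ℝ) * (((n / 2).factorial : ℕ) : ℝ) ^ 2 := by
    rw [card_equiv_eq hc]
    have := Nat.choose_mul_factorial_mul_factorial (Nat.div_le_self n 2)
    obtain ⟨r, hr⟩ := hn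
    have hnr : n - n / 2 = n / 2 := by omega
    rw [hnr] at this
    rw [← this]
    push_cast
    ring
  have h := DN_chain (fun c : X ≃ Y => row c T) ν hB hf
  unfold Dm
  rw [hfact, h, hhalfY]
  congr 1
  refine Finset.sum_congr rfl fun Z _ => ?_
  unfold DN
  rw [hh_split, mass_split, card_splitT T Z hc]
  push_cast
  rfl

/-- Half sets of an even type exist. -/
lemma card_half_pos (hn : Even (Fintype.card X)) : 0 < Fintype.card (Half X) := by
  rw [card_half hn]
  exact Nat.choose_pos (Nat.div_le_self _ _)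

/-- Step 1 averaged. -/
theorem Dm_eq_xRow_add (hc : Fintype.card X = Fintype.card Y) (hn' : Even (Fintype.card X))
    (ν : (X ≃ Y) → ℝ) :
    Dm ν = xRow ν + (∑ T : Half X, ∑ Z : Half Y, Dm (split T Z ν)) / Fintype.card (Half X) := by
  have hpos : (0 : ℝ) < Fintype.card (Half X) := by exact_mod_cast card_half_pos hn'
  unfold xRow
  rw [← add_div, ← Finset.sum_add_distrib]
  rw [Finset.sum_congr rfl fun T _ => (Dm_split hc hn' ν T).symm]
  simp only [Finset.sum_const, Finset.card_univ, nsmul_eq_mul]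
  field_simp

/-! ### Step 2: tensorization -/

section Tensor
variable {X₁ Y₁ X₂ Y₂ : Type} [Fintype X₁] [Fintype Y₁] [Fintype X₂] [Fintype Y₂]
  [DecidableEq X₁] [DecidableEq Y₁] [DecidableEq X₂] [DecidableEq Y₂]

lemma tensor_fixed (h1 : Fintype.card X₁ = Fintype.card Y₁) (h2 : Fintype.card X₂ = Fintype.card Y₂)
    (T₁ : Half X₁) (T₂ : Half X₂)
    (ρ : (X₁ ≃ Y₁) × (X₂ ≃ Y₂) → ℝ) (hρ : ∀ e, 0 ≤ ρ e) :
    Dm (push (fun e : (X₁ ≃ Y₁) × (X₂ ≃ Y₂) => (row e.1 T₁, row e.2 T₂)) ρ)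
      ≤ Dm (push (fun c : X₁ ≃ Y₁ => row c T₁) (push Prod.fst ρ))
        + ∑ c₁ : X₁ ≃ Y₁, Dm (push (fun c : X₂ ≃ Y₂ => row c T₂) (fun c₂ => ρ (c₁, c₂))) := by
  obtain ⟨c₁⟩ := equiv_nonempty_of_card h1
  obtain ⟨c₂⟩ := equiv_nonempty_of_card h2
  have hU : ((Fintype.card (Half Y₁) : ℕ) : ℝ) ≠ 0 := by
    have : 0 < Fintype.card (Half Y₁) := Fintype.card_pos_iff.2 ⟨row c₁ T₁⟩
    positivity
  have hV : ((Fintype.card (Half Y₂) : ℕ) : ℝ) ≠ 0 := by
    have : 0 < Fintype.card (Half Y₂) := Fintype.card_pos_iff.2 ⟨row c₂ T₂⟩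
    positivity
  rw [Dm_prod_chain hU hV]
  set G := fun e : (X₁ ≃ Y₁) × (X₂ ≃ Y₂) => (row e.1 T₁, row e.2 T₂) with hG
  have e1 : push Prod.fst (push G ρ) = push (fun c : X₁ ≃ Y₁ => row c T₁) (push Prod.fst ρ) := by
    rw [push_push, push_push]
    rfl
  rw [e1]
  refine add_le_add le_rfl ?_
  -- the slice is a sum over c₁
  have e2 : ∀ Z₁ : Half Y₁, (fun Z₂ => push G ρ (Z₁, Z₂))
      = fun Z₂ => ∑ c₁ : X₁ ≃ Y₁ with row c₁ T₁ = Z₁,
          push (fun c : X₂ ≃ Y₂ => row c T₂) (fun c₂ => ρ (c₁, c₂)) Z₂ := by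
    intro Z₁
    funext Z₂
    unfold push
    rw [← Finset.sum_product']
    have : (Finset.univ.filter fun a : (X₁ ≃ Y₁) × (X₂ ≃ Y₂) => G a = (Z₁, Z₂))
        = (Finset.univ.filter fun c₁ : X₁ ≃ Y₁ => row c₁ T₁ = Z₁) ×ˢ
            (Finset.univ.filter fun c₂ : X₂ ≃ Y₂ => row c₂ T₂ = Z₂) := by
      ext a
      simp [hG, Prod.ext_iff]
    rw [this]
  have e3 : ∀ Z₁ : Half Y₁, Dm (fun Z₂ => push G ρ (Z₁, Z₂))
      ≤ ∑ c₁ : X₁ ≃ Y₁ with row c₁ T₁ = Z₁,
          Dm (push (fun c : X₂ ≃ Y₂ => row c T₂) (fun c₂ => ρ (c₁, c₂))) := by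
    intro Z₁
    rw [e2]
    exact DN_sum_le _ _ (fun c₁ Z₂ => push_nonneg _ (fun c₂ => hρ _) Z₂) _
  calc ∑ Z₁, Dm (fun Z₂ => push G ρ (Z₁, Z₂))
      ≤ ∑ Z₁, ∑ c₁ : X₁ ≃ Y₁ with row c₁ T₁ = Z₁,
          Dm (push (fun c : X₂ ≃ Y₂ => row c T₂) (fun c₂ => ρ (c₁, c₂))) :=
        Finset.sum_le_sum fun Z₁ _ => e3 Z₁
    _ = _ := Finset.sum_fiberwise _ _ _

/-- Tensorization of the inequality to a product system. -/
theorem tensor {j : ℕ} {θ : ℝ} (hθ : 0 ≤ θ) (h : BipSDPI j θ)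
    (h1 : Fintype.card X₁ = 2 ^ j) (h1' : Fintype.card Y₁ = 2 ^ j)
    (h2 : Fintype.card X₂ = 2 ^ j) (h2' : Fintype.card Y₂ = 2 ^ j)
    (ρ : (X₁ ≃ Y₁) × (X₂ ≃ Y₂) → ℝ) (hρ : ∀ e, 0 ≤ ρ e) :
    xProd ρ ≤ θ * Dm ρ := by
  have hc1 : Fintype.card X₁ = Fintype.card Y₁ := h1.trans h1'.symm
  have hc2 : Fintype.card X₂ = Fintype.card Y₂ := h2.trans h2'.symm
  by_cases hne : Nonempty (Half X₁) ∧ Nonempty (Half X₂)
  · obtain ⟨hne1, hne2⟩ := hne
    have hpos1 : (0 : ℝ) < Fintype.card (Half X₁) := by exact_mod_cast Fintype.card_pos_iff.2 hne1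
    have hpos2 : (0 : ℝ) < Fintype.card (Half X₂) := by exact_mod_cast Fintype.card_pos_iff.2 hne2
    obtain ⟨c₁⟩ := equiv_nonempty_of_card hc1
    obtain ⟨c₂⟩ := equiv_nonempty_of_card hc2
    have hU : ((Fintype.card (X₁ ≃ Y₁) : ℕ) : ℝ) ≠ 0 := by
      have : 0 < Fintype.card (X₁ ≃ Y₁) := Fintype.card_pos_iff.2 ⟨c₁⟩
      positivity
    have hV : ((Fintype.card (X₂ ≃ Y₂) : ℕ) : ℝ) ≠ 0 := by
      have : 0 < Fintype.card (X₂ ≃ Y₂) := Fintype.card_pos_iff.2 ⟨c₂⟩
      positivity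
    have hchain := Dm_prod_chain hU hV ρ
    have hIH1 := h X₁ Y₁ h1 h1' (push Prod.fst ρ) (push_nonneg _ hρ)
    have hIH2 := fun c₁ : X₁ ≃ Y₁ => h X₂ Y₂ h2 h2' (fun c₂ => ρ (c₁, c₂)) (fun c₂ => hρ _)
    unfold xRow at hIH1 hIH2
    unfold xProd
    rw [div_le_iff₀ (mul_pos hpos1 hpos2)]
    calc ∑ T₁ : Half X₁, ∑ T₂ : Half X₂,
          Dm (push (fun e : (X₁ ≃ Y₁) × (X₂ ≃ Y₂) => (row e.1 T₁, row e.2 T₂)) ρ)
        ≤ ∑ T₁ : Half X₁, ∑ T₂ : Half X₂,
            (Dm (push (fun c : X₁ ≃ Y₁ => row c T₁) (push Prod.fst ρ))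
            + ∑ c₁ : X₁ ≃ Y₁, Dm (push (fun c : X₂ ≃ Y₂ => row c T₂) (fun c₂ => ρ (c₁, c₂)))) :=
          Finset.sum_le_sum fun T₁ _ => Finset.sum_le_sum fun T₂ _ =>
            tensor_fixed hc1 hc2 T₁ T₂ ρ hρ
      _ = (Fintype.card (Half X₂) : ℝ) * ∑ T₁ : Half X₁, Dm (push (fun c : X₁ ≃ Y₁ => row c T₁) (push Prod.fst ρ))
          + (Fintype.card (Half X₁) : ℝ) * ∑ c₁ : X₁ ≃ Y₁, ∑ T₂ : Half X₂,
              Dm (push (fun c : X₂ ≃ Y₂ => row c T₂) (fun c₂ => ρ (c₁, c₂))) := by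
          simp_rw [Finset.sum_add_distrib]
          simp only [Finset.sum_const, Finset.card_univ, nsmul_eq_mul]
          rw [← Finset.mul_sum]
          congr 2
          rw [Finset.sum_comm]
      _ ≤ (Fintype.card (Half X₂) : ℝ) * ((θ * Dm (push Prod.fst ρ)) * Fintype.card (Half X₁))
          + (Fintype.card (Half X₁) : ℝ) * ∑ c₁ : X₁ ≃ Y₁,
              ((θ * Dm (fun c₂ => ρ (c₁, c₂))) * Fintype.card (Half X₂)) := by
          refine add_le_add (mul_le_mul_of_nonneg_left ?_ hpos2.le)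
            (mul_le_mul_of_nonneg_left (Finset.sum_le_sum fun c₁ _ => ?_) hpos1.le)
          · exact (div_le_iff₀ hpos1).1 hIH1
          · exact (div_le_iff₀ hpos2).1 (hIH2 c₁)
      _ = θ * Dm ρ * (↑(Fintype.card (Half X₁)) * ↑(Fintype.card (Half X₂))) := by
          rw [hchain, ← Finset.sum_mul, ← Finset.mul_sum]
          ring
  · have hzero : xProd ρ = 0 := by
      unfold xProd
      rw [not_and_or] at hne
      rcases hne with hne | hne
      · rw [not_nonempty_iff] at hne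
        simp
      · rw [not_nonempty_iff] at hne
        simp
    rw [hzero]
    exact mul_nonneg hθ (Dm_nonneg hρ)

end Tensor

end P162
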