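import Vale.Agent.Lib.P162.BipA

/-!
# P162: the bipartite recursion, part B: orthogonal rows, steps 3-5.
-/

open Finset BigOperators Real

noncomputable section

namespace P162

variable {X Y : Type} [Fintype X] [Fintype Y] [DecidableEq X] [DecidableEq Y]

lemma orth_comm (T S : Half X) : Orth T S ↔ Orth S T := by
  unfold Orth
  rw [Finset.inter_comm]

lemma orth_row (c : X ≃ Y) (T S : Half X) : Orth (row c T) (row c S) ↔ Orth T S := by
  unfold Orth row
  simp only
  rw [← Finset.map_inter, Finset.card_map]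
  have := Fintype.card_congr c
  omega

/-! ### Join -/

lemma card_join (T : Half X) (T₁ : Half ↥T.1) (T₂ : Half {x // x ∉ T.1}) :
    (T₁.1.map (Function.Embedding.subtype _) ∪ T₂.1.map (Function.Embedding.subtype _)).card
      = T₁.1.card + T₂.1.card := by
  rw [Finset.card_union_of_disjoint, Finset.card_map, Finset.card_map]
  rw [Finset.disjoint_left]
  intro a ha hb
  simp only [Finset.mem_map, Function.Embedding.coe_subtype] at ha hb
  obtain ⟨x, _, rfl⟩ := ha
  obtain ⟨y, _, hy⟩ := hb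
  exact y.2 (hy ▸ x.2)

/-- Join two half sets of the parts into a half set. -/
def joinHalf (T : Half X) (T₁ : Half ↥T.1) (T₂ : Half {x // x ∉ T.1}) : Half X :=
  ⟨T₁.1.map (Function.Embedding.subtype _) ∪ T₂.1.map (Function.Embedding.subtype _), by
    rw [card_join]
    have h1 := T₁.2
    have h2 := T₂.2
    have h3 := card_half_sub T
    have h4 := card_half_compl T
    omega⟩

lemma mem_joinHalf_of_mem (T : Half X) (T₁ : Half ↥T.1) (T₂ : Half {x // x ∉ T.1}) (x : ↥T.1) :
    x.1 ∈ (joinHalf T T₁ T₂).1 ↔ x ∈ T₁.1 := by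
  simp only [joinHalf, Finset.mem_union, Finset.mem_map, Function.Embedding.coe_subtype]
  constructor
  · rintro (⟨y, hy, he⟩ | ⟨y, _, he⟩)
    · rwa [← Subtype.ext he]
    · exact absurd (he ▸ x.2) y.2
  · intro h
    exact Or.inl ⟨x, h, rfl⟩

lemma mem_joinHalf_of_not_mem (T : Half X) (T₁ : Half ↥T.1) (T₂ : Half {x // x ∉ T.1})
    (x : {x // x ∉ T.1}) : x.1 ∈ (joinHalf T T₁ T₂).1 ↔ x ∈ T₂.1 := by
  simp only [joinHalf, Finset.mem_union, Finset.mem_map, Function.Embedding.coe_subtype]
  constructor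
  · rintro (⟨y, _, he⟩ | ⟨y, hy, he⟩)
    · exact absurd (he ▸ y.2) x.2
    · rwa [← Subtype.ext he]
  · intro h
    exact Or.inr ⟨x, h, rfl⟩

lemma orth_joinHalf (T : Half X) (T₁ : Half ↥T.1) (T₂ : Half {x // x ∉ T.1}) :
    Orth T (joinHalf T T₁ T₂) := by
  unfold Orth
  have : T.1 ∩ (joinHalf T T₁ T₂).1 = T₁.1.map (Function.Embedding.subtype _) := by
    ext x
    simp only [Finset.mem_inter, Finset.mem_map, Function.Embedding.coe_subtype]
    constructor
    · rintro ⟨hx, hj⟩
      exact ⟨⟨x, hx⟩, (mem_joinHalf_of_mem T T₁ T₂ ⟨x, hx⟩).1 hj, rfl⟩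
    · rintro ⟨y, hy, rfl⟩
      exact ⟨y.2, (mem_joinHalf_of_mem T T₁ T₂ y).2 hy⟩
  rw [this, Finset.card_map]
  have h1 := T₁.2
  have h3 := card_half_sub T
  omega

lemma joinHalf_injective (T : Half X) :
    Function.Injective (fun p : Half ↥T.1 × Half {x // x ∉ T.1} => joinHalf T p.1 p.2) := by
  rintro ⟨a₁, a₂⟩ ⟨b₁, b₂⟩ h
  simp only at h
  refine Prod.ext (Subtype.ext ?_) (Subtype.ext ?_)
  · ext x
    rw [← mem_joinHalf_of_mem T a₁ a₂ x, h, mem_joinHalf_of_mem]
  · ext x
    rw [← mem_joinHalf_of_not_mem T a₁ a₂ x, h, mem_joinHalf_of_not_mem]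

lemma joinHalf_surj (T S : Half X) (h : Orth T S) :
    ∃ p : Half ↥T.1 × Half {x // x ∉ T.1}, joinHalf T p.1 p.2 = S := by
  have h0 := T.2
  have h0' := S.2
  unfold Orth at h
  have c1 : (S.1.subtype (· ∈ T.1)).card = (T.1 ∩ S.1).card := by
    rw [Finset.card_subtype]
    congr 1
    ext x
    simp [and_comm]
  have c2 : (S.1.subtype (· ∉ T.1)).card + (T.1 ∩ S.1).card = S.1.card := by
    rw [Finset.card_subtype, ← Finset.card_filter_add_card_filter_not (s := S.1) (fun x => x ∈ T.1)]
    rw [add_comm]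
    congr 2
    ext x
    simp [and_comm]
  refine ⟨(⟨S.1.subtype (· ∈ T.1), ?_⟩, ⟨S.1.subtype (· ∉ T.1), ?_⟩), ?_⟩
  · have := card_half_sub T
    omega
  · have := card_half_compl T
    omega
  · apply Subtype.ext
    ext x
    by_cases hx : x ∈ T.1
    · have := mem_joinHalf_of_mem T ⟨S.1.subtype (· ∈ T.1), ?_⟩ ⟨S.1.subtype (· ∉ T.1), ?_⟩ ⟨x, hx⟩
      · simp only at this
        rw [this]
        simp [hx]
      · have := card_half_sub T
        omega
      · have := card_half_compl T
        omega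
    · have := mem_joinHalf_of_not_mem T ⟨S.1.subtype (· ∈ T.1), ?_⟩ ⟨S.1.subtype (· ∉ T.1), ?_⟩ ⟨x, hx⟩
      · simp only at this
        rw [this]
        simp [hx]
      · have := card_half_sub T
        omega
      · have := card_half_compl T
        omega

/-- Sum over the two half sets = sum over half sets orthogonal to `T`. -/
lemma sum_join (T : Half X) (F : Half X → ℝ) :
    ∑ T₁ : Half ↥T.1, ∑ T₂ : Half {x // x ∉ T.1}, F (joinHalf T T₁ T₂)
      = ∑ S with Orth T S, F S := by
  rw [← Fintype.sum_prod_type' (f := fun T₁ T₂ => F (joinHalf T T₁ T₂))]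
  refine Finset.sum_bij (fun p _ => joinHalf T p.1 p.2) ?_ ?_ ?_ ?_
  · intro p _
    simp [orth_joinHalf]
  · intro a _ b _ h
    exact joinHalf_injective T h
  · intro S hS
    obtain ⟨p, hp⟩ := joinHalf_surj T S (Finset.mem_filter.1 hS).2
    exact ⟨p, Finset.mem_univ _, hp⟩
  · intro p _
    rfl

/-- Counting half sets of a half. -/
lemma card_half_part (M : ℕ) (hX : Fintype.card X = 4 * M) (T : Half X) :
    Fintype.card (Half ↥T.1) = (2 * M).choose M := by
  have h := card_half_sub T
  have hc : Fintype.card ↥T.1 = 2 * M := by omega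
  rw [card_half (by rw [hc]; exact even_two_mul M), hc]
  congr 1
  omega

lemma card_half_part' (M : ℕ) (hX : Fintype.card X = 4 * M) (T : Half X) :
    Fintype.card (Half {x // x ∉ T.1}) = (2 * M).choose M := by
  have h := card_half_compl T
  have hc : Fintype.card {x // x ∉ T.1} = 2 * M := by omega
  rw [card_half (by rw [hc]; exact even_two_mul M), hc]
  congr 1
  omega

/-- The number of half sets orthogonal to a given half set. -/
lemma card_orth (M : ℕ) (hX : Fintype.card X = 4 * M) (T : Half X) :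
    ((Finset.univ : Finset (Half X)).filter fun S => Orth T S).card = ((2 * M).choose M) ^ 2 := by
  have h := sum_join T (fun _ => (1 : ℝ))
  simp only [Finset.sum_const, Finset.card_univ, nsmul_eq_mul, mul_one] at h
  rw [card_half_part M hX, card_half_part' M hX] at h
  have h2 : (((2 * M).choose M * (2 * M).choose M : ℕ) : ℝ)
      = (((Finset.univ : Finset (Half X)).filter fun S => Orth T S).card : ℝ) := by
    push_cast
    exact_mod_cast h
  have h3 : (2 * M).choose M * (2 * M).choose M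
      = ((Finset.univ : Finset (Half X)).filter fun S => Orth T S).card := by exact_mod_cast h2
  rw [← h3]
  ring

/-- Image of a join under a glued bijection. -/
lemma row_glue_join (T : Half X) (Z : Half Y) (e : SplitT T.1 Z.1) (T₁ : Half ↥T.1)
    (T₂ : Half {x // x ∉ T.1}) :
    row (glue T.1 Z.1 e) (joinHalf T T₁ T₂) = joinHalf Z (row e.1 T₁) (row e.2 T₂) := by
  apply Subtype.ext
  ext y
  simp only [row, joinHalf, Finset.mem_map, Finset.mem_union, Function.Embedding.coe_subtype,
    Equiv.coe_toEmbedding]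
  constructor
  · rintro ⟨x, (⟨a, ha, rfl⟩ | ⟨a, ha, rfl⟩), rfl⟩
    · left
      exact ⟨e.1 a, ⟨a, ha, rfl⟩, (glue_apply_mem T.1 Z.1 e a).symm⟩
    · right
      exact ⟨e.2 a, ⟨a, ha, rfl⟩, (glue_apply_not_mem T.1 Z.1 e a).symm⟩
  · rintro (⟨b, ⟨a, ha, rfl⟩, rfl⟩ | ⟨b, ⟨a, ha, rfl⟩, rfl⟩)
    · exact ⟨a, Or.inl ⟨a, ha, rfl⟩, glue_apply_mem T.1 Z.1 e a⟩
    · exact ⟨a, Or.inr ⟨a, ha, rfl⟩, glue_apply_not_mem T.1 Z.1 e a⟩

/-- Pushing the split law forward along glue. -/
lemma push_glue_split (ν : (X ≃ Y) → ℝ) (T : Half X) (Z : Half Y) :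
    push (glue T.1 Z.1) (split T Z ν) = restr (fun c : X ≃ Y => row c T) ν Z := by
  funext c
  unfold push
  by_cases hc : c ∈ Set.range (glue T.1 Z.1)
  · obtain ⟨e, rfl⟩ := hc
    rw [Finset.sum_eq_single e]
    · simp [split, restr, row_glue]
    · intro b hb hne
      exact absurd (glue_injective _ _ (Finset.mem_filter.1 hb).2) hne
    · intro h
      simp at h
  · rw [restr_zero_of_not_range ν T Z c hc]
    refine Finset.sum_eq_zero fun e he => ?_
    exact absurd ⟨e, (Finset.mem_filter.1 he).2⟩ hc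

lemma push_restr {α β γ : Type*} [Fintype α] [DecidableEq β] [DecidableEq γ] [Fintype β]
    (G : α → β × γ) (ν : α → ℝ) (Z : β) :
    push G (restr (fun c => (G c).1) ν Z) = restr Prod.fst (push G ν) Z := by
  funext a
  unfold push restr
  rw [Finset.sum_congr rfl (g := fun c => if a.1 = Z then ν c else 0)]
  · split_ifs with h
    · rfl
    · simp
  · intro c hc
    have h1 : (G c).1 = a.1 := by rw [(Finset.mem_filter.1 hc).2]
    simp only [h1]

/-- The key identity: conditional entropy of the product row. -/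
theorem sum_Dm_split_prod (M : ℕ) (hY : Fintype.card Y = 4 * M) (ν : (X ≃ Y) → ℝ) (T : Half X) (T₁ : Half ↥T.1) (T₂ : Half {x // x ∉ T.1}) :
    ∑ Z : Half Y, Dm (push (fun e : SplitT T.1 Z.1 => (row e.1 T₁, row e.2 T₂)) (split T Z ν))
      = mass ν * log ((((2 * M).choose M : ℕ) : ℝ) ^ 2)
        - (hh (push (fun c : X ≃ Y => (row c T, row c (joinHalf T T₁ T₂))) ν)
            - hh (push (fun c : X ≃ Y => row c T) ν)) := by
  set G := fun c : X ≃ Y => (row c T, row c (joinHalf T T₁ T₂)) with hG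
  have hchain := hh_chain Prod.fst (push G ν)
  have hfst : push Prod.fst (push G ν) = push (fun c : X ≃ Y => row c T) ν := by
    rw [push_push]
    rfl
  rw [hfst] at hchain
  have hslice : ∀ Z : Half Y,
      Dm (push (fun e : SplitT T.1 Z.1 => (row e.1 T₁, row e.2 T₂)) (split T Z ν))
        = push (fun c : X ≃ Y => row c T) ν Z * log ((((2 * M).choose M : ℕ) : ℝ) ^ 2)
          - hh (restr Prod.fst (push G ν) Z) := by
    intro Z
    set G' := fun e : SplitT T.1 Z.1 => (row e.1 T₁, row e.2 T₂) with hG'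
    unfold Dm DN
    -- mass
    have hm : mass (push G' (split T Z ν)) = push (fun c : X ≃ Y => row c T) ν Z := by
      rw [mass_push, mass_split, mass_restr]
    -- entropy
    let ι : Half ↥Z.1 × Half {y // y ∉ Z.1} → Half Y × Half Y := fun p => (Z, joinHalf Z p.1 p.2)
    have hι : Function.Injective ι := by
      intro a b h
      exact joinHalf_injective Z (Prod.ext_iff.1 h).2
    have hh1 : hh (push G' (split T Z ν)) = hh (restr Prod.fst (push G ν) Z) := by
      rw [← hh_push_inj ι hι, push_push]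
      have hcomp : ι ∘ G' = G ∘ glue T.1 Z.1 := by
        funext e
        simp only [Function.comp, hG, hG', ι]
        rw [row_glue T Z e, row_glue_join]
      rw [hcomp, ← push_push, push_glue_split]
      rw [show (fun c : X ≃ Y => row c T) = (fun c => (G c).1) from rfl, push_restr]
    rw [hm, hh1]
    have hcard : ((Fintype.card (Half ↥Z.1 × Half {y // y ∉ Z.1}) : ℕ) : ℝ)
        = (((2 * M).choose M : ℕ) : ℝ) ^ 2 := by
      rw [Fintype.card_prod, card_half_part M hY, card_half_part' M hY]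
      push_cast
      ring
    rw [hcard]
  rw [Finset.sum_congr rfl fun Z _ => hslice Z, Finset.sum_sub_distrib, ← Finset.sum_mul]
  have hmass : ∑ Z, push (fun c : X ≃ Y => row c T) ν Z = mass ν := mass_push _ ν
  rw [hmass]
  linarith

/-! ### Step 4 -/

/-- The collision probability of the rows `T`, `S` under two independent copies. -/
def qq (ν : (X ≃ Y) → ℝ) (T S : Half X) : ℝ :=
  ∑ c, ∑ c', ν c * ν c' * (if Orth (row c T) (row c' S) then 1 else 0)

lemma qq_eq (ν : (X ≃ Y) → ℝ) (T S : Half X) :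
    ∑ a : Half Y × Half Y with Orth a.1 a.2,
        push (fun c : X ≃ Y => row c T) ν a.1 * push (fun c : X ≃ Y => row c S) ν a.2 = qq ν T S := by
  rw [Finset.sum_filter, Fintype.sum_prod_type]
  unfold qq
  have e1 : ∀ u : Half Y, ∑ v : Half Y, (if Orth u v then
        push (fun c : X ≃ Y => row c T) ν u * push (fun c : X ≃ Y => row c S) ν v else 0)
      = push (fun c : X ≃ Y => row c T) ν u *
        ∑ c', ν c' * (if Orth u (row c' S) then 1 else 0) := by
    intro u
    rw [sum_mul_push (fun c : X ≃ Y => row c S) ν (fun v => if Orth u v then (1 : ℝ) else 0),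
      Finset.mul_sum]
    refine Finset.sum_congr rfl fun v _ => ?_
    split_ifs <;> ring
  rw [Finset.sum_congr rfl fun u _ => e1 u]
  rw [← sum_mul_push (fun c : X ≃ Y => row c T) ν
    (fun u => ∑ c', ν c' * (if Orth u (row c' S) then (1 : ℝ) else 0))]
  refine Finset.sum_congr rfl fun c _ => ?_
  rw [Finset.mul_sum]
  refine Finset.sum_congr rfl fun c' _ => ?_
  ring

lemma qq_pos (ν : (X ≃ Y) → ℝ) (hν : ∀ c, 0 ≤ ν c) (hν1 : ∑ c, ν c = 1) {T S : Half X}
    (h : Orth T S) : 0 < qq ν T S := by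
  have hex : ∃ c, 0 < ν c := by
    by_contra hne
    push Not at hne
    have : ∑ c, ν c ≤ 0 := Finset.sum_nonpos fun c _ => hne c
    linarith
  obtain ⟨c, hc⟩ := hex
  unfold qq
  have hterm : ∀ a b : X ≃ Y, 0 ≤ ν a * ν b * (if Orth (row a T) (row b S) then (1 : ℝ) else 0) := by
    intro a b
    split_ifs
    · simpa using mul_nonneg (hν a) (hν b)
    · simp
  refine lt_of_lt_of_le ?_ (Finset.single_le_sum (f := fun a => ∑ b, ν a * ν b *
    (if Orth (row a T) (row b S) then (1 : ℝ) else 0)) (fun a _ => Finset.sum_nonneg fun b _ => hterm a b)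
    (Finset.mem_univ c))
  refine lt_of_lt_of_le ?_ (Finset.single_le_sum (f := fun b => ν c * ν b *
    (if Orth (row c T) (row b S) then (1 : ℝ) else 0)) (fun b _ => hterm c b) (Finset.mem_univ c))
  rw [if_pos ((orth_row c T S).2 h)]
  positivity

/-- Mutual information for two orthogonal rows. -/
lemma mutual_rows (ν : (X ≃ Y) → ℝ) (hν : ∀ c, 0 ≤ ν c) (hν1 : ∑ c, ν c = 1) {T S : Half X}
    (h : Orth T S) :
    - log (qq ν T S) ≤ hh (push (fun c : X ≃ Y => row c T) ν) + hh (push (fun c : X ≃ Y => row c S) ν)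
      - hh (push (fun c : X ≃ Y => (row c T, row c S)) ν) := by
  set G := fun c : X ≃ Y => (row c T, row c S) with hG
  have hfst : push Prod.fst (push G ν) = push (fun c : X ≃ Y => row c T) ν := by
    rw [push_push]; rfl
  have hsnd : push Prod.snd (push G ν) = push (fun c : X ≃ Y => row c S) ν := by
    rw [push_push]; rfl
  have hmass : ∑ a, push G ν a = 1 := by
    have := mass_push G ν
    unfold mass at this
    rw [this, hν1]
  have hR : ∀ a : Half Y × Half Y, push G ν a ≠ 0 → Orth a.1 a.2 := by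
    intro a ha
    by_contra hno
    apply ha
    unfold push
    refine Finset.sum_eq_zero fun c hc => ?_
    exfalso
    have := (Finset.mem_filter.1 hc).2
    apply hno
    rw [← this]
    exact (orth_row c T S).2 h
  have := mutual_info_ge (push G ν) (push_nonneg _ hν) hmass (fun a => Orth a.1 a.2) hR
  rw [hfst, hsnd, qq_eq] at this
  exact this

/-- Jensen for the logarithm. -/
lemma sum_log_le {ι : Type*} (s : Finset ι) (hs : s.Nonempty) (q : ι → ℝ) (hq : ∀ i ∈ s, 0 < q i) :
    ∑ i ∈ s, log (q i) ≤ (s.card : ℝ) * log ((∑ i ∈ s, q i) / s.card) := by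
  have hc : (0 : ℝ) < s.card := by exact_mod_cast hs.card_pos
  have hsum : 0 < ∑ i ∈ s, q i := Finset.sum_pos hq hs
  set Q := (∑ i ∈ s, q i) / s.card with hQ
  have hQ0 : 0 < Q := div_pos hsum hc
  have hterm : ∀ i ∈ s, log (q i) ≤ log Q + (q i / Q - 1) := by
    intro i hi
    have h1 := log_le_sub_one_of_pos (div_pos (hq i hi) hQ0)
    rw [log_div (hq i hi).ne' hQ0.ne'] at h1
    linarith
  have h2 := Finset.sum_le_sum hterm
  rw [Finset.sum_add_distrib, Finset.sum_const, Finset.sum_sub_distrib, Finset.sum_const,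
    ← Finset.sum_div] at h2
  simp only [nsmul_eq_mul, mul_one] at h2
  have h3 : (∑ i ∈ s, q i) / Q = s.card := by
    rw [hQ]; field_simp
  rw [h3] at h2
  linarith

/-- `L2 ν`, the average of the product-system deficits. -/
def L2 (ν : (X ≃ Y) → ℝ) : ℝ :=
  (∑ T : Half X, ∑ Z : Half Y, xProd (split T Z ν)) / Fintype.card (Half X)

/-- The lower bound for one `T`. -/
lemma sum_xProd_ge (M : ℕ) (hM : 1 ≤ M) (hX : Fintype.card X = 4 * M) (hY : Fintype.card Y = 4 * M)
    (ν : (X ≃ Y) → ℝ) (hν : ∀ c, 0 ≤ ν c) (hν1 : ∑ c, ν c = 1) (T : Half X) :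
    (∑ S with Orth T S, (log ((((2 * M).choose M : ℕ) : ℝ) ^ 2)
        - hh (push (fun c : X ≃ Y => row c S) ν) - log (qq ν T S))) / (((2 * M).choose M : ℕ) : ℝ) ^ 2
      ≤ ∑ Z : Half Y, xProd (split T Z ν) := by
  have hb : (0 : ℝ) < ((2 * M).choose M : ℕ) := by
    exact_mod_cast Nat.choose_pos (by omega)
  have hm : mass ν = 1 := hν1
  have hxp : ∀ Z : Half Y, xProd (split T Z ν)
      = (∑ T₁ : Half ↥T.1, ∑ T₂ : Half {x // x ∉ T.1},
          Dm (push (fun e : SplitT T.1 Z.1 => (row e.1 T₁, row e.2 T₂)) (split T Z ν)))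
        / (((2 * M).choose M : ℕ) : ℝ) ^ 2 := by
    intro Z
    unfold xProd
    rw [card_half_part M hX, card_half_part' M hX]
    congr 1
    ring
  simp_rw [hxp]
  rw [← Finset.sum_div]
  apply div_le_div_of_nonneg_right _ (by positivity)
  rw [← sum_join T (fun S => log ((((2 * M).choose M : ℕ) : ℝ) ^ 2)
        - hh (push (fun c : X ≃ Y => row c S) ν) - log (qq ν T S))]
  have hR : ∑ Z : Half Y, ∑ T₁ : Half ↥T.1, ∑ T₂ : Half {x // x ∉ T.1},
        Dm (push (fun e : SplitT T.1 Z.1 => (row e.1 T₁, row e.2 T₂)) (split T Z ν))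
      = ∑ T₁ : Half ↥T.1, ∑ T₂ : Half {x // x ∉ T.1}, ∑ Z : Half Y,
        Dm (push (fun e : SplitT T.1 Z.1 => (row e.1 T₁, row e.2 T₂)) (split T Z ν)) := by
    rw [Finset.sum_comm]
    refine Finset.sum_congr rfl fun T₁ _ => ?_
    rw [Finset.sum_comm]
  rw [hR]
  refine Finset.sum_le_sum fun T₁ _ => Finset.sum_le_sum fun T₂ _ => ?_
  rw [sum_Dm_split_prod M hY ν T T₁ T₂, hm, one_mul]
  have := mutual_rows ν hν hν1 (orth_joinHalf T T₁ T₂)
  linarith

/-- Double counting for orthogonal pairs. -/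
lemma sum_orth_right (M : ℕ) (hX : Fintype.card X = 4 * M) (F : Half X → ℝ) :
    ∑ T : Half X, ∑ S with Orth T S, F S = (((2 * M).choose M : ℕ) : ℝ) ^ 2 * ∑ S, F S := by
  simp_rw [Finset.sum_filter]
  rw [Finset.sum_comm, Finset.mul_sum]
  refine Finset.sum_congr rfl fun S _ => ?_
  rw [← Finset.sum_filter]
  simp only [Finset.sum_const, nsmul_eq_mul]
  have : ((Finset.univ : Finset (Half X)).filter fun T => Orth T S)
      = (Finset.univ : Finset (Half X)).filter fun T => Orth S T := by
    ext T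
    simp [orth_comm]
  rw [this, card_orth M hX]
  push_cast
  ring

/-- The sum of the collision probabilities over orthogonal pairs in terms of `Wk`. -/
lemma sum_qq (M : ℕ) (hM : 1 ≤ M) (hX : Fintype.card X = 4 * M) (ν : (X ≃ Y) → ℝ) :
    ∑ T : Half X, ∑ S with Orth T S, qq ν T S
      = (((2 * M).choose M : ℕ) : ℝ) ^ 4 * ∑ c, ∑ c', ν c * ν c' * Wk c c' := by
  have hb : (0 : ℝ) < ((2 * M).choose M : ℕ) := by
    exact_mod_cast Nat.choose_pos (by omega)
  have h2 : Fintype.card X / 2 = 2 * M := by omega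
  have h4 : Fintype.card X / 4 = M := by omega
  have hW : ∀ c c' : X ≃ Y, (((2 * M).choose M : ℕ) : ℝ) ^ 4 * Wk c c'
      = ∑ T : Half X, ∑ S with Orth T S, (if Orth (row c T) (row c' S) then (1 : ℝ) else 0) := by
    intro c c'
    unfold Wk
    rw [h2, h4, mul_div_cancel₀ _ (by positivity)]
    rw [Finset.card_filter]
    push_cast
    rw [Fintype.sum_prod_type]
    refine Finset.sum_congr rfl fun T _ => ?_
    rw [Finset.sum_filter]
    refine Finset.sum_congr rfl fun S _ => ?_
    by_cases h1 : Orth T S <;> by_cases h2 : Orth (row c T) (row c' S) <;> simp [h1, h2]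
  unfold qq
  rw [Finset.mul_sum]
  simp_rw [Finset.mul_sum]
  simp_rw [Finset.sum_filter]
  have : ∀ T S : Half X, (if Orth T S then ∑ c, ∑ c', ν c * ν c' *
        (if Orth (row c T) (row c' S) then (1 : ℝ) else 0) else 0)
      = ∑ c, ∑ c', ν c * ν c' * (if Orth T S then
        (if Orth (row c T) (row c' S) then (1 : ℝ) else 0) else 0) := by
    intro T S
    split_ifs <;> simp
  simp_rw [this]
  have hcomm : ∑ T : Half X, ∑ S : Half X, ∑ c, ∑ c', ν c * ν c' * (if Orth T S then
        (if Orth (row c T) (row c' S) then (1 : ℝ) else 0) else 0)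
      = ∑ c, ∑ c', ν c * ν c' * ∑ T : Half X, ∑ S : Half X, (if Orth T S then
        (if Orth (row c T) (row c' S) then (1 : ℝ) else 0) else 0) := by
    simp_rw [Finset.mul_sum]
    rw [Finset.sum_congr rfl fun T _ => Finset.sum_comm]
    rw [Finset.sum_comm]
    refine Finset.sum_congr rfl fun c _ => ?_
    rw [Finset.sum_congr rfl fun T _ => Finset.sum_comm]
    rw [Finset.sum_comm]
  rw [hcomm]
  refine Finset.sum_congr rfl fun c _ => Finset.sum_congr rfl fun c' _ => ?_
  have := hW c c'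
  simp_rw [Finset.sum_filter] at this
  rw [← this]
  ring

/-- Step 3+4: the second row deficit is at least the first minus the collision term.
Here `|X| = |Y| = 4 M`, so that half sets of half sets exist. -/
theorem L2_ge (M : ℕ) (hM : 1 ≤ M) (hX : Fintype.card X = 4 * M) (hY : Fintype.card Y = 4 * M)
    (ν : (X ≃ Y) → ℝ) (hν : ∀ c, 0 ≤ ν c) (hν1 : ∑ c, ν c = 1) :
    xRow ν - log (∑ c, ∑ c', ν c * ν c' * Wk c c') ≤ L2 ν := by
  set b : ℝ := (((2 * M).choose M : ℕ) : ℝ) with hb
  have hb0 : 0 < b := by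
    rw [hb]; exact_mod_cast Nat.choose_pos (by omega)
  have hevX : Even (Fintype.card X) := by rw [hX]; exact ⟨2 * M, by ring⟩
  have hevY : Even (Fintype.card Y) := by rw [hY]; exact ⟨2 * M, by ring⟩
  set H : ℝ := (Fintype.card (Half X) : ℝ) with hH
  have hH0 : 0 < H := by rw [hH]; exact_mod_cast card_half_pos hevX
  have hHY : ((Fintype.card (Half Y) : ℕ) : ℝ) = H := by
    rw [hH, card_half hevX, card_half hevY, hX, hY]
  -- the pairs
  let P : Finset (Half X × Half X) := Finset.univ.filter fun p => Orth p.1 p.2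
  have hsumP : ∀ F : Half X → Half X → ℝ, ∑ T, ∑ S with Orth T S, F T S = ∑ p ∈ P, F p.1 p.2 := by
    intro F
    simp only [P]
    rw [Finset.sum_filter, Fintype.sum_prod_type]
    refine Finset.sum_congr rfl fun T _ => ?_
    rw [Finset.sum_filter]
  have hPcard : (P.card : ℝ) = H * b ^ 2 := by
    have := hsumP (fun _ _ => (1 : ℝ))
    simp only [Finset.sum_const, nsmul_eq_mul, mul_one, Finset.card_univ] at this
    rw [← this]
    simp_rw [card_orth M hX]
    push_cast
    rw [← hb]
    simp [hH]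
  have hP0 : (0 : ℝ) < P.card := by rw [hPcard]; positivity
  have hPne : P.Nonempty := by
    rw [← Finset.card_pos]
    exact_mod_cast hP0
  -- collision sum
  set W : ℝ := ∑ c, ∑ c', ν c * ν c' * Wk c c' with hW
  have hqq : ∑ p ∈ P, qq ν p.1 p.2 = b ^ 4 * W := by
    rw [← hsumP (fun T S => qq ν T S)]
    exact sum_qq M hM hX ν
  have hqpos : ∀ p ∈ P, 0 < qq ν p.1 p.2 := fun p hp =>
    qq_pos ν hν hν1 (Finset.mem_filter.1 hp).2
  have hqqpos : 0 < ∑ p ∈ P, qq ν p.1 p.2 := Finset.sum_pos hqpos hPne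
  have hW0 : 0 < W := by
    rw [hqq] at hqqpos
    by_contra h
    push Not at h
    have : b ^ 4 * W ≤ 0 := mul_nonpos_of_nonneg_of_nonpos (by positivity) h
    linarith
  -- Jensen
  have hJ := sum_log_le P hPne (fun p => qq ν p.1 p.2) hqpos
  rw [hqq, hPcard] at hJ
  have hlogb : log (b ^ 2) = 2 * log b := by rw [log_pow]; norm_num
  have hJ2 : log (b ^ 4 * W / (H * b ^ 2)) = 2 * log b + log W - log H := by
    have : b ^ 4 * W / (H * b ^ 2) = b ^ 2 * W / H := by field_simp
    rw [this, log_div (by positivity) hH0.ne', log_mul (by positivity) hW0.ne', hlogb]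
  rw [hJ2] at hJ
  -- lower bound on L2
  have hL : (∑ T : Half X, (∑ S with Orth T S, (log (b ^ 2)
        - hh (push (fun c : X ≃ Y => row c S) ν) - log (qq ν T S))) / b ^ 2) / H ≤ L2 ν := by
    unfold L2
    apply div_le_div_of_nonneg_right _ hH0.le
    exact Finset.sum_le_sum fun T _ => sum_xProd_ge M hM hX hY ν hν hν1 T
  refine le_trans ?_ hL
  rw [← Finset.sum_div]
  simp_rw [Finset.sum_sub_distrib]
  have e1 := hsumP (fun _ _ => log (b ^ 2))
  have e3 := hsumP (fun T S => log (qq ν T S))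
  have e2 := sum_orth_right M hX (fun S => hh (push (fun c : X ≃ Y => row c S) ν))
  rw [e1, e3, e2]
  simp only [Finset.sum_const, nsmul_eq_mul]
  rw [hPcard, ← hb]
  -- express xRow
  have hx : xRow ν = log H - (∑ S : Half X, hh (push (fun c : X ≃ Y => row c S) ν)) / H := by
    unfold xRow
    have hterm : ∀ S : Half X, Dm (push (fun c : X ≃ Y => row c S) ν)
        = log H - hh (push (fun c : X ≃ Y => row c S) ν) := by
      intro S
      unfold Dm DN
      have hm : mass (push (fun c : X ≃ Y => row c S) ν) = 1 := by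
        rw [mass_push]; exact hν1
      rw [hm, one_mul, hHY]
    rw [Finset.sum_congr rfl fun S _ => hterm S, Finset.sum_sub_distrib]
    simp only [Finset.sum_const, Finset.card_univ, nsmul_eq_mul]
    rw [← hH]
    field_simp
  rw [hx]
  set Sh := ∑ S : Half X, hh (push (fun c : X ≃ Y => row c S) ν) with hS1
  set Sq := ∑ p ∈ P, log (qq ν p.1 p.2) with hS2
  have hJ3 : Sq / (H * b ^ 2) ≤ 2 * log b + log W - log H := by
    rw [div_le_iff₀ (by positivity)]
    linarith
  have hcalc : (H * b ^ 2 * log (b ^ 2) - b ^ 2 * Sh - Sq) / b ^ 2 / H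
      = log (b ^ 2) - Sh / H - Sq / (H * b ^ 2) := by
    field_simp
  rw [hcalc, hlogb]
  linarith

/-! ### Step 5: the recursion -/

lemma half_of_pow (a j : ℕ) (h : a * 2 = 2 ^ (j + 1)) : a = 2 ^ j := by
  rw [pow_succ] at h
  exact Nat.eq_of_mul_eq_mul_right (by norm_num) h

lemma xRow_smul (t : ℝ) (ν : (X ≃ Y) → ℝ) :
    xRow (fun c => t * ν c) = t * xRow ν := by
  unfold xRow
  rw [mul_div_assoc', Finset.mul_sum]
  congr 1
  refine Finset.sum_congr rfl fun T _ => ?_
  rw [← Dm_smul]
  congr 1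
  funext Z
  unfold push
  rw [Finset.mul_sum]

lemma bip_mono {j : ℕ} {θ θ' : ℝ} (h : BipSDPI j θ) (hθ : θ ≤ θ') : BipSDPI j θ' := by
  intro X Y _ _ _ _ hX hY ν hν
  exact (h X Y hX hY ν hν).trans (mul_le_mul_of_nonneg_right hθ (Dm_nonneg hν))

lemma split_nonneg (ν : (X ≃ Y) → ℝ) (hν : ∀ c, 0 ≤ ν c) (T : Half X) (Z : Half Y) (e) :
    0 ≤ split T Z ν e := hν _

/-- Trivial bound (data processing). -/
theorem bip_one (j : ℕ) : BipSDPI j 1 := by
  intro X Y _ _ _ _ hX hY ν hν
  rw [one_mul]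
  by_cases hne : Nonempty (Half X)
  · obtain ⟨T⟩ := hne
    have hev : Even (Fintype.card X) := ⟨T.1.card, by have := T.2; omega⟩
    have hc : Fintype.card X = Fintype.card Y := hX.trans hY.symm
    rw [Dm_eq_xRow_add hc hev ν]
    have : 0 ≤ (∑ T : Half X, ∑ Z : Half Y, Dm (split T Z ν)) / Fintype.card (Half X) :=
      div_nonneg (Finset.sum_nonneg fun T _ => Finset.sum_nonneg fun Z _ =>
        Dm_nonneg (split_nonneg ν hν T Z)) (Nat.cast_nonneg _)
    linarith
  · rw [not_nonempty_iff] at hne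
    have : xRow ν = 0 := by
      unfold xRow
      simp
    rw [this]
    exact Dm_nonneg hν

/-- One step of the recursion: `a' = (1 + a)/(1 + ε a)`. -/
theorem bip_step (j : ℕ) (hj : 1 ≤ j) (a ε : ℝ) (ha : 0 < a) (hε : 0 ≤ ε)
    (IH : BipSDPI j (1 / a)) (hz : ZetaBound (j + 1) ε) :
    BipSDPI (j + 1) ((1 + ε * a) / (1 + a)) := by
  intro X Y _ _ _ _ hX hY ν hν
  have hc : Fintype.card X = Fintype.card Y := hX.trans hY.symm
  -- normalize
  rcases (mass_nonneg hν).eq_or_lt with hm | hm
  · have hz0 : ∀ c, ν c = 0 := fun c =>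
      (Finset.sum_eq_zero_iff_of_nonneg fun a _ => hν a).1 hm.symm c (Finset.mem_univ c)
    have e : ν = fun c => 0 * ν c := by funext c; simp [hz0]
    rw [e, xRow_smul, Dm_smul]
    simp
  · set m := mass ν with hmdef
    set ν' : (X ≃ Y) → ℝ := fun c => m⁻¹ * ν c with hν'
    have hν'0 : ∀ c, 0 ≤ ν' c := fun c => mul_nonneg (inv_nonneg.2 hm.le) (hν c)
    have hν'1 : ∑ c, ν' c = 1 := by
      simp only [hν']
      rw [← Finset.mul_sum]
      exact inv_mul_cancel₀ hm.ne'
    have hνe : ν = fun c => m * ν' c := by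
      funext c
      simp only [hν']
      field_simp
    rw [hνe, xRow_smul, Dm_smul]
    suffices hs : xRow ν' ≤ (1 + ε * a) / (1 + a) * Dm ν' by
      calc m * xRow ν' ≤ m * ((1 + ε * a) / (1 + a) * Dm ν') :=
            mul_le_mul_of_nonneg_left hs hm.le
        _ = _ := by ring
    -- the inequality for the law ν'
    obtain ⟨M, hM, hMj⟩ : ∃ M : ℕ, 1 ≤ M ∧ 2 ^ (j + 1) = 4 * M := by
      obtain ⟨i, rfl⟩ : ∃ i, j = i + 1 := ⟨j - 1, by omega⟩
      exact ⟨2 ^ i, Nat.one_le_two_pow, by ring⟩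
    have hX4 : Fintype.card X = 4 * M := by rw [hX, hMj]
    have hY4 : Fintype.card Y = 4 * M := by rw [hY, hMj]
    have hev : Even (Fintype.card X) := by rw [hX4]; exact ⟨2 * M, by ring⟩
    have hchain := Dm_eq_xRow_add hc hev ν'
    have hL := L2_ge M hM hX4 hY4 ν' hν'0 hν'1
    have hζ := hz X Y hX hY ν' hν'0 hν'1
    have hH0 : (0 : ℝ) < Fintype.card (Half X) := by exact_mod_cast card_half_pos hev
    have hta : 0 ≤ 1 / a := by positivity
    have hcardT : ∀ T : Half X, Fintype.card ↥T.1 = 2 ^ j := by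
      intro T
      exact half_of_pow _ j ((card_half_sub T).trans hX)
    have hcardT' : ∀ T : Half X, Fintype.card {x // x ∉ T.1} = 2 ^ j := by
      intro T
      exact half_of_pow _ j ((card_half_compl T).trans hX)
    have hcardZ : ∀ T : Half Y, Fintype.card ↥T.1 = 2 ^ j := by
      intro T
      exact half_of_pow _ j ((card_half_sub T).trans hY)
    have hcardZ' : ∀ T : Half Y, Fintype.card {x // x ∉ T.1} = 2 ^ j := by
      intro T
      exact half_of_pow _ j ((card_half_compl T).trans hY)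
    have hL2 : L2 ν' ≤ 1 / a * ((∑ T : Half X, ∑ Z : Half Y, Dm (split T Z ν')) / Fintype.card (Half X)) := by
      unfold L2
      rw [← mul_div_assoc]
      apply div_le_div_of_nonneg_right _ hH0.le
      rw [Finset.mul_sum]
      refine Finset.sum_le_sum fun T _ => ?_
      rw [Finset.mul_sum]
      refine Finset.sum_le_sum fun Z _ => ?_
      exact tensor hta IH (hcardT T) (hcardZ Z) (hcardT' T) (hcardZ' Z) _ (split_nonneg ν' hν'0 T Z)
    set x := xRow ν' with hx
    set D := Dm ν' with hD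
    set Y' := (∑ T : Half X, ∑ Z : Half Y, Dm (split T Z ν')) / Fintype.card (Half X) with hY'
    have h1 : x - ε * D ≤ 1 / a * (D - x) := by
      have : Y' = D - x := by linarith
      rw [← this]
      linarith
    have h2 : (1 + a) * x ≤ (1 + ε * a) * D := by
      have h3 := mul_le_mul_of_nonneg_left h1 ha.le
      have h4 : a * (1 / a * (D - x)) = D - x := by field_simp
      rw [h4] at h3
      nlinarith
    rw [div_mul_eq_mul_div, le_div_iff₀ (by positivity)]
    linarith

/-- The recursion solved: if `ε_j ≤ 1/j⁴` from `j₀` on, then `Θ_j ≤ 1/(j - j₀)`. -/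
theorem bip_main (j₀ : ℕ) (hj₀ : 1 ≤ j₀)
    (hz : ∀ j, j₀ ≤ j → ZetaBound (j + 1) (1 / ((j : ℝ) + 1) ^ 4)) :
    ∀ j : ℕ, j₀ < j → BipSDPI j (1 / ((j : ℝ) - j₀)) := by
  -- a_j = j - j₀ + 1/j
  have key : ∀ j : ℕ, j₀ ≤ j → BipSDPI j (1 / ((j : ℝ) - j₀ + 1 / j)) := by
    intro j hj
    induction j, hj using Nat.le_induction with
    | base =>
      apply bip_mono (bip_one j₀)
      have h1 : (1 : ℝ) ≤ j₀ := by exact_mod_cast hj₀
      have : (j₀ : ℝ) - j₀ + 1 / j₀ = 1 / j₀ := by ring
      rw [this, one_div_one_div]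
      exact h1
    | succ j hj ih =>
      have hj1 : (1 : ℝ) ≤ j := by exact_mod_cast hj₀.trans hj
      have hj0 : (j₀ : ℝ) ≤ j := by exact_mod_cast hj
      have hj01 : (1 : ℝ) ≤ j₀ := by exact_mod_cast hj₀
      set a : ℝ := (j : ℝ) - j₀ + 1 / j with ha
      have ha0 : 0 < a := by
        have : 0 < (1 : ℝ) / j := by positivity
        linarith
      have haj : a ≤ j := by
        have : (1 : ℝ) / j ≤ 1 := by
          rw [div_le_one (by linarith)]; exact hj1
        linarith
      have hε : (0 : ℝ) ≤ 1 / ((j : ℝ) + 1) ^ 4 := by positivity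
      have := bip_step j (hj₀.trans hj) a _ ha0 hε ih (hz j hj)
      apply bip_mono this
      push_cast
      set u : ℝ := (j : ℝ) + 1 with hu
      have hu0 : 0 < u := by linarith
      -- target: (1+εa)/(1+a) ≤ 1/(j+1 - j₀ + 1/(j+1))
      have ha1 : (u - j₀ + 1 / u) = a + 1 - 1 / ((j : ℝ) * u) := by
        rw [ha, hu]
        field_simp
        ring
      have hpos : 0 < u - j₀ + 1 / u := by
        have : 0 < 1 / u := by positivity
        have : (j₀ : ℝ) < u := by linarith
        linarith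
      rw [div_le_div_iff₀ (by linarith) hpos, one_mul, ha1]
      have hδ : a * (a + 1) / u ^ 4 ≤ 1 / ((j : ℝ) * u) := by
        have h1 : a * (a + 1) ≤ j * u := by
          apply mul_le_mul haj (by linarith) (by linarith) (by linarith)
        have h2 : (j : ℝ) * u / u ^ 4 ≤ 1 / ((j : ℝ) * u) := by
          rw [div_le_div_iff₀ (by positivity) (by positivity)]
          have h3 : (j : ℝ) ≤ u := by linarith
          have h4 : (j : ℝ) * u * (j * u) ≤ u * u * (u * u) := by
            apply mul_le_mul <;> nlinarith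
          nlinarith
        exact le_trans (div_le_div_of_nonneg_right h1 (by positivity)) h2
      have hδ0 : 0 < 1 / ((j : ℝ) * u) := by positivity
      have hε2 : 1 / u ^ 4 * a * (a + 1) = a * (a + 1) / u ^ 4 := by ring
      have hexp : (1 + 1 / u ^ 4 * a) * (a + 1 - 1 / ((j : ℝ) * u))
          ≤ 1 * (1 + a) := by
        have h5 : 0 ≤ 1 / u ^ 4 * a * (1 / ((j : ℝ) * u)) := by positivity
        nlinarith
      linarith
  intro j hj
  have hlt : (j₀ : ℝ) < j := by exact_mod_cast hj
  apply bip_mono (key j hj.le)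
  apply one_div_le_one_div_of_le (by linarith)
  have : 0 ≤ (1 : ℝ) / j := by positivity
  linarith

end P162
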