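import Vale.Agent.Lib.P162.Entropy

/-!
# P162: abstract bulk/heavy lemma.
-/

open Finset BigOperators Real

noncomputable section

namespace P162

namespace BH

variable {G : Type*} [Fintype G]

/-- The convex function `phi t = t log t - t + 1`. -/
def phi (t : ℝ) : ℝ := t * Real.log t - t + 1

/-- Relative entropy of the density `f` with respect to the uniform law. -/
def Ent (f : G → ℝ) : ℝ := avg fun c => phi (f c)

/-- The bilinear form `E_{f×g} V`. -/
def bil (V : G → G → ℝ) (f g : G → ℝ) : ℝ :=
  avg fun c => avg fun c' => f c * g c' * V c c'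

theorem avg_add (f g : G → ℝ) : avg (fun c => f c + g c) = avg f + avg g := by
  simp only [avg, Finset.sum_add_distrib, add_div]

theorem avg_sub (f g : G → ℝ) : avg (fun c => f c - g c) = avg f - avg g := by
  simp only [avg, Finset.sum_sub_distrib, sub_div]

theorem avg_mul_left (a : ℝ) (f : G → ℝ) : avg (fun c => a * f c) = a * avg f := by
  simp only [avg, ← Finset.mul_sum, mul_div_assoc]

theorem avg_mul_right (a : ℝ) (f : G → ℝ) : avg (fun c => f c * a) = avg f * a := by
  simp only [avg, ← Finset.sum_mul]; ring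

theorem avg_const [Nonempty G] (a : ℝ) : avg (fun _ : G => a) = a := by
  have : (Fintype.card G : ℝ) ≠ 0 := by exact_mod_cast Fintype.card_ne_zero
  simp [avg, Finset.card_univ]

theorem avg_nonneg {f : G → ℝ} (h : ∀ c, 0 ≤ f c) : 0 ≤ avg f :=
  div_nonneg (Finset.sum_nonneg fun c _ => h c) (Nat.cast_nonneg _)

theorem avg_mono {f g : G → ℝ} (h : ∀ c, f c ≤ g c) : avg f ≤ avg g :=
  div_le_div_of_nonneg_right (Finset.sum_le_sum fun c _ => h c) (Nat.cast_nonneg _)

theorem avg_comm (F : G → G → ℝ) :
    (avg fun c => avg fun c' => F c c') = avg fun c' => avg fun c => F c c' := by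
  simp only [avg, ← Finset.sum_div]
  rw [Finset.sum_comm]

theorem phi_nonneg {t : ℝ} (ht : 0 ≤ t) : 0 ≤ phi t := by
  rcases ht.eq_or_lt with rfl | ht
  · simp [phi]
  · have := Real.one_sub_inv_le_log_of_pos ht
    have h2 : t * (1 - t⁻¹) ≤ t * Real.log t := mul_le_mul_of_nonneg_left this ht.le
    have h3 : t * (1 - t⁻¹) = t - 1 := by field_simp
    simp only [phi]; linarith

/-- `(t-1)^2 <= 2 L phi t` for `0 <= t <= L`, `1 <= L`. -/
theorem sq_le_phi {L t : ℝ} (hL : 1 ≤ L) (h0 : 0 ≤ t) (h1 : t ≤ L) :
    (t - 1) ^ 2 ≤ 2 * L * phi t := by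
  rcases h0.eq_or_lt with rfl | ht
  · simp [phi]; nlinarith
  set F : ℝ → ℝ := fun s => 2 * L * phi s - (s - 1) ^ 2 with hF
  have hderiv : ∀ s, 0 < s → HasDerivAt F (2 * L * Real.log s - 2 * (s - 1)) s := by
    intro s hs
    have h2 : HasDerivAt phi (Real.log s) s := by
      have h5 := ((Real.hasDerivAt_mul_log hs.ne').sub (hasDerivAt_id' s)).add_const 1
      have e : phi = fun x => ((fun x : ℝ => x * Real.log x) - fun x : ℝ => x) x + 1 := by
        funext x; simp [phi]
      rw [e, show Real.log s = Real.log s + 1 - 1 by ring]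
      exact h5
    have h3 : HasDerivAt (fun s : ℝ => (s - 1) ^ 2) (2 * (s - 1)) s := by
      have := ((hasDerivAt_id' s).sub_const 1).fun_pow 2
      simpa using this
    exact (h2.const_mul (2 * L)).sub h3
  have hF1 : F 1 = 0 := by simp [hF, phi]
  suffices 0 ≤ F t by simp only [hF] at this; linarith
  rcases le_total t 1 with h | h
  · -- F is antitone on (0,1]
    have hanti : AntitoneOn F (Set.Ioc 0 1) := by
      apply antitoneOn_of_deriv_nonpos (convex_Ioc 0 1)
      · intro s hs
        exact (hderiv s hs.1).continuousAt.continuousWithinAt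
      · intro s hs
        rw [interior_Ioc] at hs
        exact (hderiv s hs.1).differentiableAt.differentiableWithinAt
      · intro s hs
        rw [interior_Ioc] at hs
        rw [(hderiv s hs.1).deriv]
        have hl := Real.log_le_sub_one_of_pos hs.1
        have h3 : 2 * L * Real.log s ≤ 2 * L * (s - 1) :=
          mul_le_mul_of_nonneg_left hl (by linarith)
        nlinarith [hs.2]
    have := hanti ⟨ht, h⟩ ⟨one_pos, le_refl _⟩ h
    linarith
  · -- F is monotone on [1,L]
    have hmono : MonotoneOn F (Set.Icc 1 L) := by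
      apply monotoneOn_of_deriv_nonneg (convex_Icc 1 L)
      · intro s hs
        exact (hderiv s (by linarith [hs.1])).continuousAt.continuousWithinAt
      · intro s hs
        rw [interior_Icc] at hs
        exact (hderiv s (by linarith [hs.1])).differentiableAt.differentiableWithinAt
      · intro s hs
        rw [interior_Icc] at hs
        have hs0 : 0 < s := by linarith [hs.1]
        rw [(hderiv s hs0).deriv]
        have hl := Real.one_sub_inv_le_log_of_pos hs0
        have h3 : 2 * L * (1 - s⁻¹) ≤ 2 * L * Real.log s :=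
          mul_le_mul_of_nonneg_left hl (by linarith)
        have h4 : L * (1 - s⁻¹) ≥ s - 1 := by
          have : L * (1 - s⁻¹) = (s - 1) * (L / s) := by field_simp
          rw [this]
          have h5 : 1 ≤ L / s := by
            rw [le_div_iff₀ hs0]; linarith [hs.2]
          nlinarith [hs.1]
        nlinarith
    have := hmono ⟨le_refl _, hL⟩ ⟨h, h1⟩ h
    linarith

/-- Schur test for the bilinear form. -/
theorem bil_self_le {V : G → G → ℝ} {v1 : ℝ} (hsymm : ∀ c c', V c c' = V c' c)
    (hv1 : ∀ c, avg (fun c' => |V c c'|) ≤ v1) (u : G → ℝ) :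
    bil V u u ≤ v1 * avg (fun c => u c ^ 2) := by
  have h1 : ∀ c c', u c * u c' * V c c' ≤ (u c ^ 2 * |V c c'| + u c' ^ 2 * |V c' c|) / 2 := by
    intro c c'
    rw [hsymm c' c]
    have h2 : u c * u c' * V c c' ≤ |u c * u c'| * |V c c'| := by
      rw [← abs_mul]; exact le_abs_self _
    have h3 : |u c * u c'| ≤ (u c ^ 2 + u c' ^ 2) / 2 := by
      rw [abs_le]; constructor <;> nlinarith [sq_nonneg (u c - u c'), sq_nonneg (u c + u c')]
    have h4 := mul_le_mul_of_nonneg_right h3 (abs_nonneg (V c c'))
    nlinarith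
  have h5 : (avg fun c => avg fun c' => u c ^ 2 * |V c c'|) ≤ v1 * avg (fun c => u c ^ 2) := by
    have : ∀ c, (avg fun c' => u c ^ 2 * |V c c'|) ≤ u c ^ 2 * v1 := by
      intro c
      rw [avg_mul_left]
      exact mul_le_mul_of_nonneg_left (hv1 c) (sq_nonneg _)
    calc _ ≤ avg (fun c => u c ^ 2 * v1) := avg_mono this
      _ = _ := by rw [avg_mul_right]; ring
  have h6 : (avg fun c => avg fun c' => u c' ^ 2 * |V c' c|) ≤ v1 * avg (fun c => u c ^ 2) := by
    rw [avg_comm]
    exact h5
  have h7 : bil V u u ≤ avg fun c => avg fun c' =>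
      (u c ^ 2 * |V c c'| + u c' ^ 2 * |V c' c|) / 2 := by
    apply avg_mono; intro c; apply avg_mono; intro c'; exact h1 c c'
  have h8 : (avg fun c => avg fun c' =>
      (u c ^ 2 * |V c c'| + u c' ^ 2 * |V c' c|) / 2) =
      ((avg fun c => avg fun c' => u c ^ 2 * |V c c'|) +
        avg fun c => avg fun c' => u c' ^ 2 * |V c' c|) / 2 := by
    have e1 : ∀ a b : ℝ, (a + b) / 2 = (1 / 2) * a + (1 / 2) * b := by intros; ring
    simp only [e1, avg_add, avg_mul_left]
  rw [h8] at h7
  linarith

theorem bil_add_left (V : G → G → ℝ) (f g k : G → ℝ) :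
    bil V (fun c => f c + g c) k = bil V f k + bil V g k := by
  simp only [bil, add_mul, avg_add]

theorem bil_add_right (V : G → G → ℝ) (f g k : G → ℝ) :
    bil V k (fun c => f c + g c) = bil V k f + bil V k g := by
  simp only [bil, mul_add, add_mul, avg_add]

theorem bil_symm {V : G → G → ℝ} (hsymm : ∀ c c', V c c' = V c' c) (f g : G → ℝ) :
    bil V f g = bil V g f := by
  simp only [bil]
  rw [avg_comm]
  apply congrArg; funext c; apply congrArg; funext c'
  rw [hsymm]; ring

theorem bil_smul (V : G → G → ℝ) (a : ℝ) (f : G → ℝ) :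
    bil V (fun c => a * f c) (fun c => a * f c) = a ^ 2 * bil V f f := by
  simp only [bil]
  have : ∀ c c', a * f c * (a * f c') * V c c' = a ^ 2 * (f c * f c' * V c c') := by
    intros; ring
  simp only [this, avg_mul_left]

/-- Zero marginals: constants are in the kernel. -/
theorem bil_const_right {V : G → G → ℝ} (hzero : ∀ c, avg (V c) = 0) (a : ℝ) (f : G → ℝ) :
    bil V f (fun _ => a) = 0 := by
  simp only [bil]
  have : ∀ c, (avg fun c' => f c * a * V c c') = 0 := by
    intro c
    rw [avg_mul_left, hzero c, mul_zero]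
  simp only [this]
  simp [avg]

/-- The bulk part: centering plus the Schur test. -/
theorem bil_center_le [Nonempty G] {V : G → G → ℝ} {v1 : ℝ} (hsymm : ∀ c c', V c c' = V c' c)
    (hzero : ∀ c, avg (V c) = 0) (hv1 : ∀ c, avg (fun c' => |V c c'|) ≤ v1)
    (hv0 : 0 ≤ v1) (g : G → ℝ) :
    bil V g g ≤ v1 * avg (fun c => (g c - 1) ^ 2) := by
  set a := avg g with ha
  set u : G → ℝ := fun c => g c - a with hu
  have hg : g = fun c => u c + a := by funext c; simp [hu]
  have h1 : bil V g g = bil V u u := by
    conv_lhs => rw [hg]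
    rw [bil_add_left, bil_add_right, bil_add_right, bil_const_right hzero, bil_const_right hzero,
      bil_symm hsymm (fun _ => a) u, bil_const_right hzero]
    ring
  rw [h1]
  refine (bil_self_le hsymm hv1 u).trans (mul_le_mul_of_nonneg_left ?_ hv0)
  -- the variance is at most the second moment around `1`
  have h2 : avg (fun c => (g c - 1) ^ 2) =
      avg (fun c => u c ^ 2) + (a - 1) ^ 2 := by
    have e : ∀ c, (g c - 1) ^ 2 = u c ^ 2 + (a - 1) ^ 2 + 2 * (a - 1) * (g c - a) := by
      intro c; simp only [hu]; ring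
    have h3 : avg (fun c => g c - a) = 0 := by
      rw [avg_sub, avg_const]; simp [ha]
    simp only [e, avg_add, avg_const, avg_mul_left, h3]
    ring
  rw [h2]
  nlinarith [sq_nonneg (a - 1)]

/-- The abstract bulk/heavy lemma. `f` is a density: `f >= 0`, `avg f = 1`. -/
theorem bulk_heavy [Nonempty G] {V : G → G → ℝ} {v1 A : ℝ}
    (hsymm : ∀ c c', V c c' = V c' c)
    (hzero : ∀ c, avg (V c) = 0)
    (hv1 : ∀ c, avg (fun c' => |V c c'|) ≤ v1)
    (hA0 : 0 ≤ A)
    (hA : ∀ k : G → ℝ, (∀ c, 0 ≤ k c) → avg k = 1 → bil V k k ≤ A * (1 + Ent k))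
    {f : G → ℝ} (hf0 : ∀ c, 0 ≤ f c) (hf1 : avg f = 1) :
    bil V f f ≤ Ent f * (40 * v1 + A * (Ent f + 2)) := by
  classical
  have hv0 : 0 ≤ v1 := by
    obtain ⟨c⟩ := ‹Nonempty G›
    exact (avg_nonneg fun c' => abs_nonneg (V c c')).trans (hv1 c)
  set L : ℝ := Real.exp 2 with hLdef
  have hL1 : 1 ≤ L := by
    rw [hLdef]; exact Real.one_le_exp (by norm_num)
  have hL8 : L ≤ 8 := by
    have h : Real.exp 2 = Real.exp 1 * Real.exp 1 := by
      rw [← Real.exp_add]; norm_num
    have h1 := Real.exp_one_lt_d9
    have h0 := Real.exp_pos 1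
    rw [hLdef, h]; nlinarith
  have hLlog : Real.log L = 2 := by rw [hLdef, Real.log_exp]
  set g : G → ℝ := fun c => if f c ≤ L then f c else 0 with hg
  set h : G → ℝ := fun c => if f c ≤ L then 0 else f c with hh
  have hfgh : f = fun c => g c + h c := by
    funext c; simp only [hg, hh]; split_ifs <;> simp
  have hg0 : ∀ c, 0 ≤ g c := by
    intro c; simp only [hg]; split_ifs; exacts [hf0 c, le_refl _]
  have hgL : ∀ c, g c ≤ L := by
    intro c; simp only [hg]; split_ifs with hc; exacts [hc, by linarith]
  have hh0 : ∀ c, 0 ≤ h c := by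
    intro c; simp only [hh]; split_ifs; exacts [le_refl _, hf0 c]
  have hhf : ∀ c, h c ≤ f c := by
    intro c; simp only [hh]; split_ifs; exacts [hf0 c, le_refl _]
  set m := avg h with hm
  set E := Ent f with hE
  have hm0 : 0 ≤ m := avg_nonneg hh0
  have hm1 : m ≤ 1 := by rw [← hf1]; exact avg_mono hhf
  have hphi0 : ∀ c, 0 ≤ phi (f c) := fun c => phi_nonneg (hf0 c)
  have hE0 : 0 ≤ E := avg_nonneg hphi0
  -- pointwise: `h <= phi f`
  have hh_phi : ∀ c, h c ≤ phi (f c) := by
    intro c
    simp only [hh]
    split_ifs with hc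
    · exact hphi0 c
    · push Not at hc
      have hpos : 0 < f c := by linarith
      have hl : 2 ≤ Real.log (f c) := by
        rw [← hLlog]; exact Real.log_le_log (by linarith) hc.le
      have : f c * 2 ≤ f c * Real.log (f c) := mul_le_mul_of_nonneg_left hl hpos.le
      simp only [phi]; linarith
  have hmE : m ≤ E := avg_mono hh_phi
  -- bulk
  have hbulk : bil V g g ≤ v1 * (2 * L * E + m / L) := by
    refine (bil_center_le hsymm hzero hv1 hv0 g).trans (mul_le_mul_of_nonneg_left ?_ hv0)
    have hpt : ∀ c, (g c - 1) ^ 2 ≤ 2 * L * phi (f c) + h c / L := by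
      intro c
      simp only [hg, hh]
      split_ifs with hc
      · have := sq_le_phi hL1 (hf0 c) hc
        simpa using this
      · push Not at hc
        have h1 : 0 ≤ 2 * L * phi (f c) := by
          have := hphi0 c; positivity
        have h2 : 1 ≤ f c / L := by
          rw [le_div_iff₀ (by linarith)]; linarith
        nlinarith
    calc avg (fun c => (g c - 1) ^ 2) ≤ avg (fun c => 2 * L * phi (f c) + h c / L) := avg_mono hpt
      _ = 2 * L * E + m / L := by
        rw [avg_add, avg_mul_left]
        have : (fun c => h c / L) = fun c => (1 / L) * h c := by funext c; ring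
        rw [this, avg_mul_left]
        simp only [hE, Ent, hm]
        ring
  -- cross term
  have hcross : bil V g h ≤ L * v1 * m := by
    simp only [bil]
    rw [avg_comm]
    have hpt : ∀ c', (avg fun c => g c * h c' * V c c') ≤ h c' * (L * v1) := by
      intro c'
      have h1 : ∀ c, g c * h c' * V c c' ≤ h c' * (L * |V c' c|) := by
        intro c
        rw [hsymm c c']
        have h2 : g c * V c' c ≤ L * |V c' c| := by
          calc g c * V c' c ≤ g c * |V c' c| :=
                mul_le_mul_of_nonneg_left (le_abs_self _) (hg0 c)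
            _ ≤ L * |V c' c| := mul_le_mul_of_nonneg_right (hgL c) (abs_nonneg _)
        have := mul_le_mul_of_nonneg_left h2 (hh0 c')
        nlinarith
      calc (avg fun c => g c * h c' * V c c') ≤ avg fun c => h c' * (L * |V c' c|) := avg_mono h1
        _ = h c' * (L * avg fun c => |V c' c|) := by
          rw [avg_mul_left, avg_mul_left]
        _ ≤ h c' * (L * v1) := by
          apply mul_le_mul_of_nonneg_left _ (hh0 c')
          exact mul_le_mul_of_nonneg_left (hv1 c') (by linarith)
    calc _ ≤ avg (fun c' => h c' * (L * v1)) := avg_mono hpt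
      _ = L * v1 * m := by rw [avg_mul_right]; ring
  -- heavy part
  have hheavy : bil V h h ≤ A * (m * (E + 2)) := by
    rcases hm0.eq_or_lt with hm00 | hmpos
    · -- `m = 0`, so `h = 0`
      have hhz : ∀ c, h c = 0 := by
        have hsum : ∑ c, h c = 0 := by
          have hc : (Fintype.card G : ℝ) ≠ 0 := by exact_mod_cast Fintype.card_ne_zero
          have : (∑ c, h c) / (Fintype.card G : ℝ) = 0 := by
            have e : avg h = 0 := hm00.symm
            simpa [avg] using e
          rcases (div_eq_zero_iff.mp this) with h' | h'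
          · exact h'
          · exact absurd h' hc
        intro c
        exact (Finset.sum_eq_zero_iff_of_nonneg (fun c _ => hh0 c)).mp hsum c (Finset.mem_univ c)
      have : bil V h h = 0 := by simp [bil, hhz, avg]
      rw [this, ← hm00]; simp
    · set k : G → ℝ := fun c => m⁻¹ * h c with hk
      have hk0 : ∀ c, 0 ≤ k c := fun c => mul_nonneg (inv_nonneg.mpr hmpos.le) (hh0 c)
      have hk1 : avg k = 1 := by
        simp only [hk]; rw [avg_mul_left, ← hm]; field_simp
      have hbk := hA k hk0 hk1
      have hrel : bil V h h = m ^ 2 * bil V k k := by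
        have : h = fun c => m * k c := by
          funext c; simp only [hk]; field_simp
        conv_lhs => rw [this]
        rw [bil_smul]
      -- entropy of `k`
      have hEntk : m * Ent k ≤ E + m - m * Real.log m := by
        have hpt : ∀ c, m * phi (k c) ≤ phi (f c) + h c - m * Real.log m * k c - h c + m := by
          intro c
          by_cases hc : f c ≤ L
          · have hhc : h c = 0 := by simp [hh, hc]
            have hkc : k c = 0 := by simp [hk, hhc]
            rw [hkc, hhc]
            simp only [phi, Real.log_zero, mul_zero, sub_zero, add_zero, zero_add]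
            have := hphi0 c
            simp only [phi] at this
            nlinarith
          · have hhc : h c = f c := by simp [hh, hc]
            push Not at hc
            have hfpos : 0 < f c := by linarith
            have hkc : k c = m⁻¹ * f c := by simp [hk, hhc]
            have hkpos : 0 < k c := by rw [hkc]; positivity
            have hlogk : Real.log (k c) = Real.log (f c) - Real.log m := by
              rw [hkc, Real.log_mul (by positivity) hfpos.ne', Real.log_inv]; ring
            have hmk : m * k c = f c := by rw [hkc]; field_simp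
            simp only [phi, hlogk, hhc]
            have e1 : m * (k c * (Real.log (f c) - Real.log m) - k c + 1) =
                (m * k c) * Real.log (f c) - (m * k c) * Real.log m - m * k c + m := by ring
            rw [e1, hmk]
            have e2 : Real.log m * k c * m = f c * Real.log m := by
              rw [← hmk]; ring
            nlinarith
        have hav : avg (fun c => m * phi (k c)) ≤
            avg (fun c => phi (f c) + h c - m * Real.log m * k c - h c + m) := avg_mono hpt
        rw [avg_mul_left] at hav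
        have e : avg (fun c => phi (f c) + h c - m * Real.log m * k c - h c + m) =
            E + m - m * Real.log m * 1 - m + m := by
          rw [avg_add, avg_sub, avg_sub, avg_add, avg_mul_left, hk1, avg_const]
          simp only [hE, Ent, hm]
        rw [e] at hav
        simp only [Ent] at *
        nlinarith
      have hmlog : - (m * Real.log m) ≤ 1 - m := by
        have := Real.one_sub_inv_le_log_of_pos (inv_pos.mpr hmpos)
        rw [inv_inv, Real.log_inv] at this
        have h2 := mul_le_mul_of_nonneg_left this hmpos.le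
        have h3 : m * (1 - m) = m - m ^ 2 := by ring
        nlinarith [Real.log_le_sub_one_of_pos (inv_pos.mpr hmpos), Real.log_inv m,
          mul_inv_cancel₀ hmpos.ne',
          mul_le_mul_of_nonneg_left (Real.log_le_sub_one_of_pos (inv_pos.mpr hmpos)) hmpos.le]
      rw [hrel]
      have h1 : m ^ 2 * bil V k k ≤ m ^ 2 * (A * (1 + Ent k)) :=
        mul_le_mul_of_nonneg_left hbk (sq_nonneg _)
      have h2 : m * (1 + Ent k) ≤ E + 2 := by nlinarith
      have h3 : m ^ 2 * (A * (1 + Ent k)) = A * (m * (m * (1 + Ent k))) := by ring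
      have h4 : A * (m * (m * (1 + Ent k))) ≤ A * (m * (E + 2)) :=
        mul_le_mul_of_nonneg_left (mul_le_mul_of_nonneg_left h2 hm0) hA0
      linarith
  -- assembling
  have hsplit : bil V f f = bil V g g + bil V g h + bil V h g + bil V h h := by
    conv_lhs => rw [hfgh]
    rw [bil_add_left, bil_add_right, bil_add_right]; ring
  rw [hsplit, bil_symm hsymm h g]
  have hLinv : m / L ≤ m := by
    apply div_le_self hm0 hL1
  have h1 : v1 * (2 * L * E + m / L) ≤ v1 * (2 * 8 * E + E) := by
    apply mul_le_mul_of_nonneg_left _ hv0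
    have : 2 * L * E ≤ 2 * 8 * E := by nlinarith
    linarith
  have h2 : L * v1 * m ≤ 8 * v1 * E := by
    calc L * v1 * m ≤ 8 * v1 * m := by
          apply mul_le_mul_of_nonneg_right _ hm0
          exact mul_le_mul_of_nonneg_right hL8 hv0
      _ ≤ 8 * v1 * E := mul_le_mul_of_nonneg_left hmE (by positivity)
  have h3 : A * (m * (E + 2)) ≤ A * (E * (E + 2)) := by
    apply mul_le_mul_of_nonneg_left _ hA0
    exact mul_le_mul_of_nonneg_right hmE (by linarith)
  have h4 : 0 ≤ v1 * E := mul_nonneg hv0 hE0
  nlinarith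

end BH

/-- Abstract second moment bound with entropy.  `V` symmetric with vanishing marginals, Schur norm
`v1` (normalized by `|G|`), and a linear entropy bound on all laws.  Then for all laws `p`,
`E_{p×p} V ≤ Dm p * (40 v1 + A (Dm p + 2))`.

Proof (note P162plan, (d)): `f = p |G|`, `L = e²`, `g = f 1[f ≤ L]`, `h = f 1[f > L]`, `m = E h ≤ Ent`.
`E_{g×g} V ≤ v1 E (g - E g)² ≤ v1 (6.3 Ent + m/L)` using `phi_ge`;
`E_{g×h} V ≤ L v1 m`; `E_{h×h} V ≤ A m (Ent + 2)` from `hA` at `r = h/m`. -/
theorem bulk_heavy {G : Type*} [Fintype G] [Nonempty G] (V : G → G → ℝ)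
    (hsym : ∀ a b, V a b = V b a) (hzero : ∀ a, ∑ b, V a b = 0)
    (v1 A : ℝ) (hv0 : 0 ≤ v1) (hA0 : 0 ≤ A)
    (hv1 : ∀ a, ∑ b, |V a b| ≤ v1 * Fintype.card G)
    (hA : ∀ r : G → ℝ, (∀ a, 0 ≤ r a) → ∑ a, r a = 1 →
      ∑ a, ∑ b, r a * r b * V a b ≤ A * (1 + Dm r))
    (p : G → ℝ) (hp : ∀ a, 0 ≤ p a) (hp1 : ∑ a, p a = 1) :
    ∑ a, ∑ b, p a * p b * V a b ≤ Dm p * (40 * v1 + A * (Dm p + 2)) := by
  have hn : (Fintype.card G : ℝ) ≠ 0 := by exact_mod_cast Fintype.card_ne_zero
  have hnpos : (0 : ℝ) < Fintype.card G := by exact_mod_cast Fintype.card_pos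
  -- translation between laws and densities
  have hEnt : ∀ r : G → ℝ, (∀ a, 0 ≤ r a) → ∑ a, r a = 1 →
      BH.Ent (fun a => r a * Fintype.card G) = Dm r := by
    intro r hr hr1
    rw [Dm_eq_sum_phi hr hr1]
    rfl
  have hbil : ∀ r : G → ℝ, BH.bil V (fun a => r a * Fintype.card G) (fun a => r a * Fintype.card G)
      = ∑ a, ∑ b, r a * r b * V a b := by
    intro r
    simp only [BH.bil, avg, Finset.sum_div]
    apply Finset.sum_congr rfl; intro a _
    apply Finset.sum_congr rfl; intro b _
    field_simp
  have hz : ∀ a, avg (V a) = 0 := by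
    intro a; simp [avg, hzero a]
  have hv : ∀ a, avg (fun b => |V a b|) ≤ v1 := by
    intro a
    simp only [avg]
    rw [div_le_iff₀ hnpos]
    exact hv1 a
  have hkA : ∀ k : G → ℝ, (∀ c, 0 ≤ k c) → avg k = 1 → BH.bil V k k ≤ A * (1 + BH.Ent k) := by
    intro k hk hk1
    set r : G → ℝ := fun a => k a / Fintype.card G with hr
    have hr0 : ∀ a, 0 ≤ r a := fun a => div_nonneg (hk a) hnpos.le
    have hr1 : ∑ a, r a = 1 := by
      simp only [hr, ← Finset.sum_div]
      exact hk1
    have hkr : k = fun a => r a * Fintype.card G := by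
      funext a; simp only [hr]; field_simp
    have := hA r hr0 hr1
    rw [hkr, hbil r, hEnt r hr0 hr1]
    exact this
  have hmain := BH.bulk_heavy hsym hz hv hA0 hkA (f := fun a => p a * Fintype.card G)
    (fun a => mul_nonneg (hp a) hnpos.le)
    (by simp only [avg, ← Finset.sum_mul, hp1]; field_simp)
  rw [hbil p, hEnt p hp hp1] at hmain
  exact hmain

/-- Consequence for a kernel `W = 1 + V`, `W ≤ 1 + δ` pointwise: for all laws,
`log E_{p×p} W ≤ 83 δ Dm p`. -/
theorem log_kernel_le_of_pointwise {G : Type*} [Fintype G] [Nonempty G] (W : G → G → ℝ)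
    (hsym : ∀ a b, W a b = W b a) (hmean : ∀ a, ∑ b, W a b = Fintype.card G)
    (δ : ℝ) (hδ : 0 ≤ δ) (hle : ∀ a b, W a b ≤ 1 + δ) (hW0 : ∀ a b, 0 ≤ W a b)
    (p : G → ℝ) (hp : ∀ a, 0 ≤ p a) (hp1 : ∑ a, p a = 1) :
    log (∑ a, ∑ b, p a * p b * W a b) ≤ 83 * δ * Dm p := by
  have hnpos : (0 : ℝ) < Fintype.card G := by exact_mod_cast Fintype.card_pos
  set V : G → G → ℝ := fun a b => W a b - 1 with hV
  have hVs : ∀ a b, V a b = V b a := by intro a b; simp only [hV, hsym a b]
  have hVz : ∀ a, ∑ b, V a b = 0 := by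
    intro a
    simp only [hV, Finset.sum_sub_distrib, hmean a]
    simp
  have hVabs : ∀ a, ∑ b, |V a b| ≤ (2 * δ) * Fintype.card G := by
    intro a
    -- `|V| = 2 max(V,0) - V`, and `max(V,0) ≤ δ`
    have hpt : ∀ b, |V a b| ≤ 2 * δ - V a b := by
      intro b
      have h1 : V a b ≤ δ := by simp only [hV]; linarith [hle a b]
      rw [abs_le]
      constructor
      · linarith
      · linarith
    calc ∑ b, |V a b| ≤ ∑ b, (2 * δ - V a b) := Finset.sum_le_sum fun b _ => hpt b
      _ = (2 * δ) * Fintype.card G := by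
        rw [Finset.sum_sub_distrib, hVz a]
        simp [Finset.card_univ]; ring
  -- the trivial bound of the form for every law
  have htriv : ∀ r : G → ℝ, (∀ a, 0 ≤ r a) → ∑ a, r a = 1 →
      ∑ a, ∑ b, r a * r b * V a b ≤ δ := by
    intro r hr hr1
    have h1 : ∀ a b, r a * r b * V a b ≤ r a * r b * δ := by
      intro a b
      apply mul_le_mul_of_nonneg_left _ (mul_nonneg (hr a) (hr b))
      simp only [hV]; linarith [hle a b]
    calc ∑ a, ∑ b, r a * r b * V a b ≤ ∑ a, ∑ b, r a * r b * δ :=
          Finset.sum_le_sum fun a _ => Finset.sum_le_sum fun b _ => h1 a b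
      _ = δ := by
        simp only [← Finset.sum_mul, ← Finset.mul_sum, hr1, mul_one, one_mul]
  have hDm0 : 0 ≤ Dm p := Dm_nonneg hp
  have hA : ∀ r : G → ℝ, (∀ a, 0 ≤ r a) → ∑ a, r a = 1 →
      ∑ a, ∑ b, r a * r b * V a b ≤ δ * (1 + Dm r) := by
    intro r hr hr1
    have := htriv r hr hr1
    have h2 := Dm_nonneg hr
    nlinarith
  have hbh := bulk_heavy V hVs hVz (2 * δ) δ (by positivity) hδ hVabs hA p hp hp1
  have hW : ∑ a, ∑ b, p a * p b * W a b = 1 + ∑ a, ∑ b, p a * p b * V a b := by
    have h1 : ∀ a b, p a * p b * W a b = p a * p b + p a * p b * V a b := by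
      intro a b; simp only [hV]; ring
    simp only [h1, Finset.sum_add_distrib]
    congr 1
    simp only [← Finset.mul_sum, hp1, mul_one]
  have hpos : 0 ≤ Dm p * δ := mul_nonneg hDm0 hδ
  have hbound : ∑ a, ∑ b, p a * p b * V a b ≤ 83 * δ * Dm p := by
    rcases le_total (Dm p) 1 with h | h
    · refine hbh.trans ?_
      have : Dm p * (40 * (2 * δ) + δ * (Dm p + 2)) = 82 * (Dm p * δ) + Dm p * δ * Dm p := by ring
      rw [this]
      nlinarith
    · have := htriv p hp hp1
      nlinarith
  rw [hW]
  have hS0 : 0 ≤ ∑ a, ∑ b, p a * p b * W a b :=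
    Finset.sum_nonneg fun a _ => Finset.sum_nonneg fun b _ =>
      mul_nonneg (mul_nonneg (hp a) (hp b)) (hW0 a b)
  rw [hW] at hS0
  rcases hS0.eq_or_lt with h0 | h0
  · rw [← h0, Real.log_zero]; positivity
  · have := Real.log_le_sub_one_of_pos h0
    linarith

end P162
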