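import Mathlib

/-!
# P162 (Thorp shuffle): basic definitions.
Homogeneous entropy on finite types, half sets of a finite type, rows of a bijection,
positions and one pass of the butterfly network.  See the note `P162plan`.
-/

open Finset BigOperators Real

noncomputable section

namespace P162

section Entropy
variable {α : Type*} [Fintype α] {β : Type*} [DecidableEq β]

/-- Total mass. -/
def mass (p : α → ℝ) : ℝ := ∑ a, p a

/-- Homogeneous Shannon entropy (degree 1): `m * H(p/m)`. -/
def hh (p : α → ℝ) : ℝ := ∑ a, negMulLog (p a) - negMulLog (mass p)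

/-- `m * log N - hh p`: relative entropy to a uniform law on `N` points (homogeneous). -/
def DN (N : ℝ) (p : α → ℝ) : ℝ := mass p * log N - hh p

/-- Relative entropy of `p` to the uniform law on `α`, homogeneous of degree 1. -/
def Dm (p : α → ℝ) : ℝ := DN (Fintype.card α) p

/-- Push-forward of a mass function. -/
def push (f : α → β) (p : α → ℝ) : β → ℝ := fun b => ∑ a with f a = b, p a

/-- Restriction of `p` to the fibre `f = b` (zero elsewhere). -/
def restr (f : α → β) (p : α → ℝ) (b : β) : α → ℝ := fun a => if f a = b then p a else 0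

/-- Average over a finite type. -/
def avg (f : α → ℝ) : ℝ := (∑ a, f a) / Fintype.card α

end Entropy

section Half
variable {X Y : Type} [Fintype X] [Fintype Y]

/-- Half sets: subsets containing exactly half of the points. -/
abbrev Half (X : Type) [Fintype X] := {T : Finset X // 2 * T.card = Fintype.card X}

/-- Image of a half set under a bijection. -/
def row (c : X ≃ Y) (T : Half X) : Half Y :=
  ⟨T.1.map c.toEmbedding, by rw [Finset.card_map, T.2, Fintype.card_congr c]⟩

variable [DecidableEq X] [DecidableEq Y]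

/-- Two half sets are orthogonal when they meet in exactly a quarter of the points. -/
def Orth (T S : Half X) : Prop := 4 * (T.1 ∩ S.1).card = Fintype.card X

instance (T S : Half X) : Decidable (Orth T S) := by unfold Orth; infer_instance

/-- The row deficit `x(ν)`: average over half sets `T` of the relative entropy of `c(T)`. -/
def xRow (ν : (X ≃ Y) → ℝ) : ℝ :=
  (∑ T : Half X, Dm (push (fun c : X ≃ Y => row c T) ν)) / Fintype.card (Half X)

/-- The row deficit of a product system. -/
def xProd {X₁ Y₁ X₂ Y₂ : Type} [Fintype X₁] [Fintype Y₁] [Fintype X₂] [Fintype Y₂]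
    [DecidableEq X₁] [DecidableEq Y₁] [DecidableEq X₂] [DecidableEq Y₂]
    (ρ : (X₁ ≃ Y₁) × (X₂ ≃ Y₂) → ℝ) : ℝ :=
  (∑ T₁ : Half X₁, ∑ T₂ : Half X₂,
      Dm (push (fun e : (X₁ ≃ Y₁) × (X₂ ≃ Y₂) => (row e.1 T₁, row e.2 T₂)) ρ))
    / ((Fintype.card (Half X₁) : ℝ) * Fintype.card (Half X₂))

/-- The main inequality for bijections of `2^j` points with constant `θ`. -/
def BipSDPI (j : ℕ) (θ : ℝ) : Prop :=
  ∀ (X Y : Type) [Fintype X] [Fintype Y] [DecidableEq X] [DecidableEq Y],
    Fintype.card X = 2 ^ j → Fintype.card Y = 2 ^ j →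
    ∀ ν : (X ≃ Y) → ℝ, (∀ c, 0 ≤ ν c) → xRow ν ≤ θ * Dm ν

/-- The kernel `W(c,c') = #{(T,S) : T ⊥ S, c T ⊥ c' S} / C(N,N/2)^4`, `N = |X|/2`. -/
def Wk (c c' : X ≃ Y) : ℝ :=
  (((Finset.univ : Finset (Half X × Half X)).filter
      fun p => Orth p.1 p.2 ∧ Orth (row c p.1) (row c' p.2)).card : ℝ)
    / (((Fintype.card X / 2).choose (Fintype.card X / 4) : ℕ) : ℝ) ^ 4

/-- The collision bound at level `j`. -/
def ZetaBound (j : ℕ) (ε : ℝ) : Prop :=
  ∀ (X Y : Type) [Fintype X] [Fintype Y] [DecidableEq X] [DecidableEq Y],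
    Fintype.card X = 2 ^ j → Fintype.card Y = 2 ^ j →
    ∀ ν : (X ≃ Y) → ℝ, (∀ c, 0 ≤ ν c) → ∑ c, ν c = 1 →
      log (∑ c, ∑ c', ν c * ν c' * Wk c c') ≤ ε * Dm ν

end Half

section Pass

/-- Positions at level `k`: `k` bits. -/
def Pos : ℕ → Type
  | 0 => Unit
  | k + 1 => Bool × Pos k

instance instFintypePos : ∀ k, Fintype (Pos k)
  | 0 => inferInstanceAs (Fintype Unit)
  | k + 1 => by
      haveI := instFintypePos k
      exact inferInstanceAs (Fintype (Bool × Pos k))

instance instDecEqPos : ∀ k, DecidableEq (Pos k)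
  | 0 => inferInstanceAs (DecidableEq Unit)
  | k + 1 => by
      haveI := instDecEqPos k
      exact inferInstanceAs (DecidableEq (Bool × Pos k))

/-- Flip of the first bit of the position `(a,u)` according to the coin `b u`. -/
def flipE {k : ℕ} (b : Pos k → Bool) : Equiv.Perm (Pos (k + 1)) where
  toFun x := (xor x.1 (b x.2), x.2)
  invFun x := (xor x.1 (b x.2), x.2)
  left_inv x := by
    rcases x with ⟨a, u⟩
    show (xor (xor a (b u)) (b u), u) = (a, u)
    simp
  right_inv x := by
    rcases x with ⟨a, u⟩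
    show (xor (xor a (b u)) (b u), u) = (a, u)
    simp

/-- Independent permutations on the two slices `a = false`, `a = true`. -/
def sliceE {k : ℕ} (ψ₀ ψ₁ : Equiv.Perm (Pos k)) : Equiv.Perm (Pos (k + 1)) where
  toFun x := (x.1, if x.1 then ψ₁ x.2 else ψ₀ x.2)
  invFun x := (x.1, if x.1 then ψ₁.symm x.2 else ψ₀.symm x.2)
  left_inv x := by
    rcases x with ⟨a, u⟩
    cases a <;> simp <;> rfl
  right_inv x := by
    rcases x with ⟨a, u⟩
    cases a <;> simp <;> rfl

/-- Coins of one pass. -/
def Coins : ℕ → Type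
  | 0 => Unit
  | k + 1 => (Pos k → Bool) × Coins k × Coins k

instance instFintypeCoins : ∀ k, Fintype (Coins k)
  | 0 => inferInstanceAs (Fintype Unit)
  | k + 1 => by
      haveI := instFintypeCoins k
      exact inferInstanceAs (Fintype ((Pos k → Bool) × Coins k × Coins k))

/-- The permutation of one pass: first the flips of the first bit, then a pass on each slice. -/
def act : ∀ k, Coins k → Equiv.Perm (Pos k)
  | 0, _ => 1
  | k + 1, ω => (flipE ω.1).trans (sliceE (act k ω.2.1) (act k ω.2.2))

variable {C : Type} [Fintype C] [DecidableEq C]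

/-- One pass acting on a law of bijections `g : C ≃ Pos k`: the new bijection is
`g` followed by the random permutation. -/
def passOp (k : ℕ) (μ : (C ≃ Pos k) → ℝ) : (C ≃ Pos k) → ℝ :=
  fun g => avg (fun ω : Coins k => μ (g.trans (act k ω).symm))

/-- The flip operator `P_1`. -/
def flipOp {k : ℕ} (μ : (C ≃ Pos (k + 1)) → ℝ) : (C ≃ Pos (k + 1)) → ℝ :=
  fun g => avg (fun b : Pos k → Bool => μ (g.trans (flipE b).symm))

/-- Invariance under all flips. -/
def FlipInv {k : ℕ} (μ : (C ≃ Pos (k + 1)) → ℝ) : Prop :=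
  ∀ (b : Pos k → Bool) (g : C ≃ Pos (k + 1)), μ (g.trans (flipE b)) = μ g

/-- Entropy contraction constant of one pass at level `k`. -/
def Contr (k : ℕ) (s : ℝ) : Prop :=
  ∀ (C : Type) [Fintype C] [DecidableEq C], Fintype.card C = 2 ^ k →
    ∀ μ : (C ≃ Pos k) → ℝ, (∀ g, 0 ≤ μ g) → Dm (passOp k μ) ≤ s * Dm μ

end Pass

end P162
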