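import Vale.Agent.Lib.P162.Defs

/-!
# P162: the elementary entropy library (all homogeneous).
-/

open Finset BigOperators Real

noncomputable section

namespace P162

variable {α : Type*} [Fintype α] {β : Type*} [Fintype β] [DecidableEq β]
variable {γ : Type*} [Fintype γ]

lemma mass_push (f : α → β) (p : α → ℝ) : mass (push f p) = mass p := by
  unfold mass push
  exact Finset.sum_fiberwise _ _ _

lemma mass_restr (f : α → β) (p : α → ℝ) (b : β) : mass (restr f p b) = push f p b := by
  unfold mass restr push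
  rw [Finset.sum_filter]

lemma mass_restr_sum (f : α → β) (p : α → ℝ) : ∑ b, mass (restr f p b) = mass p := by
  simp_rw [mass_restr]
  exact mass_push f p

lemma push_nonneg (f : α → β) {p : α → ℝ} (hp : ∀ a, 0 ≤ p a) (b : β) : 0 ≤ push f p b :=
  Finset.sum_nonneg fun a _ => hp a

lemma restr_nonneg (f : α → β) {p : α → ℝ} (hp : ∀ a, 0 ≤ p a) (b : β) (a : α) :
    0 ≤ restr f p b a := by
  unfold restr; split_ifs
  · exact hp a
  · exact le_rfl

lemma mass_nonneg {p : α → ℝ} (hp : ∀ a, 0 ≤ p a) : 0 ≤ mass p :=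
  Finset.sum_nonneg fun a _ => hp a

lemma sum_mul_push (f : α → β) (p : α → ℝ) (φ : β → ℝ) :
    ∑ a, p a * φ (f a) = ∑ b, push f p b * φ b := by
  unfold push
  simp_rw [Finset.sum_mul]
  rw [← Finset.sum_fiberwise (s := Finset.univ) (g := f)]
  refine Finset.sum_congr rfl fun b _ => Finset.sum_congr rfl fun a ha => ?_
  rw [(Finset.mem_filter.1 ha).2]

/-- Chain rule, an algebraic identity. -/
lemma hh_chain (f : α → β) (p : α → ℝ) :
    hh p = hh (push f p) + ∑ b, hh (restr f p b) := by
  unfold hh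
  rw [mass_push]
  simp_rw [mass_restr]
  rw [Finset.sum_sub_distrib]
  have h1 : ∑ b, ∑ a, negMulLog (restr f p b a) = ∑ a, negMulLog (p a) := by
    have : ∀ b, ∑ a, negMulLog (restr f p b a) = ∑ a with f a = b, negMulLog (p a) := by
      intro b
      rw [Finset.sum_filter]
      refine Finset.sum_congr rfl fun a _ => ?_
      unfold restr
      split_ifs
      · rfl
      · simp
    simp_rw [this]
    exact Finset.sum_fiberwise _ _ _
  rw [h1]
  ring

/-- Chain rule for `DN`. -/
lemma DN_chain (f : α → β) (p : α → ℝ) {B F : ℝ} (hB : B ≠ 0) (hF : F ≠ 0) :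
    DN (B * F) p = DN B (push f p) + ∑ b, DN F (restr f p b) := by
  unfold DN
  rw [Finset.sum_sub_distrib, ← Finset.sum_mul, mass_restr_sum, mass_push, log_mul hB hF,
    hh_chain f p]
  ring

lemma sum_comp_inj {δ : Type*} [AddCommMonoid δ] (e : γ → α) (he : Function.Injective e)
    (g : α → δ) (hg : ∀ a, a ∉ Set.range e → g a = 0) : ∑ c, g (e c) = ∑ a, g a :=
  Fintype.sum_of_injective e he _ _ hg fun _ => rfl

lemma mass_comp_inj (e : γ → α) (he : Function.Injective e) (p : α → ℝ)
    (hp : ∀ a, a ∉ Set.range e → p a = 0) : mass (p ∘ e) = mass p :=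
  sum_comp_inj e he p hp

/-- Transport along an injective map, `p` vanishing outside the range. -/
lemma hh_comp_inj (e : γ → α) (he : Function.Injective e) (p : α → ℝ)
    (hp : ∀ a, a ∉ Set.range e → p a = 0) : hh (p ∘ e) = hh p := by
  unfold hh
  rw [mass_comp_inj e he p hp]
  congr 1
  exact sum_comp_inj e he (fun a => negMulLog (p a)) fun a ha => by simp [hp a ha]

lemma Dm_comp_equiv (e : γ ≃ α) (p : α → ℝ) : Dm (p ∘ e) = Dm p := by
  have hr : ∀ a, a ∉ Set.range e → p a = 0 := fun a ha => absurd (e.surjective a) ha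
  unfold Dm DN
  rw [hh_comp_inj e e.injective p hr, Fintype.card_congr e]
  congr 2
  exact mass_comp_inj e e.injective p hr

lemma hh_smul (t : ℝ) (p : α → ℝ) :
    hh (fun a => t * p a) = t * hh p := by
  unfold hh mass
  simp_rw [negMulLog_mul]
  rw [← Finset.mul_sum, Finset.sum_add_distrib, ← Finset.sum_mul, ← Finset.mul_sum,
    negMulLog_mul]
  ring

lemma Dm_smul (t : ℝ) (p : α → ℝ) :
    Dm (fun a => t * p a) = t * Dm p := by
  unfold Dm DN
  rw [hh_smul]
  unfold mass
  rw [← Finset.mul_sum]
  ring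

/-- Pointwise step of the log-sum inequality. -/
private lemma log_sum_aux {p r P R : ℝ} (hp : 0 ≤ p) (hr : 0 ≤ r) (h : r = 0 → p = 0)
    (hP : 0 < P) (hR : 0 < R) :
    p * log (P / R) + (p - r * (P / R)) ≤ p * log (p / r) := by
  rcases hp.eq_or_lt with rfl | hp0
  · have : 0 ≤ r * (P / R) := mul_nonneg hr (div_pos hP hR).le
    simp; linarith
  · have hr0 : 0 < r := by
      rcases hr.eq_or_lt with rfl | h'
      · exact absurd (h rfl) hp0.ne'
      · exact h'
    have hx : 0 < (p / r) / (P / R) := div_pos (div_pos hp0 hr0) (div_pos hP hR)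
    have h1 := Real.one_sub_inv_le_log_of_pos hx
    have h2 : log ((p / r) / (P / R)) = log (p / r) - log (P / R) :=
      log_div (div_pos hp0 hr0).ne' (div_pos hP hR).ne'
    rw [h2] at h1
    have h3 : p * (1 - ((p / r) / (P / R))⁻¹) = p - r * (P / R) := by
      field_simp
    have h4 := mul_le_mul_of_nonneg_left h1 hp0.le
    rw [h3] at h4
    nlinarith

/-- The log-sum inequality. -/
lemma log_sum {p r : α → ℝ} (hp : ∀ a, 0 ≤ p a) (hr : ∀ a, 0 ≤ r a)
    (h : ∀ a, r a = 0 → p a = 0) :
    mass p * log (mass p / mass r) ≤ ∑ a, p a * log (p a / r a) := by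
  rcases (mass_nonneg hp).eq_or_lt with hP | hP
  · have hz : ∀ a, p a = 0 := by
      intro a
      have := (Finset.sum_eq_zero_iff_of_nonneg fun a _ => hp a).1 hP.symm a (Finset.mem_univ a)
      exact this
    simp [hz, ← hP]
  · have hR : 0 < mass r := by
      rcases (mass_nonneg hr).eq_or_lt with h0 | h0
      · exfalso
        have hz : ∀ a, r a = 0 := by
          intro a
          exact (Finset.sum_eq_zero_iff_of_nonneg fun a _ => hr a).1 h0.symm a (Finset.mem_univ a)
        have : mass p = 0 := Finset.sum_eq_zero fun a _ => h a (hz a)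
        exact hP.ne' this
      · exact h0
    have key := Finset.sum_le_sum fun a (_ : a ∈ Finset.univ) =>
      log_sum_aux (hp a) (hr a) (h a) hP hR
    have e1 : ∑ a, (p a * log (mass p / mass r) + (p a - r a * (mass p / mass r)))
        = mass p * log (mass p / mass r) := by
      rw [Finset.sum_add_distrib, Finset.sum_sub_distrib, ← Finset.sum_mul, ← Finset.sum_mul]
      show mass p * _ + (mass p - mass r * _) = _
      have : mass r * (mass p / mass r) = mass p := by field_simp
      rw [this]; ring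
    rw [e1] at key
    exact key

private lemma hh_eq (p : α → ℝ) (_hp : ∀ a, 0 ≤ p a) :
    hh p = mass p * log (mass p) - ∑ a, p a * log (p a) := by
  unfold hh negMulLog
  simp only [neg_mul, Finset.sum_neg_distrib]
  ring

lemma hh_nonneg {p : α → ℝ} (hp : ∀ a, 0 ≤ p a) : 0 ≤ hh p := by
  have h := hh_eq p hp
  rw [h]
  have hle : ∀ a, p a ≤ mass p := fun a =>
    Finset.single_le_sum (fun b _ => hp b) (Finset.mem_univ a)
  have key : ∑ a, p a * log (p a) ≤ ∑ a, p a * log (mass p) := by
    refine Finset.sum_le_sum fun a _ => ?_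
    rcases (hp a).eq_or_lt with h0 | h0
    · simp [← h0]
    · exact mul_le_mul_of_nonneg_left (log_le_log h0 (hle a)) h0.le
  rw [← Finset.sum_mul] at key
  change _ ≤ mass p * _ at key
  linarith

/-- Entropy bound. -/
lemma hh_le {p : α → ℝ} (hp : ∀ a, 0 ≤ p a) :
    hh p ≤ mass p * log (Fintype.card α) := by
  rw [hh_eq p hp]
  rcases (mass_nonneg hp).eq_or_lt with hP | hP
  · have hz : ∀ a, p a = 0 := by
      intro a
      exact (Finset.sum_eq_zero_iff_of_nonneg fun a _ => hp a).1 hP.symm a (Finset.mem_univ a)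
    simp [hz, ← hP]
  · have key := log_sum (p := p) (r := fun _ => 1) hp (fun _ => zero_le_one) (by simp)
    have hmass : mass (fun _ : α => (1 : ℝ)) = Fintype.card α := by
      simp [mass]
    rw [hmass] at key
    simp only [div_one] at key
    have hN : (0 : ℝ) < Fintype.card α := by
      have : Nonempty α := by
        by_contra hne
        rw [not_nonempty_iff] at hne
        have : mass p = 0 := by simp [mass]
        exact hP.ne' this
      exact_mod_cast Fintype.card_pos
    rw [log_div hP.ne' hN.ne'] at key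
    nlinarith

lemma Dm_nonneg {p : α → ℝ} (hp : ∀ a, 0 ≤ p a) : 0 ≤ Dm p := by
  unfold Dm DN
  linarith [hh_le hp]

lemma DN_nonneg {p : α → ℝ} (hp : ∀ a, 0 ≤ p a) {N : ℝ} (hN : (Fintype.card α : ℝ) ≤ N)
    (hN0 : 0 < N) : 0 ≤ DN N p := by
  unfold DN
  have h := hh_le hp
  rcases (mass_nonneg hp).eq_or_lt with hP | hP
  · have hz : ∀ a, p a = 0 := by
      intro a
      exact (Finset.sum_eq_zero_iff_of_nonneg fun a _ => hp a).1 hP.symm a (Finset.mem_univ a)
    have : hh p = 0 := by
      unfold hh mass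
      simp [hz]
    rw [this, ← hP]; simp
  · have hc : (0 : ℝ) < Fintype.card α := by
      have : Nonempty α := by
        by_contra hne
        rw [not_nonempty_iff] at hne
        have : mass p = 0 := by simp [mass]
        exact hP.ne' this
      exact_mod_cast Fintype.card_pos
    have h2 : log (Fintype.card α) ≤ log N := log_le_log hc hN
    nlinarith

/-- `hh` is superadditive: `Dm` is subadditive. -/
lemma hh_add_ge {p q : α → ℝ} (hp : ∀ a, 0 ≤ p a) (hq : ∀ a, 0 ≤ q a) :
    hh p + hh q ≤ hh (fun a => p a + q a) := by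
  have hr : ∀ a, 0 ≤ p a + q a := fun a => add_nonneg (hp a) (hq a)
  have h1 := log_sum (p := p) (r := fun a => p a + q a) hp hr
    (fun a h => by linarith [hp a, hq a])
  have h2 := log_sum (p := q) (r := fun a => p a + q a) hq hr
    (fun a h => by linarith [hp a, hq a])
  have hm : mass (fun a => p a + q a) = mass p + mass q := by
    unfold mass; exact Finset.sum_add_distrib
  rw [hm] at h1 h2
  rw [hh_eq p hp, hh_eq q hq, hh_eq _ hr, hm]
  -- pointwise identities
  have e : ∀ x y : ℝ, 0 ≤ x → 0 ≤ y → x * log (x / (x + y)) + y * log (y / (x + y))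
      = x * log x + y * log y - (x + y) * log (x + y) := by
    intro x y hx hy
    rcases hx.eq_or_lt with rfl | hx'
    · simp only [zero_add, zero_mul, sub_eq_add_neg]
      rcases hy.eq_or_lt with rfl | hy'
      · simp
      · rw [div_self hy'.ne']; simp
    · rcases hy.eq_or_lt with rfl | hy'
      · simp [div_self hx'.ne']
      · rw [log_div hx'.ne' (by positivity), log_div hy'.ne' (by positivity)]; ring
  have s1 : ∑ a, p a * log (p a / (p a + q a)) + ∑ a, q a * log (q a / (p a + q a))
      = ∑ a, p a * log (p a) + ∑ a, q a * log (q a) - ∑ a, (p a + q a) * log (p a + q a) := by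
    rw [← Finset.sum_add_distrib, ← Finset.sum_add_distrib, ← Finset.sum_sub_distrib]
    exact Finset.sum_congr rfl fun a _ => e _ _ (hp a) (hq a)
  have s2 := e (mass p) (mass q) (mass_nonneg hp) (mass_nonneg hq)
  linarith

lemma hh_zero : hh (fun _ : α => (0 : ℝ)) = 0 := by
  simp [hh, mass]

lemma hh_sum_ge {ι : Type*} (s : Finset ι) (p : ι → α → ℝ) (hp : ∀ i a, 0 ≤ p i a) :
    ∑ i ∈ s, hh (p i) ≤ hh (fun a => ∑ i ∈ s, p i a) := by
  classical
  induction s using Finset.induction_on with
  | empty => simp [hh_zero]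
  | insert i s hi ih =>
    rw [Finset.sum_insert hi]
    have h := hh_add_ge (hp i) (fun a => Finset.sum_nonneg fun j _ => hp j a : ∀ a, 0 ≤ ∑ j ∈ s, p j a)
    simp only [Finset.sum_insert hi]
    linarith

lemma mass_sum {ι : Type*} (s : Finset ι) (p : ι → α → ℝ) :
    mass (fun a => ∑ i ∈ s, p i a) = ∑ i ∈ s, mass (p i) := by
  unfold mass
  exact Finset.sum_comm

lemma DN_sum_le {ι : Type*} (s : Finset ι) (p : ι → α → ℝ) (hp : ∀ i a, 0 ≤ p i a) (N : ℝ) :
    DN N (fun a => ∑ i ∈ s, p i a) ≤ ∑ i ∈ s, DN N (p i) := by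
  unfold DN
  rw [mass_sum, Finset.sum_sub_distrib, ← Finset.sum_mul]
  linarith [hh_sum_ge s p hp]

/-- Data processing for a push-forward. -/
lemma hh_push_le (f : α → β) {p : α → ℝ} (hp : ∀ a, 0 ≤ p a) : hh (push f p) ≤ hh p := by
  rw [hh_chain f p]
  have : 0 ≤ ∑ b, hh (restr f p b) :=
    Finset.sum_nonneg fun b _ => hh_nonneg (restr_nonneg f hp b)
  linarith

/-- Pushing along an injective map preserves `hh`. -/
lemma hh_push_inj (f : α → β) (hf : Function.Injective f) (p : α → ℝ) :
    hh (push f p) = hh p := by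
  classical
  have hpf : ∀ a, push f p (f a) = p a := by
    intro a
    unfold push
    rw [Finset.sum_eq_single a]
    · intro b hb hne
      rw [Finset.mem_filter] at hb
      exact absurd (hf hb.2) hne
    · intro h
      simp at h
  have hz : ∀ b, b ∉ Set.range f → push f p b = 0 := by
    intro b hb
    unfold push
    refine Finset.sum_eq_zero fun a ha => ?_
    rw [Finset.mem_filter] at ha
    exact absurd ⟨a, ha.2⟩ hb
  have h := hh_comp_inj f hf (push f p) hz
  have : push f p ∘ f = p := funext hpf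
  rw [this] at h
  exact h.symm

lemma negMulLog_of_mass_one {p : α → ℝ} (hp1 : ∑ a, p a = 1) : hh p = ∑ a, negMulLog (p a) := by
  unfold hh mass
  rw [hp1]
  simp

/-- Mutual information lower bound: if the law `p` (mass 1) of `(U,V)` is supported in `R`, then
`hh U + hh V - hh p ≥ -log (∑_{R} p_U p_V)`. -/
lemma mutual_info_ge {U V : Type*} [Fintype U] [Fintype V] [DecidableEq U] [DecidableEq V]
    (p : U × V → ℝ) (hp : ∀ a, 0 ≤ p a) (hp1 : ∑ a, p a = 1)
    (R : U × V → Prop) [DecidablePred R] (hR : ∀ a, p a ≠ 0 → R a) :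
    - log (∑ a with R a, push Prod.fst p a.1 * push Prod.snd p a.2)
      ≤ hh (push Prod.fst p) + hh (push Prod.snd p) - hh p := by
  set pU := push Prod.fst p with hpU
  set pV := push Prod.snd p with hpV
  have hpU0 : ∀ u, 0 ≤ pU u := push_nonneg _ hp
  have hpV0 : ∀ v, 0 ≤ pV v := push_nonneg _ hp
  have hleU : ∀ a, p a ≤ pU a.1 := fun a =>
    Finset.single_le_sum (f := p) (fun b _ => hp b) (Finset.mem_filter.2 ⟨Finset.mem_univ a, rfl⟩)
  have hleV : ∀ a, p a ≤ pV a.2 := fun a =>
    Finset.single_le_sum (f := p) (fun b _ => hp b) (Finset.mem_filter.2 ⟨Finset.mem_univ a, rfl⟩)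
  set r : U × V → ℝ := fun a => if R a then pU a.1 * pV a.2 else 0 with hr
  have hr0 : ∀ a, 0 ≤ r a := by
    intro a
    simp only [hr]
    split_ifs
    · exact mul_nonneg (hpU0 _) (hpV0 _)
    · exact le_rfl
  have hrz : ∀ a, r a = 0 → p a = 0 := by
    intro a ha
    by_contra hne
    have hRa := hR a hne
    simp only [hr, if_pos hRa] at ha
    have hpos : 0 < p a := lt_of_le_of_ne (hp a) (Ne.symm hne)
    have h1 := lt_of_lt_of_le hpos (hleU a)
    have h2 := lt_of_lt_of_le hpos (hleV a)
    exact (mul_pos h1 h2).ne' ha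
  have hls := log_sum hp hr0 hrz
  have hmp : mass p = 1 := hp1
  have hmr : mass r = ∑ a with R a, pU a.1 * pV a.2 := by
    unfold mass
    rw [Finset.sum_filter]
  rw [hmp, hmr, one_mul, one_div, log_inv] at hls
  have hterm : ∀ a, p a * log (p a / r a) = p a * log (p a) - p a * log (pU a.1) - p a * log (pV a.2) := by
    intro a
    by_cases hne : p a = 0
    · simp [hne]
    · have hpos : 0 < p a := lt_of_le_of_ne (hp a) (Ne.symm hne)
      have hRa := hR a hne
      have h1 := lt_of_lt_of_le hpos (hleU a)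
      have h2 := lt_of_lt_of_le hpos (hleV a)
      simp only [hr, if_pos hRa]
      rw [log_div hpos.ne' (mul_pos h1 h2).ne', log_mul h1.ne' h2.ne']
      ring
  rw [Finset.sum_congr rfl fun a _ => hterm a, Finset.sum_sub_distrib, Finset.sum_sub_distrib] at hls
  have hmU : ∑ u, pU u = 1 := by
    have := mass_push Prod.fst p
    rw [hmp] at this
    exact this
  have hmV : ∑ v, pV v = 1 := by
    have := mass_push Prod.snd p
    rw [hmp] at this
    exact this
  rw [negMulLog_of_mass_one hmU, negMulLog_of_mass_one hmV, negMulLog_of_mass_one hp1]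
  have eU : ∑ a, p a * log (pU a.1) = ∑ u, pU u * log (pU u) :=
    sum_mul_push Prod.fst p (fun u => log (pU u))
  have eV : ∑ a, p a * log (pV a.2) = ∑ v, pV v * log (pV v) :=
    sum_mul_push Prod.snd p (fun v => log (pV v))
  rw [eU, eV] at hls
  simp only [negMulLog, neg_mul, Finset.sum_neg_distrib]
  linarith

/-- Donsker-Varadhan on a finite type. -/
lemma donsker_varadhan [Nonempty α] {p : α → ℝ} (hp : ∀ a, 0 ≤ p a) (hp1 : ∑ a, p a = 1)
    (Φ : α → ℝ) :
    ∑ a, p a * Φ a ≤ Dm p + log (avg (fun a => exp (Φ a))) := by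
  have hr0 : ∀ a, 0 ≤ exp (Φ a) := fun a => (exp_pos _).le
  have hls := log_sum hp hr0 (fun a h => absurd h (exp_pos _).ne')
  have hmp : mass p = 1 := hp1
  have hR : 0 < mass (fun a => exp (Φ a)) := Finset.sum_pos (fun a _ => exp_pos _) Finset.univ_nonempty
  have hN : (0 : ℝ) < Fintype.card α := by exact_mod_cast Fintype.card_pos
  rw [hmp, one_mul, one_div, log_inv] at hls
  have hterm : ∀ a, p a * log (p a / exp (Φ a)) = p a * log (p a) - p a * Φ a := by
    intro a
    rcases (hp a).eq_or_lt with h0 | h0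
    · simp [← h0]
    · rw [log_div h0.ne' (exp_pos _).ne', log_exp]; ring
  rw [Finset.sum_congr rfl fun a _ => hterm a, Finset.sum_sub_distrib] at hls
  have hD : Dm p = log (Fintype.card α) + ∑ a, p a * log (p a) := by
    unfold Dm DN
    rw [negMulLog_of_mass_one hp1, hmp, one_mul]
    simp only [negMulLog, neg_mul, Finset.sum_neg_distrib]
    ring
  have hA : log (avg (fun a => exp (Φ a))) = log (mass (fun a => exp (Φ a))) - log (Fintype.card α) := by
    unfold avg
    change log (mass (fun a => exp (Φ a)) / _) = _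
    rw [log_div hR.ne' hN.ne']
  rw [hD, hA]
  linarith

/-- Entropy of a product law. -/
lemma Dm_prod [Nonempty α] {p : α → ℝ} (hp : ∀ a, 0 ≤ p a) (hp1 : ∑ a, p a = 1) :
    Dm (fun x : α × α => p x.1 * p x.2) = 2 * Dm p := by
  have hN : (0 : ℝ) < Fintype.card α := by exact_mod_cast Fintype.card_pos
  have h1 : ∑ x : α × α, p x.1 * p x.2 = 1 := by
    rw [Fintype.sum_prod_type]
    simp_rw [← Finset.mul_sum, hp1, mul_one, hp1]
  have hD : ∀ {κ : Type _} [Fintype κ] (r : κ → ℝ), ∑ a, r a = 1 →
      Dm r = log (Fintype.card κ) + ∑ a, r a * log (r a) := by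
    intro κ _ r hr
    unfold Dm DN
    have hm : mass r = 1 := hr
    rw [negMulLog_of_mass_one hr, hm, one_mul]
    simp only [negMulLog, neg_mul, Finset.sum_neg_distrib]
    ring
  rw [hD _ h1, hD _ hp1, Fintype.card_prod]
  push_cast
  rw [log_mul hN.ne' hN.ne', Fintype.sum_prod_type]
  have hterm : ∀ a b, p a * p b * log (p a * p b)
      = p b * (p a * log (p a)) + p a * (p b * log (p b)) := by
    intro a b
    rcases (hp a).eq_or_lt with h0 | h0
    · simp [← h0]
    · rcases (hp b).eq_or_lt with h0' | h0'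
      · simp [← h0']
      · rw [log_mul h0.ne' h0'.ne']; ring
  have hdouble : ∑ a, ∑ b, (p b * (p a * log (p a)) + p a * (p b * log (p b)))
      = 2 * ∑ a, p a * log (p a) := by
    have e1 : ∀ a, ∑ b, (p b * (p a * log (p a)) + p a * (p b * log (p b)))
        = p a * log (p a) + p a * ∑ b, p b * log (p b) := by
      intro a
      rw [Finset.sum_add_distrib, ← Finset.sum_mul, hp1, one_mul, ← Finset.mul_sum]
    simp_rw [e1]
    rw [Finset.sum_add_distrib, ← Finset.sum_mul, hp1]
    ring
  simp_rw [hterm]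
  rw [hdouble]
  ring

/-- The pointwise inequality behind Pinsker and the bulk estimate:
`(t-1)^2 ≤ 2 (t+1) (t log t - t + 1)` for `t ≥ 0`. -/
lemma phi_ge (t : ℝ) (ht : 0 ≤ t) :
    (t - 1) ^ 2 ≤ 2 * (t + 1) * (t * log t - t + 1) := by
  rcases ht.eq_or_lt with rfl | ht'
  · norm_num
  · set s := sqrt t with hs
    have hs0 : 0 < s := sqrt_pos.2 ht'
    have hst : s ^ 2 = t := sq_sqrt ht
    have hlog : log t = 2 * log s := by
      rw [← hst, log_pow]; norm_num
    have h1 : 1 - s⁻¹ ≤ log s := one_sub_inv_le_log_of_pos hs0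
    have hphi : (s - 1) ^ 2 ≤ t * log t - t + 1 := by
      rw [hlog, ← hst]
      have h2 : s ^ 2 * (2 * (1 - s⁻¹)) ≤ s ^ 2 * (2 * log s) := by
        apply mul_le_mul_of_nonneg_left _ (by positivity)
        linarith
      have h3 : s ^ 2 * (2 * (1 - s⁻¹)) = 2 * s ^ 2 - 2 * s := by
        field_simp
      nlinarith
    have h4 : (t - 1) ^ 2 = (s - 1) ^ 2 * (s + 1) ^ 2 := by
      rw [← hst]; ring
    have h5 : (s + 1) ^ 2 ≤ 2 * (t + 1) := by
      rw [← hst]; nlinarith [sq_nonneg (s - 1)]
    rw [h4]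
    have h6 : 0 ≤ (s - 1) ^ 2 := sq_nonneg _
    have h7 : 0 ≤ t * log t - t + 1 := le_trans h6 hphi
    calc (s - 1) ^ 2 * (s + 1) ^ 2 ≤ (t * log t - t + 1) * (2 * (t + 1)) := by
          apply mul_le_mul hphi h5 (sq_nonneg _) h7
      _ = _ := by ring

/-- Pinsker's inequality for general reference law `q` (with `p ≪ q`), in the form
`(∑ |p - q|)^2 ≤ 4 ∑ p log (p/q)` (constant 4 suffices for us). -/
lemma pinsker {p q : α → ℝ} (hp : ∀ a, 0 ≤ p a) (hq : ∀ a, 0 ≤ q a)
    (hp1 : ∑ a, p a = 1) (hq1 : ∑ a, q a = 1) (h : ∀ a, q a = 0 → p a = 0) :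
    (∑ a, |p a - q a|) ^ 2 ≤ 4 * ∑ a, p a * log (p a / q a) := by
  -- weights b = p + q; a²/b ≤ 2 (p log(p/q) - p + q)
  have hb : ∀ a, 0 ≤ p a + q a := fun a => add_nonneg (hp a) (hq a)
  have key : ∀ a, |p a - q a| ^ 2 ≤ (p a + q a) * (2 * (p a * log (p a / q a) - p a + q a)) := by
    intro a
    rcases (hq a).eq_or_lt with h0 | h0
    · have hq0 : q a = 0 := h0.symm
      have hp0 := h a hq0
      simp [hq0, hp0]
    · set t := p a / q a with ht
      have ht0 : 0 ≤ t := div_nonneg (hp a) h0.le
      have hpt : p a = t * q a := by rw [ht]; field_simp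
      have := phi_ge t ht0
      rw [sq_abs, hpt]
      have e1 : (t * q a - q a) ^ 2 = q a ^ 2 * (t - 1) ^ 2 := by ring
      have e2 : (t * q a + q a) * (2 * (t * q a * log t - t * q a + q a))
          = q a ^ 2 * (2 * (t + 1) * (t * log t - t + 1)) := by
        ring
      rw [e1, e2]
      exact mul_le_mul_of_nonneg_left this (sq_nonneg _)
  have hsum0 : ∑ a, (p a + q a) = 2 := by
    rw [Finset.sum_add_distrib, hp1, hq1]; norm_num
  -- Cauchy-Schwarz in Sedrakyan form, by hand
  set KL := ∑ a, p a * log (p a / q a) with hKL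
  have hphi : ∑ a, (p a * log (p a / q a) - p a + q a) = KL := by
    rw [Finset.sum_add_distrib, Finset.sum_sub_distrib, hp1, hq1]; ring
  have hnn : ∀ a, 0 ≤ p a * log (p a / q a) - p a + q a := by
    intro a
    rcases (hq a).eq_or_lt with h0 | h0
    · have hq0 : q a = 0 := h0.symm
      have hp0 := h a hq0
      simp [hq0, hp0]
    · rcases (hp a).eq_or_lt with h1 | h1
      · simp [← h1]; exact h0.le
      · have := one_sub_inv_le_log_of_pos (div_pos h1 h0)
        have e : p a * (1 - (p a / q a)⁻¹) = p a - q a := by field_simp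
        have := mul_le_mul_of_nonneg_left this h1.le
        rw [e] at this
        linarith
  have hCS : (∑ a, |p a - q a|) ^ 2 ≤ (∑ a, (p a + q a)) * ∑ a, (2 * (p a * log (p a / q a) - p a + q a)) := by
    have := Finset.sum_sq_le_sum_mul_sum_of_sq_le_mul (s := Finset.univ) (r := fun a => |p a - q a|)
      (f := fun a => p a + q a) (g := fun a => 2 * (p a * log (p a / q a) - p a + q a))
      (fun a _ => hb a) (fun a _ => mul_nonneg zero_le_two (hnn a)) (fun a _ => key a)
    exact this
  rw [hsum0, ← Finset.mul_sum, hphi] at hCS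
  linarith

/-- Pinsker's inequality for the uniform reference law. -/
lemma pinsker_uniform [Nonempty α] {p : α → ℝ} (hp : ∀ a, 0 ≤ p a) (hp1 : ∑ a, p a = 1) :
    (∑ a, |p a - 1 / (Fintype.card α : ℝ)|) ^ 2 ≤ 4 * Dm p := by
  have hN : (0 : ℝ) < Fintype.card α := by exact_mod_cast Fintype.card_pos
  have h := pinsker (q := fun _ => 1 / (Fintype.card α : ℝ)) hp (fun _ => by positivity) hp1
    (by simp) (fun a ha => absurd ha (by positivity))
  have hD : Dm p = ∑ a, p a * log (p a / (1 / (Fintype.card α : ℝ))) := by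
    have hterm : ∀ a, p a * log (p a / (1 / (Fintype.card α : ℝ)))
        = p a * log (p a) + p a * log (Fintype.card α) := by
      intro a
      rcases (hp a).eq_or_lt with h0 | h0
      · simp [← h0]
      · rw [div_div_eq_mul_div, div_one, log_mul h0.ne' hN.ne']; ring
    rw [Finset.sum_congr rfl fun a _ => hterm a, Finset.sum_add_distrib, ← Finset.sum_mul, hp1]
    unfold Dm DN
    have hm : mass p = 1 := hp1
    rw [negMulLog_of_mass_one hp1, hm, one_mul]
    simp only [negMulLog, neg_mul, Finset.sum_neg_distrib]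
    ring
  rw [hD]
  exact h

/-- Relative entropy written with a density. -/
lemma Dm_eq_sum_phi [Nonempty α] {p : α → ℝ} (hp : ∀ a, 0 ≤ p a) (hp1 : ∑ a, p a = 1) :
    Dm p = (∑ a, (let t := p a * Fintype.card α; t * log t - t + 1)) / Fintype.card α := by
  have hN : (0 : ℝ) < Fintype.card α := by exact_mod_cast Fintype.card_pos
  have hD : Dm p = log (Fintype.card α) + ∑ a, p a * log (p a) := by
    unfold Dm DN
    have hm : mass p = 1 := hp1
    rw [negMulLog_of_mass_one hp1, hm, one_mul]
    simp only [negMulLog, neg_mul, Finset.sum_neg_distrib]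
    ring
  have hterm : ∀ a, (let t := p a * Fintype.card α; t * log t - t + 1)
      = (Fintype.card α : ℝ) * (p a * log (p a) + p a * log (Fintype.card α) - p a) + 1 := by
    intro a
    simp only
    rcases (hp a).eq_or_lt with h0 | h0
    · simp [← h0]
    · rw [log_mul h0.ne' hN.ne']; ring
  rw [hD, Finset.sum_congr rfl fun a _ => hterm a, Finset.sum_add_distrib, ← Finset.mul_sum,
    Finset.sum_sub_distrib, Finset.sum_add_distrib, ← Finset.sum_mul, hp1]
  simp only [Finset.sum_const, Finset.card_univ, nsmul_eq_mul, mul_one, one_mul]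
  field_simp
  ring

end P162
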