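import Vale.Agent.Lib.P162.KernelA
import Vale.Agent.Lib.P162.BulkHeavy

/-!
# P162: the kernel `Wk` of the bipartite step (part III of note P162plan).
-/

open Finset BigOperators Real

noncomputable section

namespace P162

variable {X Y : Type} [Fintype X] [Fintype Y] [DecidableEq X] [DecidableEq Y] {N M : ℕ}

lemma Wk_nonneg (c c' : X ≃ Y) : 0 ≤ Wk c c' := by
  unfold Wk
  positivity

lemma Wk_symm (c c' : X ≃ Y) : Wk c c' = Wk c' c := by
  unfold Wk
  congr 2
  refine Finset.card_bij (fun p _ => p.swap) ?_ ?_ ?_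
  · intro p hp
    simp only [Finset.mem_filter, Finset.mem_univ, true_and, Prod.fst_swap, Prod.snd_swap] at hp ⊢
    exact ⟨(orth_comm _ _).1 hp.1, (orth_comm _ _).1 hp.2⟩
  · intro a _ b _ h
    exact Prod.swap_injective h
  · intro p hp
    simp only [Finset.mem_filter, Finset.mem_univ, true_and] at hp
    refine ⟨p.swap, ?_, Prod.swap_swap p⟩
    simp only [Finset.mem_filter, Finset.mem_univ, true_and, Prod.fst_swap, Prod.snd_swap]
    exact ⟨(orth_comm _ _).1 hp.1, (orth_comm _ _).1 hp.2⟩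

lemma choose_ne_zero' (M : ℕ) : (((2 * M).choose M : ℕ) : ℝ) ≠ 0 := by
  have : 0 < (2 * M).choose M := Nat.choose_pos (by omega)
  positivity

lemma Wk_eq_card (hX : Fintype.card X = 4 * M) (c c' : X ≃ Y) :
    Wk c c' = (∑ T : Half X, ∑ S : Half X,
        (if Orth T S ∧ Orth (row c T) (row c' S) then (1 : ℝ) else 0))
      / (((2 * M).choose M : ℕ) : ℝ) ^ 4 := by
  unfold Wk
  have h2 : Fintype.card X / 2 = 2 * M := by omega
  have h4 : Fintype.card X / 4 = M := by omega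
  rw [h2, h4, Finset.card_filter]
  push_cast
  rw [Fintype.sum_prod_type]

/-- Mean one. -/
lemma Wk_mean (hX : Fintype.card X = 4 * M) (hc : Fintype.card X = Fintype.card Y) (hM : 1 ≤ M)
    (c : X ≃ Y) : ∑ c' : X ≃ Y, Wk c c' = Fintype.card (X ≃ Y) := by
  have hY : Fintype.card Y = 4 * M := by omega
  have hb := choose_ne_zero' M
  simp_rw [Wk_eq_card hX c]
  rw [← Finset.sum_div]
  have hF : ((Fintype.card X / 2).factorial : ℝ) ^ 2 * (((2 * M).choose M : ℕ) : ℝ) ^ 2
      * (((2 * M).choose M : ℕ) : ℝ) ^ 2 * Fintype.card (Half X)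
        = ∑ c' : X ≃ Y, ∑ T : Half X, ∑ S : Half X,
          (if Orth T S ∧ Orth (row c T) (row c' S) then (1 : ℝ) else 0) := by
    have step : ∀ T S : Half X, ∑ c' : X ≃ Y,
        (if Orth T S ∧ Orth (row c T) (row c' S) then (1 : ℝ) else 0)
        = (if Orth T S then (1 : ℝ) else 0) * (((Fintype.card X / 2).factorial : ℝ) ^ 2
          * (((2 * M).choose M : ℕ) : ℝ) ^ 2) := by
      intro T S
      by_cases h : Orth T S
      · simp only [h, true_and, if_true, one_mul]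
        rw [sum_row_eq hc S (fun Z => if Orth (row c T) Z then (1 : ℝ) else 0)]
        congr 1
        rw [Finset.sum_boole, card_orth M hY (row c T)]
        push_cast
        rfl
      · simp [h]
    rw [Finset.sum_comm]
    simp_rw [Finset.sum_comm (s := (Finset.univ : Finset (X ≃ Y)))]
    simp_rw [step, ← Finset.sum_mul]
    have hcount : ∀ T : Half X, ∑ S : Half X, (if Orth T S then (1 : ℝ) else 0)
        = (((2 * M).choose M : ℕ) : ℝ) ^ 2 := by
      intro T
      rw [Finset.sum_boole, card_orth M hX T]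
      push_cast
      rfl
    simp_rw [hcount]
    simp only [Finset.sum_const, Finset.card_univ, nsmul_eq_mul]
    ring
  rw [← hF, card_equiv_eq hc, factorial_eq_half hX, card_half ⟨2 * M, by omega⟩]
  field_simp

/-- Overlap of the images of a half set under two bijections, normalized: `ω = 2t/N - 1`. -/
def omega (c c' : X ≃ Y) (S : Half X) : ℝ :=
  2 * (((row c S).1 ∩ (row c' S).1).card : ℝ) / ((Fintype.card X / 2 : ℕ) : ℝ) - 1

lemma row_symm_row (c : X ≃ Y) (Z : Half Y) : row c (row c.symm Z) = Z := by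
  apply Subtype.ext
  ext y
  simp [row]

lemma card_inter_row (c : X ≃ Y) (S U : Half X) :
    ((row c S).1 ∩ (row c U).1).card = (S.1 ∩ U.1).card := by
  unfold row
  simp only
  rw [← Finset.map_inter, Finset.card_map]

/-- The number of `T` for fixed `S`. -/
lemma card_T (hX : Fintype.card X = 4 * M) (c c' : X ≃ Y) (S : Half X) :
    ∑ T : Half X, (if Orth T S ∧ Orth (row c T) (row c' S) then (1 : ℝ) else 0)
      = (KK (2 * M) ((row c S).1 ∩ (row c' S).1).card : ℝ) := by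
  rw [Finset.sum_boole]
  set U := row c.symm (row c' S) with hU
  have hUc : row c U = row c' S := row_symm_row c _
  have : ((Finset.univ : Finset (Half X)).filter fun T => Orth T S ∧ Orth (row c T) (row c' S))
      = (Finset.univ : Finset (Half X)).filter fun T => Orth S T ∧ Orth U T := by
    refine Finset.filter_congr fun T _ => ?_
    rw [← hUc, orth_row, orth_comm T S, orth_comm T U]
  rw [this, card_orth_two hX S U, ← hUc, card_inter_row]

lemma hInv_two (M : ℕ) : hInv (2 * M)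
    = (((4 * M).choose (2 * M) : ℕ) : ℝ) / (((2 * M).choose M : ℕ) : ℝ) ^ 2 := by
  unfold hInv
  have h1 : 2 * (2 * M) = 4 * M := by ring
  have h2 : 2 * M / 2 = M := by omega
  rw [h1, h2]

/-- The exact formula: `W = avg_S (1/h) KK(t_S) / C(N,N/2)²`. -/
lemma Wk_eq (hX : Fintype.card X = 4 * M) (hM : 1 ≤ M)
    (c c' : X ≃ Y) :
    Wk c c' = avg (fun S : Half X => hInv (2 * M) *
        (KK (2 * M) ((row c S).1 ∩ (row c' S).1).card : ℝ) / (((2 * M).choose M : ℕ) : ℝ) ^ 2) := by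
  have hb := choose_ne_zero' M
  have hev : Even (Fintype.card X) := by rw [hX]; exact ⟨2 * M, by ring⟩
  have hH : ((Fintype.card (Half X) : ℕ) : ℝ) = (((4 * M).choose (2 * M) : ℕ) : ℝ) := by
    rw [card_half hev, hX]
    congr 2
    omega
  have hH0 : (((4 * M).choose (2 * M) : ℕ) : ℝ) ≠ 0 := by
    rw [← hH]
    have := card_half_pos hev
    positivity
  rw [Wk_eq_card hX]
  unfold avg
  have hs : ∀ S : Half X, ∑ T : Half X, (if Orth T S ∧ Orth (row c T) (row c' S) then (1 : ℝ) else 0)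
      = (KK (2 * M) ((row c S).1 ∩ (row c' S).1).card : ℝ) := card_T hX c c'
  rw [Finset.sum_comm]
  simp_rw [hs]
  rw [hInv_two, hH]
  set b : ℝ := (((2 * M).choose M : ℕ) : ℝ) with hbdef
  set H : ℝ := (((4 * M).choose (2 * M) : ℕ) : ℝ) with hHdef
  have e : ∀ S : Half X, H / b ^ 2 * (KK (2 * M) ((row c S).1 ∩ (row c' S).1).card : ℝ) / b ^ 2
      = (H / b ^ 4) * (KK (2 * M) ((row c S).1 ∩ (row c' S).1).card : ℝ) := by
    intro S
    field_simp
  simp_rw [e]
  rw [← Finset.mul_sum]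
  field_simp

/-- Pointwise bound for large `M`. -/
theorem Wk_le : ∃ C M₀ : ℝ, 0 < C ∧ ∀ (X Y : Type) [Fintype X] [Fintype Y] [DecidableEq X] [DecidableEq Y]
    (M : ℕ), M₀ ≤ M → Fintype.card X = 4 * M → Fintype.card Y = 4 * M → ∀ c c' : X ≃ Y,
    Wk c c' ≤ 1 + C / sqrt (M : ℝ) + C * sqrt (M : ℝ) * avg (fun S : Half X => (omega c c' S) ^ 2) := by
  obtain ⟨C, N₀, hC, hk⟩ := kernel_bound
  refine ⟨2 * C, max N₀ 1, by positivity, ?_⟩
  intro X Y _ _ _ _ M hM hX hY c c'
  have hM1 : (1 : ℝ) ≤ M := le_trans (le_max_right _ _) hM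
  have hM0 : N₀ ≤ (M : ℝ) := le_trans (le_max_left _ _) hM
  have hMn : 1 ≤ M := by exact_mod_cast hM1
  have hev : Even (Fintype.card X) := by rw [hX]; exact ⟨2 * M, by ring⟩
  have hH0 : (0 : ℝ) < Fintype.card (Half X) := by exact_mod_cast card_half_pos hev
  have hsM : 0 < sqrt (M : ℝ) := sqrt_pos.2 (by linarith)
  have hs2M : sqrt ((2 * M : ℕ) : ℝ) = sqrt 2 * sqrt (M : ℝ) := by
    push_cast
    rw [sqrt_mul (by norm_num)]
  have hs2 : 1 ≤ sqrt 2 := by
    rw [show (1 : ℝ) = sqrt 1 by simp]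
    exact sqrt_le_sqrt (by norm_num)
  have hs2' : sqrt 2 ≤ 2 := by
    rw [show (2 : ℝ) = sqrt 4 by
      rw [show (4 : ℝ) = 2 ^ 2 by norm_num, sqrt_sq (by norm_num)]]
    exact sqrt_le_sqrt (by norm_num)
  rw [Wk_eq hX hMn]
  have hN : Fintype.card X / 2 = 2 * M := by omega
  have hterm : ∀ S : Half X, hInv (2 * M) *
        (KK (2 * M) ((row c S).1 ∩ (row c' S).1).card : ℝ) / (((2 * M).choose M : ℕ) : ℝ) ^ 2
      ≤ 1 + 2 * C / sqrt (M : ℝ) + 2 * C * sqrt (M : ℝ) * (omega c c' S) ^ 2 := by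
    intro S
    have ht : ((row c S).1 ∩ (row c' S).1).card ≤ 2 * M := by
      have h1 := Finset.card_le_card (Finset.inter_subset_left : (row c S).1 ∩ (row c' S).1 ⊆ (row c S).1)
      have h2 := (row c S).2
      omega
    have h := hk (2 * M) _ (by push_cast; nlinarith [hM0, sq_nonneg (M:ℝ)] ) (even_two_mul M) ht
    have h2M : 2 * M / 2 = M := by omega
    rw [h2M] at h
    have hom : omega c c' S = 2 * (((row c S).1 ∩ (row c' S).1).card : ℝ) / ((2 * M : ℕ) : ℝ) - 1 := by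
      unfold omega
      rw [hN]
    rw [← hom, hs2M] at h
    refine h.trans ?_
    have h1 : C / (sqrt 2 * sqrt (M : ℝ)) ≤ 2 * C / sqrt (M : ℝ) := by
      rw [div_le_div_iff₀ (by positivity) hsM]
      nlinarith [mul_pos hC hsM, mul_pos (mul_pos hC hsM) hsM]
    have h2 : C * (sqrt 2 * sqrt (M : ℝ)) * (omega c c' S) ^ 2
        ≤ 2 * C * sqrt (M : ℝ) * (omega c c' S) ^ 2 := by
      apply mul_le_mul_of_nonneg_right _ (sq_nonneg _)
      nlinarith [mul_pos hC hsM]
    linarith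
  unfold avg
  rw [div_le_iff₀ hH0]
  calc _ ≤ ∑ S : Half X, (1 + 2 * C / sqrt (M : ℝ) + 2 * C * sqrt (M : ℝ) * (omega c c' S) ^ 2) :=
        Finset.sum_le_sum fun S _ => hterm S
    _ = _ := by
        rw [Finset.sum_add_distrib, Finset.sum_const, ← Finset.mul_sum, Finset.card_univ, nsmul_eq_mul]
        field_simp

/-- Crude bound: `Wk ≤ 1/h ≤ 2 √(2M)`. -/
lemma Wk_le_crude (hX : Fintype.card X = 4 * M) (hM : 1 ≤ M)
    (c c' : X ≃ Y) : Wk c c' ≤ 2 * sqrt (2 * (M : ℝ)) := by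
  have hb := choose_ne_zero' M
  have hb0 : (0 : ℝ) < (((2 * M).choose M : ℕ) : ℝ) := by
    have : 0 < (2 * M).choose M := Nat.choose_pos (by omega)
    positivity
  have hev : Even (Fintype.card X) := by rw [hX]; exact ⟨2 * M, by ring⟩
  have hH0 : (0 : ℝ) < Fintype.card (Half X) := by exact_mod_cast card_half_pos hev
  have hI := hInv_le (2 * M) (by omega) (even_two_mul M)
  have hI0 := hInv_pos (2 * M)
  rw [Wk_eq hX hM]
  unfold avg
  rw [div_le_iff₀ hH0]
  have hterm : ∀ S : Half X, hInv (2 * M) *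
        (KK (2 * M) ((row c S).1 ∩ (row c' S).1).card : ℝ) / (((2 * M).choose M : ℕ) : ℝ) ^ 2
      ≤ 2 * sqrt (2 * (M : ℝ)) := by
    intro S
    have ht : ((row c S).1 ∩ (row c' S).1).card ≤ 2 * M := by
      have h1 := Finset.card_le_card (Finset.inter_subset_left : (row c S).1 ∩ (row c' S).1 ⊆ (row c S).1)
      have h2 := (row c S).2
      have h3 := Fintype.card_congr c
      omega
    have h := KK_le (2 * M) _ ht
    have h2M : 2 * M / 2 = M := by omega
    rw [h2M] at h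
    rw [div_le_iff₀ (by positivity)]
    have hcast : ((2 * M : ℕ) : ℝ) = 2 * (M : ℝ) := by push_cast; ring
    rw [hcast] at hI
    calc _ ≤ hInv (2 * M) * (((2 * M).choose M : ℕ) : ℝ) ^ 2 :=
          mul_le_mul_of_nonneg_left h hI0
      _ ≤ _ := mul_le_mul_of_nonneg_right hI (by positivity)
  calc _ ≤ ∑ S : Half X, 2 * sqrt (2 * (M : ℝ)) := Finset.sum_le_sum fun S _ => hterm S
    _ = _ := by
      rw [Finset.sum_const, Finset.card_univ, nsmul_eq_mul]
      ring

/-- Exponential moment in `c'`. -/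
theorem omega_exp_moment : ∃ M₀ : ℕ, ∀ (X Y : Type) [Fintype X] [Fintype Y] [DecidableEq X] [DecidableEq Y]
    (M : ℕ), M₀ ≤ M → Fintype.card X = 4 * M → Fintype.card Y = 4 * M → ∀ (c : X ≃ Y) (S : Half X),
    avg (fun c' : X ≃ Y => exp (((M : ℝ) / 2) * (omega c c' S) ^ 2)) ≤ 2 := by
  obtain ⟨N₀, hN₀⟩ := exp_moment
  refine ⟨N₀ + 1, ?_⟩
  intro X Y _ _ _ _ M hM hX hY c S
  have hc : Fintype.card X = Fintype.card Y := hX.trans hY.symm
  have hM1 : 1 ≤ M := by omega
  have hMr : (0 : ℝ) < M := by exact_mod_cast hM1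
  have hN : Fintype.card X / 2 = 2 * M := by omega
  set Z₀ := row c S with hZ₀
  -- the function of the image
  let F : Half Y → ℝ := fun Z => exp (((M : ℝ) / 2) *
    (2 * ((Z₀.1 ∩ Z.1).card : ℝ) / ((Fintype.card X / 2 : ℕ) : ℝ) - 1) ^ 2)
  have hsum := sum_row_eq hc S F
  have hfun : ∀ c' : X ≃ Y, exp (((M : ℝ) / 2) * (omega c c' S) ^ 2) = F (row c' S) := fun _ => rfl
  have hfact : (0 : ℝ) < ((Fintype.card (X ≃ Y) : ℕ) : ℝ) := by
    rw [card_equiv_eq hc]
    positivity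
  unfold avg
  simp_rw [hfun]
  rw [hsum, div_le_iff₀ hfact, card_equiv_eq hc, factorial_eq_half hX]
  have hY2 : Fintype.card Y = 2 * (2 * M) := by omega
  -- fibres over the overlap
  have hZ : ∑ Z : Half Y, F Z = ∑ t ∈ Finset.range (2 * M + 1),
      (((2 * M).choose t : ℝ)) ^ 2 * exp (((t : ℝ) - ((2 * M : ℕ) : ℝ) / 2) ^ 2 / ((2 * M : ℕ) : ℝ)) := by
    rw [← Finset.sum_fiberwise_of_maps_to (s := Finset.univ) (t := Finset.range (2 * M + 1))
      (g := fun Z : Half Y => (Z₀.1 ∩ Z.1).card)]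
    · refine Finset.sum_congr rfl fun t ht => ?_
      have htle : t ≤ 2 * M := by simpa [Nat.lt_succ_iff] using ht
      rw [Finset.sum_congr rfl (g := fun _ => exp (((t : ℝ) - ((2 * M : ℕ) : ℝ) / 2) ^ 2 / ((2 * M : ℕ) : ℝ)))]
      · rw [Finset.sum_const, nsmul_eq_mul, card_half_overlap hY2 Z₀ t, Nat.choose_symm htle]
        push_cast
        ring
      · intro Z hZ
        have h1 : (Z₀.1 ∩ Z.1).card = t := (Finset.mem_filter.1 hZ).2
        simp only [F]
        rw [h1, hN]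
        congr 1
        push_cast
        field_simp
    · intro Z _
      have h1 := Finset.card_le_card (Finset.inter_subset_left : Z₀.1 ∩ Z.1 ⊆ Z₀.1)
      have h2 := Z₀.2
      simp only [Finset.mem_range]
      omega
  rw [hZ]
  have hmom := hN₀ (2 * M) (by omega) (even_two_mul M)
  have hch : Fintype.card X = 2 * (2 * M) := by omega
  rw [hN, hch] at *
  have h3 := mul_le_mul_of_nonneg_left hmom (by positivity : (0:ℝ) ≤ (((2 * M).factorial : ℕ) : ℝ) ^ 2)
  linarith [h3]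

/-- Exponential beats polynomial, in the form needed. -/
lemma exists_index (K : ℝ) : ∃ j₀ : ℕ, 2 ≤ j₀ ∧ ∀ j : ℕ, j₀ ≤ j →
    K * ((j : ℝ) + 1) ^ 5 ≤ sqrt (sqrt ((2 : ℝ) ^ (j - 1))) := by
  have hr : (1 : ℝ) < sqrt (sqrt 2) := by
    rw [show (1 : ℝ) = sqrt 1 by simp]
    apply sqrt_lt_sqrt (by norm_num)
    rw [show (1 : ℝ) = sqrt 1 by simp]
    exact sqrt_lt_sqrt (by norm_num) (by norm_num)
  set r := sqrt (sqrt 2) with hrdef
  have hr0 : 0 < r := by linarith
  have ht := tendsto_pow_const_div_const_pow_of_one_lt 5 hr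
  have hK : (0 : ℝ) < 1 / (32 * (|K| + 1)) := by positivity
  have hev := (ht.eventually (gt_mem_nhds hK))
  obtain ⟨n₀, hn₀⟩ := Filter.eventually_atTop.1 hev
  refine ⟨n₀ + 3, by omega, ?_⟩
  intro j hj
  obtain ⟨n, rfl⟩ : ∃ n, j = n + 1 := ⟨j - 1, by omega⟩
  have hn : n₀ ≤ n := by omega
  have hn2 : (2 : ℝ) ≤ n := by
    have : 2 ≤ n := by omega
    exact_mod_cast this
  have h1 := hn₀ n hn
  simp only [Nat.add_sub_cancel]
  have hsq : sqrt (sqrt ((2 : ℝ) ^ n)) = r ^ n := by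
    have hr4 : r ^ 4 = 2 := by
      have e1 : r ^ 2 = sqrt 2 := sq_sqrt (sqrt_nonneg _)
      have e2 : sqrt 2 ^ 2 = 2 := sq_sqrt (by norm_num)
      calc r ^ 4 = (r ^ 2) ^ 2 := by ring
        _ = 2 := by rw [e1, e2]
    have e3 : (2 : ℝ) ^ n = (r ^ n) ^ 4 := by
      rw [← hr4]; ring
    rw [e3]
    have hp : 0 ≤ r ^ n := by positivity
    rw [show (r ^ n) ^ 4 = ((r ^ n) ^ 2) ^ 2 by ring, sqrt_sq (by positivity), sqrt_sq hp]
  rw [hsq]
  have hrn : 0 < r ^ n := by positivity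
  rw [div_lt_div_iff₀ hrn (by positivity)] at h1
  have h2 : ((n + 1 : ℕ) : ℝ) + 1 ≤ 2 * n := by push_cast; linarith
  have h3 : (((n + 1 : ℕ) : ℝ) + 1) ^ 5 ≤ 32 * (n : ℝ) ^ 5 := by
    calc _ ≤ (2 * (n : ℝ)) ^ 5 := pow_le_pow_left₀ (by positivity) h2 5
      _ = _ := by ring
  have h4 : K * (((n + 1 : ℕ) : ℝ) + 1) ^ 5 ≤ (|K| + 1) * (32 * (n : ℝ) ^ 5) := by
    have h5 : K ≤ |K| + 1 := by linarith [le_abs_self K]
    have h6 : 0 ≤ (((n + 1 : ℕ) : ℝ) + 1) ^ 5 := by positivity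
    calc _ ≤ (|K| + 1) * (((n + 1 : ℕ) : ℝ) + 1) ^ 5 := mul_le_mul_of_nonneg_right h5 h6
      _ ≤ _ := mul_le_mul_of_nonneg_left h3 (by positivity)
  have h7 : (|K| + 1) * (32 * (n : ℝ) ^ 5) ≤ r ^ n := by
    nlinarith
  exact h4.trans h7

lemma exp_avg_le {ι : Type*} [Fintype ι] [Nonempty ι] (y : ι → ℝ) :
    exp (avg y) ≤ avg (fun i => exp (y i)) := by
  have hN : (0 : ℝ) < Fintype.card ι := by exact_mod_cast Fintype.card_pos
  set a := avg y with ha
  have hterm : ∀ i, exp a * (1 + (y i - a)) ≤ exp (y i) := by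
    intro i
    have h1 : (y i - a) + 1 ≤ exp (y i - a) := add_one_le_exp _
    have h2 : exp (y i) = exp a * exp (y i - a) := by rw [← exp_add]; ring_nf
    rw [h2]
    apply mul_le_mul_of_nonneg_left _ (exp_pos a).le
    linarith
  have hsum := Finset.sum_le_sum fun i (_ : i ∈ Finset.univ) => hterm i
  rw [← Finset.mul_sum] at hsum
  have h3 : ∑ i, (1 + (y i - a)) = Fintype.card ι := by
    rw [Finset.sum_add_distrib, Finset.sum_sub_distrib]
    simp only [Finset.sum_const, Finset.card_univ, nsmul_eq_mul, mul_one]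
    have : ∑ i, y i = (Fintype.card ι : ℝ) * a := by
      rw [ha]; unfold avg; field_simp
    rw [this]; ring
  rw [h3] at hsum
  unfold avg at ha ⊢
  rw [le_div_iff₀ hN]
  linarith

/-- The abstract analytic core: from a pointwise bound and an exponential moment to the
entropy bound. -/
theorem kernel_abstract {G : Type} [Fintype G] [Nonempty G] (W Φ : G → G → ℝ)
    (hsym : ∀ a b, W a b = W b a) (hmean : ∀ a, ∑ b, W a b = Fintype.card G)
    (C s : ℝ) (hC : 0 < C) (hs : 0 < s) (hΦ0 : ∀ a b, 0 ≤ Φ a b)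
    (hle : ∀ a b, W a b ≤ 1 + C / s + C * s * Φ a b)
    (hΦexp : ∀ a, avg (fun b => exp ((s ^ 2 / 2) * Φ a b)) ≤ 2)
    (ν : G → ℝ) (hν : ∀ a, 0 ≤ ν a) (hν1 : ∑ a, ν a = 1) :
    ∑ a, ∑ b, ν a * ν b * (W a b - 1) ≤ Dm ν * (40 * (10 * C / s) + 5 * C / s * (Dm ν + 2)) := by
  have hG0 : (0 : ℝ) < Fintype.card G := by exact_mod_cast Fintype.card_pos
  have hs2 : 0 < s ^ 2 := by positivity
  let V : G → G → ℝ := fun c c' => W c c' - 1
  have hVle : ∀ c c', V c c' ≤ C / s + C * s * Φ c c' := by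
    intro c c'
    have := hle c c'
    simp only [V]
    linarith
  have hVzero : ∀ c, ∑ c', V c c' = 0 := by
    intro c
    simp only [V]
    rw [Finset.sum_sub_distrib, hmean c]
    simp
  have hΦ1 : ∀ c, ∑ c', Φ c c' ≤ (4 / s ^ 2) * Fintype.card G := by
    intro c
    have h1 : ∀ c', Φ c c' ≤ (2 / s ^ 2) * exp ((s ^ 2 / 2) * Φ c c') := by
      intro c'
      have h2 := add_one_le_exp ((s ^ 2 / 2) * Φ c c')
      have h3 : Φ c c' = (2 / s ^ 2) * ((s ^ 2 / 2) * Φ c c') := by field_simp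
      calc Φ c c' = (2 / s ^ 2) * ((s ^ 2 / 2) * Φ c c') := h3
        _ ≤ _ := by
          apply mul_le_mul_of_nonneg_left _ (by positivity)
          linarith
    have h4 := hΦexp c
    unfold avg at h4
    rw [div_le_iff₀ hG0] at h4
    calc ∑ c', Φ c c' ≤ ∑ c', (2 / s ^ 2) * exp ((s ^ 2 / 2) * Φ c c') :=
          Finset.sum_le_sum fun c' _ => h1 c'
      _ = (2 / s ^ 2) * ∑ c', exp ((s ^ 2 / 2) * Φ c c') := by rw [Finset.mul_sum]
      _ ≤ (2 / s ^ 2) * (2 * Fintype.card G) :=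
          mul_le_mul_of_nonneg_left h4 (by positivity)
      _ = _ := by ring
  have hv1 : ∀ c, ∑ c', |V c c'| ≤ (10 * C / s) * Fintype.card G := by
    intro c
    have hB0 : ∀ c', 0 ≤ C / s + C * s * Φ c c' := fun c' => by
      have := hΦ0 c c'
      positivity
    have h1 : ∀ c', |V c c'| ≤ 2 * (C / s + C * s * Φ c c') - V c c' := by
      intro c'
      have h2 := hVle c c'
      have h3 := hB0 c'
      rcases abs_cases (V c c') with ⟨h, _⟩ | ⟨h, _⟩ <;> rw [h] <;> linarith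
    calc ∑ c', |V c c'| ≤ ∑ c', (2 * (C / s + C * s * Φ c c') - V c c') :=
          Finset.sum_le_sum fun c' _ => h1 c'
      _ = 2 * (C / s * Fintype.card G + C * s * ∑ c', Φ c c') := by
          rw [Finset.sum_sub_distrib, hVzero c, ← Finset.mul_sum, Finset.sum_add_distrib,
            ← Finset.mul_sum, Finset.sum_const, Finset.card_univ, nsmul_eq_mul]
          ring
      _ ≤ 2 * (C / s * Fintype.card G + C * s * ((4 / s ^ 2) * Fintype.card G)) := by
          have := hΦ1 c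
          have h5 : 0 ≤ C * s := by positivity
          nlinarith [mul_le_mul_of_nonneg_left this h5]
      _ = _ := by
          field_simp
          ring
  have hA : ∀ r : G → ℝ, (∀ a, 0 ≤ r a) → ∑ a, r a = 1 →
      ∑ a, ∑ b, r a * r b * V a b ≤ (5 * C / s) * (1 + Dm r) := by
    intro r hr hr1
    have hprod1 : ∑ x : G × G, r x.1 * r x.2 = 1 := by
      rw [Fintype.sum_prod_type]
      simp_rw [← Finset.mul_sum, hr1, mul_one, hr1]
    have hprod0 : ∀ x : G × G, 0 ≤ r x.1 * r x.2 := fun x => mul_nonneg (hr _) (hr _)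
    have hDV := donsker_varadhan hprod0 hprod1 (fun x => (s ^ 2 / 2) * Φ x.1 x.2)
    rw [Dm_prod hr hr1] at hDV
    have havg : avg (fun x : G × G => exp ((s ^ 2 / 2) * Φ x.1 x.2)) ≤ 2 := by
      unfold avg
      rw [div_le_iff₀ (by positivity), Fintype.sum_prod_type, Fintype.card_prod]
      push_cast
      have h1 : ∀ c, ∑ c', exp ((s ^ 2 / 2) * Φ c c') ≤ 2 * Fintype.card G := by
        intro c
        have := hΦexp c
        unfold avg at this
        rwa [div_le_iff₀ hG0] at this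
      calc _ ≤ ∑ c : G, (2 * (Fintype.card G : ℝ)) := Finset.sum_le_sum fun c _ => h1 c
        _ = _ := by
          rw [Finset.sum_const, Finset.card_univ, nsmul_eq_mul]
          ring
    have havg0 : 0 < avg (fun x : G × G => exp ((s ^ 2 / 2) * Φ x.1 x.2)) := by
      unfold avg
      apply div_pos
      · exact Finset.sum_pos (fun x _ => exp_pos _) Finset.univ_nonempty
      · exact_mod_cast Fintype.card_pos
    have hlog : log (avg (fun x : G × G => exp ((s ^ 2 / 2) * Φ x.1 x.2))) ≤ 1 := by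
      have h1 := log_le_log havg0 havg
      have h2 : log 2 ≤ 1 := by
        have := Real.log_two_lt_d9
        linarith
      linarith
    have hsumΦ : ∑ a, ∑ b, r a * r b * Φ a b ≤ (2 / s ^ 2) * (2 * Dm r + 1) := by
      rw [Fintype.sum_prod_type] at hDV
      simp only at hDV
      have e : ∀ a b, r a * r b * ((s ^ 2 / 2) * Φ a b) = (s ^ 2 / 2) * (r a * r b * Φ a b) := by
        intro a b; ring
      simp_rw [e, ← Finset.mul_sum] at hDV
      have h3 : (s ^ 2 / 2) * ∑ a, ∑ b, r a * r b * Φ a b ≤ 2 * Dm r + 1 := by linarith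
      have h4 : ∑ a, ∑ b, r a * r b * Φ a b
          = (2 / s ^ 2) * ((s ^ 2 / 2) * ∑ a, ∑ b, r a * r b * Φ a b) := by
        field_simp
      rw [h4]
      exact mul_le_mul_of_nonneg_left h3 (by positivity)
    have hrr : ∑ a, ∑ b, r a * r b = 1 := by
      simp_rw [← Finset.mul_sum, hr1, mul_one, hr1]
    have hDr := Dm_nonneg hr
    calc ∑ a, ∑ b, r a * r b * V a b
        ≤ ∑ a, ∑ b, r a * r b * (C / s + C * s * Φ a b) :=
          Finset.sum_le_sum fun a _ => Finset.sum_le_sum fun b _ =>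
            mul_le_mul_of_nonneg_left (hVle a b) (mul_nonneg (hr a) (hr b))
      _ = C / s * (∑ a, ∑ b, r a * r b) + C * s * ∑ a, ∑ b, r a * r b * Φ a b := by
          simp_rw [mul_add, Finset.sum_add_distrib, Finset.mul_sum]
          congr 1
          · refine Finset.sum_congr rfl fun a _ => Finset.sum_congr rfl fun b _ => ?_
            ring
          · refine Finset.sum_congr rfl fun a _ => Finset.sum_congr rfl fun b _ => ?_
            ring
      _ ≤ C / s * 1 + C * s * ((2 / s ^ 2) * (2 * Dm r + 1)) := by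
          rw [hrr]
          have h5 : 0 ≤ C * s := by positivity
          have := mul_le_mul_of_nonneg_left hsumΦ h5
          linarith
      _ = 3 * C / s + 4 * C / s * Dm r := by
          field_simp
          ring
      _ ≤ _ := by
          have h6 : 0 ≤ C / s := by positivity
          have e : (5 * C / s) * (1 + Dm r) - (3 * C / s + 4 * C / s * Dm r)
              = (C / s) * (2 + Dm r) := by
            field_simp
            ring
          have : 0 ≤ (C / s) * (2 + Dm r) := by positivity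
          linarith
  exact bulk_heavy V (fun a b => by simp only [V]; rw [hsym]) hVzero (10 * C / s) (5 * C / s)
    (by positivity) (by positivity) hv1 hA ν hν hν1

/-- The exponential moment of the averaged overlap. -/
lemma Φ_exp_moment {M : ℕ} (hMn : 1 ≤ M) (hX4 : Fintype.card X = 4 * M)
    (hmom : ∀ (c : X ≃ Y) (S : Half X),
      avg (fun c' : X ≃ Y => exp (((M : ℝ) / 2) * (omega c c' S) ^ 2)) ≤ 2)
    [Nonempty (X ≃ Y)] (c : X ≃ Y) :
    avg (fun c' : X ≃ Y => exp (((M : ℝ) / 2) * avg (fun S : Half X => (omega c c' S) ^ 2))) ≤ 2 := by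
  have hevX : Even (Fintype.card X) := by rw [hX4]; exact ⟨2 * M, by ring⟩
  have hne : Nonempty (Half X) := Fintype.card_pos_iff.1 (card_half_pos hevX)
  have h1 : ∀ c' : X ≃ Y, exp (((M : ℝ) / 2) * avg (fun S : Half X => (omega c c' S) ^ 2))
      ≤ avg (fun S : Half X => exp (((M : ℝ) / 2) * (omega c c' S) ^ 2)) := by
    intro c'
    have h2 := exp_avg_le (fun S : Half X => ((M : ℝ) / 2) * (omega c c' S) ^ 2)
    have h3 : avg (fun S : Half X => ((M : ℝ) / 2) * (omega c c' S) ^ 2)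
        = ((M : ℝ) / 2) * avg (fun S : Half X => (omega c c' S) ^ 2) := by
      unfold avg
      rw [← Finset.mul_sum]
      ring
    rw [h3] at h2
    exact h2
  calc avg (fun c' : X ≃ Y => exp (((M : ℝ) / 2) * avg (fun S : Half X => (omega c c' S) ^ 2)))
      ≤ avg (fun c' : X ≃ Y => avg (fun S : Half X => exp (((M : ℝ) / 2) * (omega c c' S) ^ 2))) := by
        unfold avg
        apply div_le_div_of_nonneg_right _ (Nat.cast_nonneg _)
        exact Finset.sum_le_sum fun c' _ => h1 c'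
    _ = avg (fun S : Half X => avg (fun c' : X ≃ Y => exp (((M : ℝ) / 2) * (omega c c' S) ^ 2))) := by
        unfold avg
        simp_rw [← Finset.sum_div]
        rw [Finset.sum_comm, div_div, div_div, mul_comm]
    _ ≤ 2 := by
        have : avg (fun S : Half X => avg (fun c' : X ≃ Y => exp (((M : ℝ) / 2) * (omega c c' S) ^ 2)))
            ≤ avg (fun _ : Half X => (2 : ℝ)) := by
          unfold avg
          apply div_le_div_of_nonneg_right _ (Nat.cast_nonneg _)
          exact Finset.sum_le_sum fun S _ => hmom c S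
        refine this.trans ?_
        unfold avg
        simp only [Finset.sum_const, Finset.card_univ, nsmul_eq_mul]
        have hH : (0 : ℝ) < Fintype.card (Half X) := by exact_mod_cast Fintype.card_pos
        rw [mul_div_assoc, mul_comm]
        field_simp
        rfl

/-- The numerics of the collision bound. -/
lemma zeta_numeric (E Xc C sM y B u : ℝ) (hE0 : 0 ≤ E) (hX00 : 0 < Xc) (hC : 0 < C) (hsM0 : 0 < sM)
    (hy0 : 0 < y) (hy2 : y * y = sM) (hu : 1 ≤ u)
    (hy : (415 * C + 1) * u ^ 5 ≤ y)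
    (hbh : Xc - 1 ≤ E * (40 * (10 * C / sM) + 5 * C / sM * (E + 2)))
    (hB : Xc ≤ B) (hlogB : log B ≤ u) :
    log Xc ≤ 1 / u ^ 4 * E := by
  have hp5 : (1 : ℝ) ≤ u ^ 5 := one_le_pow₀ hu
  have hp4 : (1 : ℝ) ≤ u ^ 4 := one_le_pow₀ hu
  have hp54 : u ^ 4 ≤ u ^ 5 := by
    rw [pow_succ]
    nlinarith
  have hy1 : (1 : ℝ) ≤ y := by
    have h0 : 0 ≤ 415 * C * u ^ 5 := by positivity
    nlinarith
  have hCy : 415 * C * u ^ 4 ≤ y := by
    have h0 : 415 * C * u ^ 4 ≤ 415 * C * u ^ 5 :=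
      mul_le_mul_of_nonneg_left hp54 (by positivity)
    nlinarith
  by_cases hcase : E ≤ y
  · -- small entropy
    have h1 : log Xc ≤ Xc - 1 := log_le_sub_one_of_pos hX00
    have h3 : 40 * (10 * C / sM) + 5 * C / sM * (E + 2) ≤ 1 / u ^ 4 := by
      have h4 : 40 * (10 * C / sM) + 5 * C / sM * (E + 2) ≤ 415 * C / y := by
        have e : 40 * (10 * C / sM) + 5 * C / sM * (E + 2) = (C / sM) * (410 + 5 * E) := by
          field_simp
          ring
        rw [e]
        have e2 : 415 * C / y = (C / sM) * (415 * y) := by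
          rw [← hy2]; field_simp
        rw [e2]
        apply mul_le_mul_of_nonneg_left _ (by positivity)
        nlinarith
      refine h4.trans ?_
      rw [div_le_div_iff₀ hy0 (by positivity)]
      linarith
    calc log Xc ≤ E * (40 * (10 * C / sM) + 5 * C / sM * (E + 2)) := h1.trans hbh
      _ ≤ E * (1 / u ^ 4) := mul_le_mul_of_nonneg_left h3 hE0
      _ = _ := by ring
  · -- large entropy
    push Not at hcase
    have h1 : log Xc ≤ u := (log_le_log hX00 hB).trans hlogB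
    have h2 : u ≤ 1 / u ^ 4 * E := by
      rw [one_div, ← div_eq_inv_mul, le_div_iff₀ (by positivity)]
      have e : u * u ^ 4 = u ^ 5 := by ring
      rw [e]
      have h0 : 0 ≤ 415 * C * u ^ 5 := by positivity
      nlinarith
    exact h1.trans h2

/-- The collision bound for large `j`. -/
theorem zeta_bound : ∃ j₀ : ℕ, 1 ≤ j₀ ∧ ∀ j, j₀ ≤ j → ZetaBound (j + 1) (1 / ((j : ℝ) + 1) ^ 4) := by
  obtain ⟨C, M₀, hC, hle⟩ := Wk_le
  obtain ⟨M₁, hmom⟩ := omega_exp_moment
  obtain ⟨j₁, hj₁2, hj₁⟩ := exists_index (415 * C + 1)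
  -- an index so that 2^(j-1) ≥ M₀, M₁
  obtain ⟨j₂, hj₂⟩ : ∃ j₂ : ℕ, ∀ j, j₂ ≤ j → max M₀ M₁ ≤ ((2 ^ (j - 1) : ℕ) : ℝ) := by
    obtain ⟨n, hn⟩ := exists_nat_ge (max M₀ (M₁ : ℝ))
    refine ⟨n + 1, fun j hj => ?_⟩
    have h1 : n < 2 ^ (j - 1) := lt_of_le_of_lt (by omega) (Nat.lt_two_pow_self (n := j - 1))
    have h2 : (n : ℝ) ≤ ((2 ^ (j - 1) : ℕ) : ℝ) := by exact_mod_cast h1.le
    exact hn.trans h2
  refine ⟨max j₁ j₂, le_trans (by omega) (le_max_left _ _), ?_⟩
  intro j hj X Y _ _ _ _ hX hY ν hν hν1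
  have hj1 : j₁ ≤ j := le_trans (le_max_left _ _) hj
  have hj2 : j₂ ≤ j := le_trans (le_max_right _ _) hj
  have hjpos : 2 ≤ j := hj₁2.trans hj1
  set M : ℕ := 2 ^ (j - 1) with hMdef
  have hMr := hj₂ j hj2
  have hM1 : (M₀ : ℝ) ≤ M := le_trans (le_max_left _ _) hMr
  have hM2 : (M₁ : ℝ) ≤ M := le_trans (le_max_right _ _) hMr
  have hM2' : M₁ ≤ M := by exact_mod_cast hM2
  have hMn : 1 ≤ M := Nat.one_le_two_pow
  have h4M : 2 ^ (j + 1) = 4 * M := by
    obtain ⟨i, rfl⟩ : ∃ i, j = i + 1 := ⟨j - 1, by omega⟩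
    simp only [hMdef, Nat.add_sub_cancel]
    ring
  have hX4 : Fintype.card X = 4 * M := by rw [hX, h4M]
  have hY4 : Fintype.card Y = 4 * M := by rw [hY, h4M]
  have hc : Fintype.card X = Fintype.card Y := hX4.trans hY4.symm
  haveI : Nonempty (X ≃ Y) := equiv_nonempty_of_card hc
  have hMr0 : (0 : ℝ) < M := by exact_mod_cast hMn
  set sM := sqrt (M : ℝ) with hsM
  have hsM0 : 0 < sM := sqrt_pos.2 hMr0
  have hsM2 : sM ^ 2 = M := sq_sqrt hMr0.le
  have hΦ0 : ∀ c c' : X ≃ Y, 0 ≤ avg (fun S : Half X => (omega c c' S) ^ 2) := fun c c' =>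
    div_nonneg (Finset.sum_nonneg fun S _ => sq_nonneg _) (Nat.cast_nonneg _)
  have hcore := kernel_abstract (G := X ≃ Y) Wk
    (fun c c' => avg (fun S : Half X => (omega c c' S) ^ 2)) Wk_symm
    (fun c => Wk_mean hX4 hc hMn c) C sM hC hsM0 hΦ0 (fun c c' => hle X Y M hM1 hX4 hY4 c c')
    (by
      intro c
      rw [hsM2]
      exact Φ_exp_moment hMn hX4 (hmom X Y M hM2' hX4 hY4) c)
    ν hν hν1
  have hνν : ∑ a, ∑ b, ν a * ν b = 1 := by
    simp_rw [← Finset.mul_sum, hν1, mul_one, hν1]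
  set Xc := ∑ c, ∑ c', ν c * ν c' * Wk c c' with hXc
  have hXV : Xc = 1 + ∑ a, ∑ b, ν a * ν b * (Wk a b - 1) := by
    simp only [mul_sub, mul_one, Finset.sum_sub_distrib, hνν]
    rw [hXc]
    ring
  have hX0 : 0 ≤ Xc := Finset.sum_nonneg fun a _ => Finset.sum_nonneg fun b _ =>
    mul_nonneg (mul_nonneg (hν a) (hν b)) (Wk_nonneg a b)
  have hE0 : 0 ≤ Dm ν := Dm_nonneg hν
  have hε0 : (0 : ℝ) ≤ 1 / ((j : ℝ) + 1) ^ 4 := by positivity
  rcases hX0.eq_or_lt with hX00 | hX00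
  · rw [← hX00, log_zero]
    exact mul_nonneg hε0 hE0
  -- y
  have hy := hj₁ j hj1
  have hyeq : sqrt (sqrt ((2 : ℝ) ^ (j - 1))) = sqrt sM := by
    rw [hsM, hMdef]
    push_cast
    rfl
  rw [hyeq] at hy
  have hy0 : 0 < sqrt sM := sqrt_pos.2 hsM0
  have hy2 : sqrt sM * sqrt sM = sM := mul_self_sqrt hsM0.le
  have hj1r : (1 : ℝ) ≤ (j : ℝ) + 1 := by
    have : (0 : ℝ) ≤ j := Nat.cast_nonneg _
    linarith
  have hB : Xc ≤ 2 * sqrt (2 * (M : ℝ)) := by
    calc Xc ≤ ∑ a, ∑ b, ν a * ν b * (2 * sqrt (2 * (M : ℝ))) :=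
          Finset.sum_le_sum fun a _ => Finset.sum_le_sum fun b _ =>
            mul_le_mul_of_nonneg_left (Wk_le_crude hX4 hMn a b) (mul_nonneg (hν a) (hν b))
      _ = (∑ a, ∑ b, ν a * ν b) * (2 * sqrt (2 * (M : ℝ))) := by
          simp_rw [Finset.sum_mul]
      _ = _ := by rw [hνν, one_mul]
  have hlogB : log (2 * sqrt (2 * (M : ℝ))) ≤ (j : ℝ) + 1 := by
    have h2M : 2 * (M : ℝ) = (2 : ℝ) ^ j := by
      rw [hMdef]
      obtain ⟨i, rfl⟩ : ∃ i, j = i + 1 := ⟨j - 1, by omega⟩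
      simp only [Nat.add_sub_cancel]
      push_cast
      ring
    have hs : 0 < sqrt (2 * (M : ℝ)) := sqrt_pos.2 (by positivity)
    rw [log_mul (by norm_num) hs.ne', log_sqrt (by positivity), h2M, log_pow]
    have hl : log 2 ≤ 1 := by
      have := Real.log_two_lt_d9
      linarith
    have hl0 : 0 ≤ log 2 := log_nonneg (by norm_num)
    have hj0 : (0 : ℝ) ≤ j := Nat.cast_nonneg _
    nlinarith
  exact zeta_numeric (Dm ν) Xc C sM (sqrt sM) _ ((j : ℝ) + 1) hE0 hX00 hC hsM0 hy0 hy2 hj1r hy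
    (by rw [hXV]; linarith) hB hlogB

/-- The main bipartite theorem. -/
theorem bip_final : ∃ j₀ : ℕ, 1 ≤ j₀ ∧ ∀ j : ℕ, j₀ < j → BipSDPI j (1 / ((j : ℝ) - j₀)) := by
  obtain ⟨j₀, h1, h2⟩ := zeta_bound
  exact ⟨j₀, h1, bip_main j₀ h1 h2⟩

end P162
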