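import Vale.Agent.Lib.P162.Bip
import Vale.Agent.Lib.P162.Binom

/-!
# P162: counting half sets.
-/

open Finset BigOperators Real

noncomputable section

namespace P162

variable {X Y : Type} [Fintype X] [Fintype Y] [DecidableEq X] [DecidableEq Y] {N M : ℕ}

lemma card_split_pred (G A : Finset X) (hA : A ⊆ G) (P Q : Finset X → Prop)
    [DecidablePred P] [DecidablePred Q] :
    (G.powerset.filter fun T => P (T ∩ A) ∧ Q (T \ A)).card
      = (A.powerset.filter P).card * ((G \ A).powerset.filter Q).card := by
  rw [← Finset.card_product]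
  symm
  refine Finset.card_bij (fun p _ => p.1 ∪ p.2) ?_ ?_ ?_
  · rintro ⟨a, b⟩ hp
    simp only [Finset.mem_product, Finset.mem_filter, Finset.mem_powerset] at hp ⊢
    obtain ⟨⟨ha, hPa⟩, ⟨hb, hQb⟩⟩ := hp
    have e1 : (a ∪ b) ∩ A = a := by
      ext x
      have := @hb x
      have := @ha x
      simp only [Finset.mem_inter, Finset.mem_union, Finset.mem_sdiff] at *
      tauto
    have e2 : (a ∪ b) \ A = b := by
      ext x
      have := @hb x
      have := @ha x
      simp only [Finset.mem_sdiff, Finset.mem_union] at *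
      tauto
    rw [e1, e2]
    refine ⟨Finset.union_subset (ha.trans hA) (hb.trans Finset.sdiff_subset), hPa, hQb⟩
  · rintro ⟨a, b⟩ hp ⟨a', b'⟩ hp' h
    simp only [Finset.mem_coe, Finset.mem_product, Finset.mem_filter, Finset.mem_powerset] at hp hp'
    obtain ⟨⟨ha, _⟩, ⟨hb, _⟩⟩ := hp
    obtain ⟨⟨ha', _⟩, ⟨hb', _⟩⟩ := hp'
    simp only at h
    have e1 : ∀ a b : Finset X, a ⊆ A → b ⊆ G \ A → (a ∪ b) ∩ A = a := by
      intro a b ha hb
      ext x
      have := @hb x
      have := @ha x
      simp only [Finset.mem_inter, Finset.mem_union, Finset.mem_sdiff] at *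
      tauto
    have e2 : ∀ a b : Finset X, a ⊆ A → b ⊆ G \ A → (a ∪ b) \ A = b := by
      intro a b ha hb
      ext x
      have := @hb x
      have := @ha x
      simp only [Finset.mem_sdiff, Finset.mem_union] at *
      tauto
    refine Prod.ext ?_ ?_
    · rw [← e1 a b ha hb, h, e1 a' b' ha' hb']
    · rw [← e2 a b ha hb, h, e2 a' b' ha' hb']
  · intro T hT
    simp only [Finset.mem_filter, Finset.mem_powerset] at hT
    obtain ⟨hG, hP, hQ⟩ := hT
    refine ⟨(T ∩ A, T \ A), ?_, ?_⟩
    · simp only [Finset.mem_product, Finset.mem_filter, Finset.mem_powerset]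
      exact ⟨⟨Finset.inter_subset_right, hP⟩, ⟨Finset.sdiff_subset_sdiff hG le_rfl, hQ⟩⟩
    · simp only
      ext y
      simp only [Finset.mem_union, Finset.mem_inter, Finset.mem_sdiff]
      tauto

lemma filter_powerset_card (A : Finset X) (k : ℕ) :
    (A.powerset.filter fun a => a.card = k).card = A.card.choose k := by
  rw [← Finset.powersetCard_eq_filter, Finset.card_powersetCard]

/-- Two-block count inside a ground set. -/
lemma count_in (G A : Finset X) (hA : A ⊆ G) (x y : ℕ) :
    (G.powerset.filter fun T => (T ∩ A).card = x ∧ (T \ A).card = y).card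
      = A.card.choose x * (G \ A).card.choose y := by
  rw [card_split_pred G A hA (fun a => a.card = x) (fun b => b.card = y), filter_powerset_card,
    filter_powerset_card]

lemma card_half_filter (p : Finset X → Prop) [DecidablePred p] :
    ((Finset.univ : Finset (Half X)).filter fun U => p U.1).card
      = ((Finset.univ : Finset X).powerset.filter fun T => 2 * T.card = Fintype.card X ∧ p T).card := by
  refine Finset.card_bij (fun U _ => U.1) ?_ ?_ ?_
  · intro U hU
    simp only [Finset.mem_filter, Finset.mem_univ, true_and] at hU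
    simp only [Finset.mem_filter, Finset.mem_powerset]
    exact ⟨Finset.subset_univ _, U.2, hU⟩
  · intro a _ b _ h
    exact Subtype.ext h
  · intro T hT
    simp only [Finset.mem_filter, Finset.mem_powerset] at hT
    exact ⟨⟨T, hT.2.1⟩, by simp [hT.2.2], rfl⟩

/-- Number of half sets of a given overlap. -/
lemma card_half_overlap (hX : Fintype.card X = 2 * N) (S : Half X) (t : ℕ) :
    ((Finset.univ : Finset (Half X)).filter fun U => (S.1 ∩ U.1).card = t).card
      = N.choose t * N.choose (N - t) := by
  have hS : S.1.card = N := by have := S.2; omega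
  have hc : ((Finset.univ : Finset X) \ S.1).card = N := by
    rw [← Finset.compl_eq_univ_sdiff, Finset.card_compl, hS, hX]; omega
  rw [card_half_filter (fun T => (S.1 ∩ T).card = t)]
  by_cases ht : t ≤ N
  · have : ((Finset.univ : Finset X).powerset.filter fun T => 2 * T.card = Fintype.card X ∧ (S.1 ∩ T).card = t)
        = (Finset.univ : Finset X).powerset.filter fun T => (T ∩ S.1).card = t ∧ (T \ S.1).card = N - t := by
      refine Finset.filter_congr fun T _ => ?_
      have hsplit := Finset.card_inter_add_card_sdiff T S.1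
      rw [Finset.inter_comm S.1 T]
      constructor
      · rintro ⟨h1, h2⟩
        exact ⟨h2, by omega⟩
      · rintro ⟨h1, h2⟩
        exact ⟨by omega, h1⟩
    rw [this, count_in _ _ (Finset.subset_univ _), hS, hc]
  · rw [Nat.choose_eq_zero_of_lt (by omega), zero_mul, Finset.card_eq_zero]
    refine Finset.filter_eq_empty_iff.2 fun T _ => ?_
    rintro ⟨_, h2⟩
    have := Finset.card_le_card (Finset.inter_subset_left : S.1 ∩ T ⊆ S.1)
    omega

/-- Number of half sets orthogonal to two half sets with overlap `t`. -/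
lemma card_orth_two (hX : Fintype.card X = 4 * M) (S U : Half X) :
    ((Finset.univ : Finset (Half X)).filter fun T => Orth S T ∧ Orth U T).card
      = KK (2 * M) (S.1 ∩ U.1).card := by
  have hS : S.1.card = 2 * M := by have := S.2; omega
  have hU : U.1.card = 2 * M := by have := U.2; omega
  set t := (S.1 ∩ U.1).card with ht
  have htle : t ≤ 2 * M := by
    have := Finset.card_le_card (Finset.inter_subset_left : S.1 ∩ U.1 ⊆ S.1)
    omega
  -- blocks
  have hSd : (S.1 \ U.1).card = 2 * M - t := by
    have := Finset.card_inter_add_card_sdiff S.1 U.1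
    omega
  have hGc : ((Finset.univ : Finset X) \ S.1).card = 2 * M := by
    rw [← Finset.compl_eq_univ_sdiff, Finset.card_compl, hS, hX]; omega
  have hC : (((Finset.univ : Finset X) \ S.1) ∩ U.1).card = 2 * M - t := by
    have h1 : ((Finset.univ : Finset X) \ S.1) ∩ U.1 = U.1 \ S.1 := by
      ext x; simp [and_comm]
    rw [h1]
    have := Finset.card_inter_add_card_sdiff U.1 S.1
    rw [Finset.inter_comm] at this
    omega
  have hD : (((Finset.univ : Finset X) \ S.1) \ (((Finset.univ : Finset X) \ S.1) ∩ U.1)).card = t := by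
    have h2 := Finset.card_sdiff_add_card_eq_card
      (Finset.inter_subset_left : ((Finset.univ : Finset X) \ S.1) ∩ U.1 ⊆ (Finset.univ : Finset X) \ S.1)
    omega
  have hSA : (S.1 \ (S.1 ∩ U.1)).card = 2 * M - t := by
    rw [Finset.sdiff_inter_self_left]; exact hSd
  have e0 : ((Finset.univ : Finset (Half X)).filter fun T => Orth S T ∧ Orth U T)
      = (Finset.univ : Finset (Half X)).filter fun T =>
        (4 * (S.1 ∩ T.1).card = Fintype.card X ∧ 4 * (U.1 ∩ T.1).card = Fintype.card X) :=
    Finset.filter_congr fun T _ => Iff.rfl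
  rw [e0, card_half_filter (fun T => 4 * (S.1 ∩ T).card = Fintype.card X ∧ 4 * (U.1 ∩ T).card = Fintype.card X)]
  -- sum over x = |T ∩ S ∩ U|
  have hfib : ∀ x ∈ Finset.range (M + 1),
      (((Finset.univ : Finset X).powerset.filter fun T =>
        2 * T.card = Fintype.card X ∧ 4 * (S.1 ∩ T).card = Fintype.card X ∧
          4 * (U.1 ∩ T).card = Fintype.card X).filter fun T => (T ∩ (S.1 ∩ U.1)).card = x).card
      = (t.choose x * (2 * M - t).choose (M - x)) ^ 2 := by
    intro x hx
    have hxM : x ≤ M := by simpa [Nat.lt_succ_iff] using hx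
    -- outer split along S
    have : (((Finset.univ : Finset X).powerset.filter fun T =>
        2 * T.card = Fintype.card X ∧ 4 * (S.1 ∩ T).card = Fintype.card X ∧
          4 * (U.1 ∩ T).card = Fintype.card X).filter fun T => (T ∩ (S.1 ∩ U.1)).card = x)
        = (Finset.univ : Finset X).powerset.filter fun T =>
          ((T ∩ S.1) ∩ (S.1 ∩ U.1)).card = x ∧ ((T ∩ S.1) \ (S.1 ∩ U.1)).card = M - x ∧
          ((T \ S.1) ∩ (((Finset.univ : Finset X) \ S.1) ∩ U.1)).card = M - x ∧
          ((T \ S.1) \ (((Finset.univ : Finset X) \ S.1) ∩ U.1)).card = x := by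
      rw [Finset.filter_filter]
      refine Finset.filter_congr fun T _ => ?_
      have a1 : (T ∩ S.1) ∩ (S.1 ∩ U.1) = T ∩ (S.1 ∩ U.1) := by
        ext y; simp only [Finset.mem_inter]; tauto
      have a2 : ((T \ S.1) ∩ (((Finset.univ : Finset X) \ S.1) ∩ U.1)) = (T ∩ U.1) \ S.1 := by
        ext y; simp only [Finset.mem_inter, Finset.mem_sdiff, Finset.mem_univ, true_and]; tauto
      have s1 := Finset.card_inter_add_card_sdiff (T ∩ S.1) (S.1 ∩ U.1)
      have s2 := Finset.card_inter_add_card_sdiff (T \ S.1) (((Finset.univ : Finset X) \ S.1) ∩ U.1)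
      have s3 := Finset.card_inter_add_card_sdiff T S.1
      have s4 := Finset.card_inter_add_card_sdiff (T ∩ U.1) S.1
      have a3 : (T ∩ U.1) ∩ S.1 = T ∩ (S.1 ∩ U.1) := by
        ext y; simp only [Finset.mem_inter]; tauto
      rw [a1] at s1 ⊢
      rw [a2] at s2 ⊢
      rw [a3] at s4
      rw [Finset.inter_comm S.1 T, Finset.inter_comm U.1 T]
      constructor
      · rintro ⟨⟨h1, h2, h3⟩, h4⟩
        refine ⟨h4, ?_, ?_, ?_⟩ <;> omega
      · rintro ⟨h1, h2, h3, h4⟩
        refine ⟨⟨?_, ?_, ?_⟩, h1⟩ <;> omega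
    rw [this]
    -- apply the product rule twice
    have hsplit := card_split_pred (Finset.univ : Finset X) S.1 (Finset.subset_univ _)
      (fun a => (a ∩ (S.1 ∩ U.1)).card = x ∧ (a \ (S.1 ∩ U.1)).card = M - x)
      (fun b => (b ∩ (((Finset.univ : Finset X) \ S.1) ∩ U.1)).card = M - x ∧
        (b \ (((Finset.univ : Finset X) \ S.1) ∩ U.1)).card = x)
    have hflat : ((Finset.univ : Finset X).powerset.filter fun T =>
          ((T ∩ S.1) ∩ (S.1 ∩ U.1)).card = x ∧ ((T ∩ S.1) \ (S.1 ∩ U.1)).card = M - x ∧
          ((T \ S.1) ∩ (((Finset.univ : Finset X) \ S.1) ∩ U.1)).card = M - x ∧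
          ((T \ S.1) \ (((Finset.univ : Finset X) \ S.1) ∩ U.1)).card = x)
        = ((Finset.univ : Finset X).powerset.filter fun T =>
          (((T ∩ S.1) ∩ (S.1 ∩ U.1)).card = x ∧ ((T ∩ S.1) \ (S.1 ∩ U.1)).card = M - x) ∧
          (((T \ S.1) ∩ (((Finset.univ : Finset X) \ S.1) ∩ U.1)).card = M - x ∧
          ((T \ S.1) \ (((Finset.univ : Finset X) \ S.1) ∩ U.1)).card = x)) := by
      refine Finset.filter_congr fun T _ => ?_
      tauto
    rw [hflat, hsplit, count_in S.1 (S.1 ∩ U.1) Finset.inter_subset_left,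
      count_in _ _ Finset.inter_subset_left, hSA, hC, hD]
    ring
  rw [Finset.card_eq_sum_card_fiberwise (f := fun T => (T ∩ (S.1 ∩ U.1)).card) (t := Finset.range (M + 1))]
  · rw [Finset.sum_congr rfl hfib]
    unfold KK
    have hM2 : 2 * M / 2 = M := by omega
    rw [hM2]
  · intro T hT
    simp only [Finset.coe_filter, Finset.mem_powerset, Set.mem_setOf_eq] at hT
    simp only [Finset.coe_range, Set.mem_Iio, Nat.lt_succ_iff]
    have h1 := Finset.card_le_card (Finset.inter_subset_inter_left (Finset.inter_subset_left : S.1 ∩ U.1 ⊆ S.1) : T ∩ (S.1 ∩ U.1) ⊆ T ∩ S.1)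
    rw [Finset.inter_comm T S.1] at h1
    omega

/-- A uniform bijection maps a fixed half set to a uniform half set. -/
lemma sum_row_eq (hc : Fintype.card X = Fintype.card Y)
    (S : Half X) (F : Half Y → ℝ) :
    ∑ c : X ≃ Y, F (row c S) = (((Fintype.card X / 2).factorial : ℝ) ^ 2) * ∑ Z, F Z := by
  rw [← Finset.sum_fiberwise (s := Finset.univ) (g := fun c : X ≃ Y => row c S), Finset.mul_sum]
  refine Finset.sum_congr rfl fun Z _ => ?_
  have h1 : (Finset.univ.filter fun c : X ≃ Y => row c S = Z)
      = (Finset.univ : Finset (SplitT S.1 Z.1)).map ⟨glue S.1 Z.1, glue_injective _ _⟩ := by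
    ext c
    simp only [Finset.mem_filter, Finset.mem_univ, true_and, Finset.mem_map,
      Function.Embedding.coeFn_mk]
    rw [row_eq_iff, ← mem_range_glue]
    rfl
  rw [Finset.sum_congr rfl (g := fun _ => F Z)]
  · rw [Finset.sum_const, h1, Finset.card_map, Finset.card_univ, card_splitT S Z hc]
    simp
  · intro c hc'
    rw [(Finset.mem_filter.1 hc').2]

/-- Bijections are of the right number. -/
lemma factorial_eq_half (hX : Fintype.card X = 4 * M) :
    ((Fintype.card X).factorial : ℝ)
      = (Fintype.card X).choose (Fintype.card X / 2) * ((Fintype.card X / 2).factorial : ℝ) ^ 2 := by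
  have := Nat.choose_mul_factorial_mul_factorial (Nat.div_le_self (Fintype.card X) 2)
  have h2 : Fintype.card X - Fintype.card X / 2 = Fintype.card X / 2 := by omega
  rw [h2] at this
  rw [← this]
  push_cast
  ring

end P162
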