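import Vale.Agent.Lib.P162.TopD

/-!
# P162: the recursion for one pass (part I of note P162plan).
-/

open Finset BigOperators Real

set_option linter.unusedSectionVars false

noncomputable section

namespace P162

/-! ### Preliminaries on averages and marginals -/

lemma push_fst_apply {U V : Type} [Fintype U] [Fintype V] [DecidableEq U] (ρ : U × V → ℝ) (u : U) :
    push Prod.fst ρ u = ∑ v, ρ (u, v) := by
  unfold push
  rw [Finset.sum_filter, Fintype.sum_prod_type, Finset.sum_eq_single u]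
  · simp
  · intro u' _ hne
    rw [Finset.sum_eq_zero]
    intro v _
    simp [hne]
  · simp

lemma push_snd_apply {U V : Type} [Fintype U] [Fintype V] [DecidableEq V] (ρ : U × V → ℝ) (v : V) :
    push Prod.snd ρ v = ∑ u, ρ (u, v) := by
  unfold push
  rw [Finset.sum_filter, Fintype.sum_prod_type_right, Finset.sum_eq_single v]
  · simp
  · intro v' _ hne
    rw [Finset.sum_eq_zero]
    intro u _
    simp [hne]
  · simp

instance coins_nonempty : ∀ k, Nonempty (Coins k)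
  | 0 => ⟨()⟩
  | k + 1 => by
      haveI := coins_nonempty k
      exact inferInstanceAs (Nonempty ((Pos k → Bool) × Coins k × Coins k))

lemma sum_avg {ι α : Type*} [Fintype ι] [Fintype α] (f : ι → α → ℝ) :
    ∑ a, avg (fun i => f i a) = avg (fun i => ∑ a, f i a) := by
  unfold avg
  rw [← Finset.sum_div, Finset.sum_comm]

lemma avg_prod {Ω₁ Ω₂ : Type*} [Fintype Ω₁] [Fintype Ω₂] [Nonempty Ω₁] [Nonempty Ω₂] (f : Ω₁ × Ω₂ → ℝ) :
    avg f = avg (fun y => avg (fun x => f (x, y))) := by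
  unfold avg
  rw [Fintype.sum_prod_type_right, Fintype.card_prod, ← Finset.sum_div, div_div]
  push_cast
  rw [mul_comm]

variable {k : ℕ}

lemma sum_passOp {D : Type} [Fintype D] [DecidableEq D] (μ : (D ≃ Pos k) → ℝ) :
    ∑ g, passOp k μ g = ∑ g, μ g := by
  unfold passOp
  rw [sum_avg]
  have h : ∀ ω : Coins k, ∑ g : D ≃ Pos k, μ (g.trans (act k ω).symm) = ∑ g, μ g := fun ω =>
    Fintype.sum_equiv (Equiv.equivCongr (Equiv.refl D) (act k ω).symm) _ _ fun g => rfl
  simp_rw [h]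
  exact avg_const _

lemma passOp_nonneg {D : Type} [Fintype D] [DecidableEq D] {μ : (D ≃ Pos k) → ℝ} (hμ : ∀ g, 0 ≤ μ g)
    (g : D ≃ Pos k) : 0 ≤ passOp k μ g :=
  div_nonneg (Finset.sum_nonneg fun _ _ => hμ _) (Nat.cast_nonneg _)

lemma equiv_nonempty' {X Y : Type} [Fintype X] [Fintype Y] [DecidableEq X] [DecidableEq Y]
    (h : Fintype.card X = Fintype.card Y) : Nonempty (X ≃ Y) :=
  ⟨Fintype.equivOfCardEq h⟩

/-! ### One application of the pass on a slice -/

section Slice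
variable {U B' : Type} [Fintype U] [DecidableEq U] [Nonempty U] [Fintype B'] [DecidableEq B']

lemma Dm_passR {s : ℝ} (hC : Contr k s) (hB : Fintype.card B' = 2 ^ k)
    (ρ : U × (B' ≃ Pos k) → ℝ) (hρ : ∀ e, 0 ≤ ρ e) :
    Dm (fun e : U × (B' ≃ Pos k) => passOp k (fun c => ρ (e.1, c)) e.2)
      ≤ (1 - s) * Dm (push Prod.fst ρ) + s * Dm ρ := by
  haveI : Nonempty (B' ≃ Pos k) := equiv_nonempty' (by rw [hB, card_Pos])
  have hU : ((Fintype.card U : ℕ) : ℝ) ≠ 0 := by
    have : 0 < Fintype.card U := Fintype.card_pos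
    positivity
  have hV : ((Fintype.card (B' ≃ Pos k) : ℕ) : ℝ) ≠ 0 := by
    have : 0 < Fintype.card (B' ≃ Pos k) := Fintype.card_pos
    positivity
  set ρ' : U × (B' ≃ Pos k) → ℝ := fun e => passOp k (fun c => ρ (e.1, c)) e.2 with hρ'
  have h1 := Dm_prod_chain hU hV ρ'
  have h2 := Dm_prod_chain hU hV ρ
  have h3 : push Prod.fst ρ' = push Prod.fst ρ := by
    funext u
    rw [push_fst_apply, push_fst_apply]
    exact sum_passOp (fun c => ρ (u, c))
  rw [h3] at h1
  have h4 : ∑ u, Dm (fun v => ρ' (u, v)) ≤ s * ∑ u, Dm (fun v => ρ (u, v)) := by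
    rw [Finset.mul_sum]
    exact Finset.sum_le_sum fun u _ => hC B' hB (fun c => ρ (u, c)) (fun c => hρ _)
  rw [h1]
  have h5 : ∑ u, Dm (fun v => ρ (u, v)) = Dm ρ - Dm (push Prod.fst ρ) := by linarith
  rw [h5] at h4
  linarith

lemma Dm_passL {s : ℝ} (hC : Contr k s) (hB : Fintype.card B' = 2 ^ k)
    (ρ : (B' ≃ Pos k) × U → ℝ) (hρ : ∀ e, 0 ≤ ρ e) :
    Dm (fun e : (B' ≃ Pos k) × U => passOp k (fun c => ρ (c, e.2)) e.1)
      ≤ (1 - s) * Dm (push Prod.snd ρ) + s * Dm ρ := by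
  haveI : Nonempty (B' ≃ Pos k) := equiv_nonempty' (by rw [hB, card_Pos])
  set ρ' : (B' ≃ Pos k) × U → ℝ := fun e => passOp k (fun c => ρ (c, e.2)) e.1 with hρ'
  have h1 := Dm_prod_chain' ρ'
  have h2 := Dm_prod_chain' ρ
  have h3 : push Prod.snd ρ' = push Prod.snd ρ := by
    funext u
    rw [push_snd_apply, push_snd_apply]
    exact sum_passOp (fun c => ρ (c, u))
  rw [h3] at h1
  have h4 : ∑ u, Dm (fun v => ρ' (v, u)) ≤ s * ∑ u, Dm (fun v => ρ (v, u)) := by
    rw [Finset.mul_sum]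
    exact Finset.sum_le_sum fun u _ => hC B' hB (fun c => ρ (c, u)) (fun c => hρ _)
  rw [h1]
  have h5 : ∑ u, Dm (fun v => ρ (v, u)) = Dm ρ - Dm (push Prod.snd ρ) := by linarith
  rw [h5] at h4
  linarith

end Slice

/-- `T ⊗ T` on a pair of slices. -/
def tensorOp {A' B' : Type} [Fintype A'] [Fintype B'] [DecidableEq A'] [DecidableEq B'] (k : ℕ)
    (ρ : (A' ≃ Pos k) × (B' ≃ Pos k) → ℝ) : (A' ≃ Pos k) × (B' ≃ Pos k) → ℝ :=
  fun e => avg (fun ω : Coins k × Coins k =>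
    ρ (e.1.trans (act k ω.1).symm, e.2.trans (act k ω.2).symm))

section Tensor
variable {A' B' : Type} [Fintype A'] [Fintype B'] [DecidableEq A'] [DecidableEq B']

lemma tensorOp_eq (ρ : (A' ≃ Pos k) × (B' ≃ Pos k) → ℝ) :
    tensorOp k ρ = fun e => passOp k (fun c =>
      (fun e' : (A' ≃ Pos k) × (B' ≃ Pos k) => passOp k (fun c' => ρ (c', e'.2)) e'.1) (e.1, c)) e.2 := by
  funext e
  unfold tensorOp
  rw [avg_prod]
  rfl

/-- (R1). -/
theorem Dm_tensorOp_le {s : ℝ} (hs0 : 0 ≤ s) (hs1 : s ≤ 1) (hC : Contr k s)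
    (hA : Fintype.card A' = 2 ^ k) (hB : Fintype.card B' = 2 ^ k)
    (ρ : (A' ≃ Pos k) × (B' ≃ Pos k) → ℝ) (hρ : ∀ e, 0 ≤ ρ e) :
    Dm (tensorOp k ρ) ≤ (1 - s) * s * (Dm (push Prod.fst ρ) + Dm (push Prod.snd ρ)) + s ^ 2 * Dm ρ := by
  haveI : Nonempty (A' ≃ Pos k) := equiv_nonempty' (by rw [hA, card_Pos])
  haveI : Nonempty (B' ≃ Pos k) := equiv_nonempty' (by rw [hB, card_Pos])
  set ρ₁ : (A' ≃ Pos k) × (B' ≃ Pos k) → ℝ := fun e' => passOp k (fun c' => ρ (c', e'.2)) e'.1 with hρ₁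
  have h1 : ∀ e, 0 ≤ ρ₁ e := fun e => passOp_nonneg (fun c => hρ _) _
  have h2 := Dm_passR hC hB ρ₁ h1
  have h3 := Dm_passL hC hA ρ hρ
  rw [tensorOp_eq]
  refine h2.trans ?_
  have h4 : push Prod.fst ρ₁ = passOp k (push Prod.fst ρ) := by
    funext a
    rw [push_fst_apply]
    simp only [hρ₁]
    unfold passOp
    rw [sum_avg]
    congr 1
    funext ω
    rw [push_fst_apply]
  have h5 : Dm (push Prod.fst ρ₁) ≤ s * Dm (push Prod.fst ρ) := by
    rw [h4]
    exact hC A' hA _ (push_nonneg _ hρ)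
  have h6 : (1 - s) * Dm (push Prod.fst ρ₁) ≤ (1 - s) * (s * Dm (push Prod.fst ρ)) :=
    mul_le_mul_of_nonneg_left h5 (by linarith)
  have h7 : s * Dm ρ₁ ≤ s * ((1 - s) * Dm (push Prod.snd ρ) + s * Dm ρ) :=
    mul_le_mul_of_nonneg_left h3 hs0
  nlinarith

lemma sum_tensorOp (ρ : (A' ≃ Pos k) × (B' ≃ Pos k) → ℝ) : ∑ e, tensorOp k ρ e = ∑ e, ρ e := by
  unfold tensorOp
  rw [sum_avg]
  have h : ∀ ω : Coins k × Coins k, ∑ e : (A' ≃ Pos k) × (B' ≃ Pos k),
      ρ (e.1.trans (act k ω.1).symm, e.2.trans (act k ω.2).symm) = ∑ e, ρ e := fun ω =>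
    Fintype.sum_equiv (Equiv.prodCongr (Equiv.equivCongr (Equiv.refl A') (act k ω.1).symm)
      (Equiv.equivCongr (Equiv.refl B') (act k ω.2).symm)) _ _ fun e => rfl
  simp_rw [h]
  exact avg_const _

end Tensor

/-! ### The flip operator -/

variable {C : Type} [Fintype C] [DecidableEq C]

lemma flipOp_nonneg (μ : (C ≃ Pos (k + 1)) → ℝ) (hμ : ∀ g, 0 ≤ μ g) (g : C ≃ Pos (k + 1)) :
    0 ≤ flipOp μ g :=
  div_nonneg (Finset.sum_nonneg fun _ _ => hμ _) (Nat.cast_nonneg _)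

/-- Composition of flips. -/
def xorEquiv (b : Pos k → Bool) : Equiv.Perm (Pos k → Bool) :=
  Function.Involutive.toPerm (fun b' u => xor (b u) (b' u)) (by
    intro b'
    funext u
    simp)

lemma flipOp_inv (μ : (C ≃ Pos (k + 1)) → ℝ) : FlipInv (flipOp μ) := by
  intro b g
  unfold flipOp avg
  congr 1
  refine Fintype.sum_equiv (xorEquiv b) _ _ fun b' => ?_
  congr 1
  ext a
  show ((flipE b') ((flipE b) (g a))) = (flipE (xorEquiv b b')) (g a)
  simp only [flipE_apply]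
  show (xor (xor (g a).1 (b (g a).2)) (b' (g a).2), (g a).2)
    = (xor (g a).1 (xor (b (g a).2) (b' (g a).2)), (g a).2)
  rw [Bool.xor_assoc]

lemma Dm_flipOp_le (μ : (C ≃ Pos (k + 1)) → ℝ) (hμ : ∀ g, 0 ≤ μ g) : Dm (flipOp μ) ≤ Dm μ := by
  set n : ℝ := (Fintype.card (Pos k → Bool) : ℝ) with hn
  have hn0 : 0 < n := card_coin_pos
  have h1 : flipOp μ = fun g => n⁻¹ * ∑ b : Pos k → Bool, μ (g.trans (flipE b).symm) := by
    funext g
    unfold flipOp avg
    rw [div_eq_inv_mul]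
  rw [h1, Dm_smul]
  have h2 : Dm (fun g : C ≃ Pos (k + 1) => ∑ b : Pos k → Bool, μ (g.trans (flipE b).symm))
      ≤ ∑ b : Pos k → Bool, Dm (fun g : C ≃ Pos (k + 1) => μ (g.trans (flipE b).symm)) :=
    DN_sum_le _ _ (fun b g => hμ _) _
  have h3 : ∀ b : Pos k → Bool, Dm (fun g : C ≃ Pos (k + 1) => μ (g.trans (flipE b).symm)) = Dm μ :=
    fun b => Dm_comp_equiv (Equiv.equivCongr (Equiv.refl C) (flipE b).symm) μ
  simp_rw [h3] at h2
  rw [Finset.sum_const, Finset.card_univ, nsmul_eq_mul] at h2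
  calc n⁻¹ * Dm (fun g : C ≃ Pos (k + 1) => ∑ b : Pos k → Bool, μ (g.trans (flipE b).symm))
      ≤ n⁻¹ * (n * Dm μ) := mul_le_mul_of_nonneg_left h2 (by positivity)
    _ = Dm μ := by field_simp

/-! ### The decomposition of a pass -/

lemma passOp_succ (μ : (C ≃ Pos (k + 1)) → ℝ) (g : C ≃ Pos (k + 1)) :
    passOp (k + 1) μ g = avg (fun ω : Coins k × Coins k =>
      flipOp μ (g.trans (sliceE (act k ω.1) (act k ω.2)).symm)) := by
  unfold passOp flipOp
  refine (avg_prod (Ω₁ := Pos k → Bool) (Ω₂ := Coins k × Coins k) _).trans ?_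
  rfl

lemma assemble_trans_slice (A : Half C) (e : Dec k A) (ψ₀ ψ₁ : Equiv.Perm (Pos k)) :
    (assemble A e).trans (sliceE ψ₀ ψ₁).symm = assemble A (e.1.trans ψ₀.symm, e.2.trans ψ₁.symm) := by
  ext a
  by_cases h : a ∈ A.1
  · have h1 := assemble_apply_mem A e ⟨a, h⟩
    have h2 := assemble_apply_mem A (e.1.trans ψ₀.symm, e.2.trans ψ₁.symm) ⟨a, h⟩
    simp only at h1 h2
    show (sliceE ψ₀ ψ₁).symm (assemble A e a) = _
    rw [h1, h2]
    rfl
  · have h1 := assemble_apply_not_mem A e ⟨a, h⟩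
    have h2 := assemble_apply_not_mem A (e.1.trans ψ₀.symm, e.2.trans ψ₁.symm) ⟨a, h⟩
    simp only at h1 h2
    show (sliceE ψ₀ ψ₁).symm (assemble A e a) = _
    rw [h1, h2]
    rfl

/-- `passOp (k+1)` is the flip operator and then a pass on the two slices. -/
lemma rhoA_passOp (μ : (C ≃ Pos (k + 1)) → ℝ) (A : Half C) :
    rhoA (passOp (k + 1) μ) A = tensorOp k (rhoA (flipOp μ) A) := by
  funext e
  unfold rhoA tensorOp
  rw [passOp_succ]
  congr 1
  funext ω
  rw [assemble_trans_slice]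

lemma push_rowA_passOp (μ : (C ≃ Pos (k + 1)) → ℝ) :
    push rowA (passOp (k + 1) μ) = push rowA (flipOp μ) := by
  funext A
  rw [← mass_rhoA, ← mass_rhoA, rhoA_passOp]
  exact sum_tensorOp _

/-! ### The recursion -/

/-- One step of the recursion. -/
theorem contr_step {s θ : ℝ} (hs0 : 0 ≤ s) (hs1 : s ≤ 1) (hθ0 : 0 ≤ θ) (hθs : θ / (2 + θ) ≤ s)
    (hC : Contr k s) (hT : TopConst k θ) : Contr (k + 1) (1 - (1 - s) / (1 + θ / 2)) := by
  intro C _ _ hCard μ hμ
  set μ' := flipOp μ with hμ'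
  have hμ'0 : ∀ g, 0 ≤ μ' g := flipOp_nonneg μ hμ
  have hinv : FlipInv μ' := flipOp_inv μ
  have hE := Dm_flipOp_le μ hμ
  -- the row is the same
  set x := Dm (push rowA μ') with hx
  set W := ∑ A : Half C, Dm (rhoA μ' A) with hW
  set y := ∑ A : Half C, (Dm (push Prod.fst (rhoA μ' A)) + Dm (push Prod.snd (rhoA μ' A))) with hy
  have hchain := Dm_rowA hCard μ'
  have hV : Dm (passOp (k + 1) μ) ≤ x + ((1 - s) * s * y + s ^ 2 * W) := by
    rw [Dm_rowA hCard (passOp (k + 1) μ), push_rowA_passOp, hy, hW, Finset.mul_sum, Finset.mul_sum,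
      ← Finset.sum_add_distrib]
    apply add_le_add_right
    refine Finset.sum_le_sum fun A _ => ?_
    rw [rhoA_passOp]
    exact Dm_tensorOp_le hs0 hs1 hC (card_half_part_pow hCard A) (card_half_compl_pow hCard A) _
      (rhoA_nonneg hμ'0 A)
  have hTop : x ≤ θ * (W - y / 2) := by
    have h := hT C hCard μ' hμ'0 hinv
    have e : ∑ A : Half C, uA μ' A = W - y / 2 := by
      unfold uA
      rw [Finset.sum_sub_distrib, hW, hy, Finset.sum_div]
    rw [e] at h
    exact h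
  have hyW : y ≤ W := by
    refine Finset.sum_le_sum fun A _ => ?_
    haveI : Nonempty (↥A.1 ≃ Pos k) := equiv_nonempty' (by rw [card_half_part_pow hCard A, card_Pos])
    haveI : Nonempty ({a // a ∉ A.1} ≃ Pos k) :=
      equiv_nonempty' (by rw [card_half_compl_pow hCard A, card_Pos])
    exact Dm_marginals_le _ (rhoA_nonneg hμ'0 A)
  have hc0 : 0 < 1 + θ / 2 := by linarith
  set c := 1 + θ / 2 with hc
  have hs' : 0 ≤ 1 - (1 - s) / c := by
    rw [sub_nonneg, div_le_one hc0]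
    linarith
  have hE0 : x + W = Dm μ' := hchain.symm
  have hfin : x + ((1 - s) * s * y + s ^ 2 * W) ≤ (1 - (1 - s) / c) * (x + W) := by
    have hθs' : θ / 2 * (1 - s) ≤ s := by
      rw [div_le_iff₀ (by linarith)] at hθs
      nlinarith
    have h1 : 0 ≤ (W - y) * (s - θ / 2 * (1 - s)) :=
      mul_nonneg (by linarith) (by linarith)
    have h2 : x + W ≤ c * ((1 + s) * W - s * y) := by
      have e : c * ((1 + s) * W - s * y) - W - θ * (W - y / 2)
          = (W - y) * (s - θ / 2 * (1 - s)) := by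
        simp only [hc]
        ring
      linarith
    have h3 : (1 - s) * (x + W) ≤ (1 - s) * (c * ((1 + s) * W - s * y)) :=
      mul_le_mul_of_nonneg_left h2 (by linarith)
    have e2 : (1 - (1 - s) / c) * (x + W) = (x + W) - ((1 - s) * (x + W)) / c := by
      ring
    rw [e2]
    have h4 : ((1 - s) * (x + W)) / c ≤ (1 - s) * ((1 + s) * W - s * y) := by
      rw [div_le_iff₀ hc0]
      calc (1 - s) * (x + W) ≤ (1 - s) * (c * ((1 + s) * W - s * y)) := h3
        _ = _ := by ring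
    nlinarith
  calc Dm (passOp (k + 1) μ) ≤ x + ((1 - s) * s * y + s ^ 2 * W) := hV
    _ ≤ (1 - (1 - s) / c) * (x + W) := hfin
    _ = (1 - (1 - s) / c) * Dm μ' := by rw [hE0]
    _ ≤ (1 - (1 - s) / c) * Dm μ := mul_le_mul_of_nonneg_left hE hs'

lemma Dm_eq_zero_of_subsingleton {α : Type*} [Fintype α] [Subsingleton α] [Nonempty α] (p : α → ℝ) :
    Dm p = 0 := by
  obtain ⟨a⟩ := ‹Nonempty α›
  have h1 : (Finset.univ : Finset α) = {a} := by
    ext x
    simp [Subsingleton.elim x a]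
  have h2 : Fintype.card α = 1 := by
    rw [← Finset.card_univ, h1, Finset.card_singleton]
  unfold Dm DN hh mass
  rw [h1, h2]
  simp

instance : Subsingleton (Pos 0) := inferInstanceAs (Subsingleton Unit)

/-- Base: `Contr 0 0`. -/
theorem contr_zero : Contr 0 0 := by
  intro C _ _ hC μ hμ
  haveI : Nonempty (C ≃ Pos 0) := equiv_nonempty' (by rw [hC, card_Pos])
  haveI : Subsingleton (C ≃ Pos 0) := ⟨fun g g' => Equiv.ext fun a => Subsingleton.elim _ _⟩
  rw [Dm_eq_zero_of_subsingleton, zero_mul]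

lemma contr_mono {s s' : ℝ} (h : Contr k s) (hs : s ≤ s') : Contr k s' := by
  intro C _ _ hC μ hμ
  exact (h C hC μ hμ).trans (mul_le_mul_of_nonneg_right hs (Dm_nonneg hμ))

/-- Every level contracts. -/
theorem contr_all (k : ℕ) : ∃ s : ℝ, 0 ≤ s ∧ s < 1 ∧ Contr k s := by
  induction k with
  | zero => exact ⟨0, le_refl _, by norm_num, contr_zero⟩
  | succ k ih =>
    obtain ⟨s, hs0, hs1, hC⟩ := ih
    obtain ⟨K, hK, hT⟩ := topConst_crude k
    set s₁ := max s (K / (2 + K)) with hs₁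
    have h1 : K / (2 + K) < 1 := by
      rw [div_lt_one (by linarith)]
      linarith
    have hs₁1 : s₁ < 1 := max_lt hs1 h1
    have hs₁0 : 0 ≤ s₁ := hs0.trans (le_max_left _ _)
    have hc := contr_step hs₁0 hs₁1.le hK (le_max_right _ _) (contr_mono hC (le_max_left _ _)) hT
    have hc0 : 0 < 1 + K / 2 := by positivity
    refine ⟨_, ?_, ?_, hc⟩
    · rw [sub_nonneg, div_le_one hc0]
      have : 0 ≤ K / 2 := by positivity
      linarith
    · have : 0 < (1 - s₁) / (1 + K / 2) := div_pos (by linarith) hc0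
      linarith

/-- The constant for small levels. -/
lemma contr_small (k₀ : ℕ) : ∃ c : ℝ, 0 < c ∧ c ≤ 2 / 3 ∧ ∀ k ≤ k₀, Contr k (1 - c) := by
  induction k₀ with
  | zero =>
    refine ⟨2 / 3, by norm_num, le_refl _, ?_⟩
    intro k hk
    obtain rfl : k = 0 := by omega
    exact contr_mono contr_zero (by norm_num)
  | succ k₀ ih =>
    obtain ⟨c, hc0, hc1, hc⟩ := ih
    obtain ⟨s, _, hs1, hC⟩ := contr_all (k₀ + 1)
    refine ⟨min c (1 - s), lt_min hc0 (by linarith), (min_le_left _ _).trans hc1, ?_⟩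
    intro k hk
    rcases Nat.le_succ_iff.1 hk with h | h
    · exact contr_mono (hc k h) (by linarith [min_le_left c (1 - s)])
    · subst h
      exact contr_mono hC (by linarith [min_le_right c (1 - s)])

/-- The main theorem of the entropy method: the gap of one pass is at least `c/√k`. -/
theorem contr_main : ∃ c : ℝ, 0 < c ∧ c ≤ 1 ∧ ∀ k : ℕ, 1 ≤ k → Contr k (1 - c / sqrt (k : ℝ)) := by
  obtain ⟨C₁, k₀, hk₀, hT⟩ := topConst_large
  obtain ⟨c, hc0, hc1, hsmall⟩ := contr_small k₀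
  -- induction for `k ≥ k₀`
  have hind : ∀ n : ℕ, Contr (k₀ + n) (1 - c / sqrt (((k₀ + n : ℕ) : ℝ) - C₁ - 1)) := by
    intro n
    induction n with
    | zero =>
      have h1 : (1 : ℝ) ≤ ((k₀ + 0 : ℕ) : ℝ) - C₁ - 1 := by
        have : ((C₁ + 2 : ℕ) : ℝ) ≤ (k₀ : ℝ) := by exact_mod_cast hk₀
        push_cast at this ⊢
        linarith
      have h2 : 1 ≤ sqrt (((k₀ + 0 : ℕ) : ℝ) - C₁ - 1) := by
        apply Real.le_sqrt_of_sq_le
        linarith
      refine contr_mono (hsmall k₀ (le_refl _)) ?_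
      have h3 : c / sqrt (((k₀ + 0 : ℕ) : ℝ) - C₁ - 1) ≤ c := div_le_self hc0.le h2
      linarith
    | succ n ih =>
      set k := k₀ + n with hk
      set u : ℝ := (k : ℝ) - C₁ - 1 with hu
      have hu1 : 1 ≤ u := by
        have h : ((C₁ + 2 + n : ℕ) : ℝ) ≤ ((k₀ + n : ℕ) : ℝ) := by
          exact_mod_cast (by omega : C₁ + 2 + n ≤ k₀ + n)
        push_cast at h
        simp only [hu, hk]
        push_cast
        have : (0 : ℝ) ≤ n := Nat.cast_nonneg _
        linarith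
      have hsq : 0 < sqrt u := sqrt_pos.2 (by linarith)
      have hsq1 : 1 ≤ sqrt u := by
        rw [show (1 : ℝ) = sqrt 1 by simp]
        exact sqrt_le_sqrt hu1
      set s := 1 - c / sqrt u with hs
      have hg : c / sqrt u ≤ 2 / 3 := (div_le_self hc0.le hsq1).trans hc1
      have hgp : 0 < c / sqrt u := div_pos hc0 hsq
      have hs0 : 0 ≤ s := by linarith
      have hs1 : s ≤ 1 := by linarith
      have ht := hT k (by omega)
      have hcast : (k : ℝ) - C₁ = u + 1 := by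
        simp only [hu]
        ring
      rw [hcast] at ht
      set θ : ℝ := 1 / (u + 1) with hθ
      have hθ0 : 0 ≤ θ := by positivity
      have hθ1 : θ ≤ 1 / 2 := by
        simp only [hθ]
        rw [div_le_div_iff₀ (by linarith) (by norm_num)]
        linarith
      have hθs : θ / (2 + θ) ≤ s := by
        have h1 : θ / (2 + θ) ≤ 1 / 3 := by
          rw [div_le_div_iff₀ (by linarith) (by norm_num)]
          linarith
        linarith
      have hstep := contr_step hs0 hs1 hθ0 hθs ih ht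
      have hk1 : ((k + 1 : ℕ) : ℝ) - C₁ - 1 = u + 1 := by
        push_cast
        simp only [hu]
        ring
      have hk2 : ((k₀ + (n + 1) : ℕ) : ℝ) - C₁ - 1 = u + 1 := hk1
      show Contr (k + 1) _
      rw [hk2]
      refine contr_mono hstep ?_
      -- the comparison of the gaps
      have hsq' : 0 < sqrt (u + 1) := sqrt_pos.2 (by linarith)
      have e1 : (1 : ℝ) - s = c / sqrt u := by
        simp only [hs]
        ring
      rw [e1]
      have hθc : 0 < 1 + θ / 2 := by positivity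
      suffices h : c / sqrt (u + 1) ≤ c / sqrt u / (1 + θ / 2) by linarith
      rw [le_div_iff₀ hθc, div_mul_eq_mul_div, div_le_div_iff₀ hsq' hsq]
      have h2 : sqrt u * (1 + θ / 2) ≤ sqrt (u + 1) := by
        apply le_sqrt_of_sq_le
        rw [mul_pow, sq_sqrt (by linarith)]
        have h3 : u * (1 + θ / 2) ^ 2 ≤ u + 1 := by
          have hθu : θ * (u + 1) = 1 := by
            simp only [hθ]
            field_simp
          have hθu2 : u * θ ≤ 1 := by nlinarith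
          nlinarith
        exact h3
      nlinarith [mul_le_mul_of_nonneg_left h2 hc0.le]
  refine ⟨c, hc0, by linarith, ?_⟩
  intro k hk
  by_cases hlt : k ≤ k₀
  · refine contr_mono (hsmall k hlt) ?_
    have h1 : (1 : ℝ) ≤ k := by exact_mod_cast hk
    have h2 : 1 ≤ sqrt (k : ℝ) := by
      rw [show (1 : ℝ) = sqrt 1 by simp]
      exact sqrt_le_sqrt h1
    have h3 : c / sqrt (k : ℝ) ≤ c := div_le_self hc0.le h2
    linarith
  · obtain ⟨n, rfl⟩ : ∃ n, k = k₀ + n := ⟨k - k₀, by omega⟩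
    refine contr_mono (hind n) ?_
    have h1 : (1 : ℝ) ≤ ((k₀ + n : ℕ) : ℝ) - C₁ - 1 := by
      have h : ((C₁ + 2 + n : ℕ) : ℝ) ≤ ((k₀ + n : ℕ) : ℝ) := by
        exact_mod_cast (by omega : C₁ + 2 + n ≤ k₀ + n)
      push_cast at h ⊢
      have : (0 : ℝ) ≤ n := Nat.cast_nonneg _
      linarith
    have h2 : ((k₀ + n : ℕ) : ℝ) - C₁ - 1 ≤ ((k₀ + n : ℕ) : ℝ) := by
      have : (0 : ℝ) ≤ C₁ := Nat.cast_nonneg _
      linarith
    have h3 : sqrt (((k₀ + n : ℕ) : ℝ) - C₁ - 1) ≤ sqrt ((k₀ + n : ℕ) : ℝ) := sqrt_le_sqrt h2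
    have h4 : 0 < sqrt (((k₀ + n : ℕ) : ℝ) - C₁ - 1) := sqrt_pos.2 (by linarith)
    have h5 : c / sqrt ((k₀ + n : ℕ) : ℝ) ≤ c / sqrt (((k₀ + n : ℕ) : ℝ) - C₁ - 1) :=
      div_le_div_of_nonneg_left hc0.le h4 h3
    linarith

end P162
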