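import Vale.Agent.Lib.P162.Defs

/-!
# P162: words of bits and the Thorp step.

`Pos (k+1) = Bool × Pos k`.  The Thorp step flips the first bit by a coin depending on the others and
moves it to the end of the word.  Main result here: `k+1` independent Thorp steps on words of length
`k+1` have the same law as one pass `act (k+1) ω` (Defs.lean).  Everything is stated with test
functions and iterated averages.
-/

open Finset BigOperators Equiv

noncomputable section

namespace P162

/-! ### Averages -/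

section Avg
variable {α β : Type*} [Fintype α] [Fintype β]

lemma avg_prod (f : α × β → ℝ) : avg f = avg (fun a => avg (fun b => f (a, b))) := by
  by_cases hα : IsEmpty α
  · simp [avg]
  by_cases hβ : IsEmpty β
  · simp [avg]
  simp only [avg, Fintype.card_prod, Fintype.sum_prod_type, ← Finset.sum_div]
  push_cast
  rw [div_div, mul_comm (Fintype.card β : ℝ)]

lemma avg_comm' (f : α → β → ℝ) :
    avg (fun a => avg (fun b => f a b)) = avg (fun b => avg (fun a => f a b)) := by
  simp only [avg, ← Finset.sum_div]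
  rw [Finset.sum_comm, div_right_comm]

lemma avg_equiv (e : α ≃ β) (f : β → ℝ) : avg (fun a => f (e a)) = avg f := by
  simp only [avg]
  rw [Equiv.sum_comp e f, Fintype.card_congr e]

lemma avg_unit (f : Unit → ℝ) : avg f = f () := by simp [avg]

end Avg

/-! ### Words -/

/-- Insert the bit `a` after the first `p` bits of a word (at the end if the word is shorter). -/
def insF : ℕ → ∀ {k : ℕ}, Pos k → Bool → Pos (k + 1)
  | 0, _, w, a => (a, w)
  | _ + 1, 0, _, a => (a, ())
  | p + 1, _ + 1, w, a => (w.1, insF p w.2 a)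

/-- Delete the bit after the first `p` bits. -/
def delF : ℕ → ∀ {k : ℕ}, Pos (k + 1) → Pos k × Bool
  | 0, _, x => (x.2, x.1)
  | _ + 1, 0, x => ((), x.1)
  | p + 1, _ + 1, x => let r := delF p x.2; ((x.1, r.1), r.2)

lemma delF_insF : ∀ (p : ℕ) {k : ℕ} (w : Pos k) (a : Bool), delF p (insF p w a) = (w, a)
  | 0, _, _, _ => rfl
  | _ + 1, 0, _, _ => rfl
  | p + 1, _ + 1, w, a => by
      have := delF_insF p w.2 a
      simp only [insF, delF, this]
      rfl

lemma insF_delF : ∀ (p : ℕ) {k : ℕ} (x : Pos (k + 1)), insF p (delF p x).1 (delF p x).2 = x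
  | 0, _, _ => rfl
  | _ + 1, 0, x => by
      rcases x with ⟨a, u⟩
      rfl
  | p + 1, _ + 1, x => by
      have := insF_delF p x.2
      simp only [insF, delF, this]
      rfl

/-- Insertion as an equivalence. -/
def insE (p : ℕ) {k : ℕ} : Pos k × Bool ≃ Pos (k + 1) where
  toFun x := insF p x.1 x.2
  invFun := delF p
  left_inv x := by
    rcases x with ⟨w, a⟩
    exact delF_insF p w a
  right_inv x := insF_delF p x

lemma insE_apply (p : ℕ) {k : ℕ} (w : Pos k) (a : Bool) : insE p (w, a) = insF p w a := rfl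

/-- Append a bit at the end of a word. -/
def snocP : ∀ {k : ℕ}, Pos k → Bool → Pos (k + 1)
  | 0, _, a => (a, ())
  | _ + 1, x, a => (x.1, snocP x.2 a)

lemma snocP_eq_insF : ∀ {k : ℕ} (w : Pos k) (a : Bool) (p : ℕ), k ≤ p → snocP w a = insF p w a
  | 0, _, _, 0, _ => rfl
  | 0, _, _, _ + 1, _ => rfl
  | _ + 1, w, a, p + 1, h => by
      simp only [snocP, insF]
      rw [snocP_eq_insF w.2 a p (by omega)]

/-- Inserting the frozen bit and appending commute, if the insertion point is inside the word. -/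
lemma snocP_insF : ∀ {k : ℕ} (p : ℕ), p ≤ k → ∀ (v : Pos k) (a e : Bool),
    snocP (insF p v a) e = insF p (snocP v e) a
  | 0, 0, _, _, _, _ => rfl
  | _ + 1, 0, _, _, _, _ => rfl
  | _ + 1, p + 1, h, v, a, e => by
      have := snocP_insF p (by omega) v.2 a e
      show (v.1, snocP (insF p v.2 a) e) = (v.1, insF p (snocP v.2 e) a)
      rw [this]

/-- The rotation: the first bit goes to the end. -/
def rotE {k : ℕ} : Pos (k + 1) ≃ Pos (k + 1) :=
  (Equiv.prodComm Bool (Pos k)).trans (insE k)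

lemma rotE_apply {k : ℕ} (x : Pos (k + 1)) : rotE x = snocP x.2 x.1 := by
  rw [snocP_eq_insF x.2 x.1 k le_rfl]
  rfl

/-- One Thorp step on words. -/
def stepE {k : ℕ} (b : Pos k → Bool) : Perm (Pos (k + 1)) := (flipE b).trans rotE

lemma stepE_apply {k : ℕ} (b : Pos k → Bool) (x : Pos (k + 1)) :
    stepE b x = snocP x.2 (xor x.1 (b x.2)) := by
  show rotE (flipE b x) = _
  rw [rotE_apply]
  rfl

/-! ### Iterated steps -/

/-- Expectation of `F` over the product of `t` independent Thorp steps; the first average is the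
step applied first. -/
def iterP {k : ℕ} : ℕ → (Perm (Pos (k + 1)) → ℝ) → ℝ
  | 0, F => F 1
  | t + 1, F => avg (fun b : Pos k → Bool => iterP t (fun σ => F (σ * stepE b)))

lemma iterP_avg {k : ℕ} {β : Type*} [Fintype β] (t : ℕ) (f : β → Perm (Pos (k + 1)) → ℝ) :
    iterP t (fun σ => avg (fun i => f i σ)) = avg (fun i => iterP t (f i)) := by
  induction t generalizing f with
  | zero => rfl
  | succ t ih =>
    simp only [iterP]
    have := fun b : Pos k → Bool => ih (fun i σ => f i (σ * stepE b))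
    simp only [this]
    rw [avg_comm']

/-- The slice permutation of pairs: `(w,a) ↦ (σ_a w, a)`. -/
def slE {k : ℕ} (σ₀ σ₁ : Perm (Pos k)) : Perm (Pos k × Bool) where
  toFun x := (if x.2 then σ₁ x.1 else σ₀ x.1, x.2)
  invFun x := (if x.2 then σ₁.symm x.1 else σ₀.symm x.1, x.2)
  left_inv x := by
    rcases x with ⟨w, a⟩
    cases a <;> simp
  right_inv x := by
    rcases x with ⟨w, a⟩
    cases a <;> simp

/-- Moves the frozen bit from index `p` to index `q`, acting by `σ_a` on the rest. -/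
def moveE (p q : ℕ) {k : ℕ} (σ₀ σ₁ : Perm (Pos k)) : Perm (Pos (k + 1)) :=
  ((insE p).symm.trans (slE σ₀ σ₁)).trans (insE q)

lemma moveE_insF (p q : ℕ) {k : ℕ} (σ₀ σ₁ : Perm (Pos k)) (w : Pos k) (a : Bool) :
    moveE p q σ₀ σ₁ (insF p w a) = insF q (if a then σ₁ w else σ₀ w) a := by
  show insE q (slE σ₀ σ₁ ((insE p).symm (insE p (w, a)))) = _
  rw [Equiv.symm_apply_apply]
  rfl

lemma exists_insF (p : ℕ) {k : ℕ} (x : Pos (k + 1)) : ∃ w a, x = insF p w a :=
  ⟨(delF p x).1, (delF p x).2, (insF_delF p x).symm⟩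

/-- The coins of the two slices. -/
def coinSplit (p : ℕ) {k : ℕ} : (Pos (k + 1) → Bool) ≃ (Pos k → Bool) × (Pos k → Bool) where
  toFun b := (fun v => b (insF p v false), fun v => b (insF p v true))
  invFun c := fun x => if (delF p x).2 then c.2 (delF p x).1 else c.1 (delF p x).1
  left_inv b := by
    funext x
    obtain ⟨w, a, rfl⟩ := exists_insF p x
    dsimp only
    rw [delF_insF]
    cases a <;> simp
  right_inv c := by
    rcases c with ⟨c₀, c₁⟩
    ext v <;> simp [delF_insF]

/-- A step with a frozen bit is a pair of smaller steps. -/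
lemma moveE_mul_stepE (p : ℕ) {k : ℕ} (hp : p ≤ k) (σ₀ σ₁ : Perm (Pos (k + 1)))
    (b : Pos (k + 1) → Bool) :
    moveE p 0 σ₀ σ₁ * stepE b =
      moveE (p + 1) 0 (σ₀ * stepE (coinSplit p b).1) (σ₁ * stepE (coinSplit p b).2) := by
  ext1 x
  obtain ⟨w, a, rfl⟩ := exists_insF (p + 1) x
  have hs : stepE b (insF (p + 1) w a) = insF p (snocP w.2 (xor w.1 (b (insF p w.2 a)))) a := by
    rw [stepE_apply]
    exact snocP_insF p hp w.2 a _
  rw [Equiv.Perm.mul_apply, hs, moveE_insF, moveE_insF]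
  cases a <;> simp [coinSplit, stepE_apply]

/-- `t` steps on long words with a frozen bit: independent passes on the two slices. -/
lemma iterP_frozen {k : ℕ} (t : ℕ) (ht : t ≤ k + 1) (G : Perm (Pos (k + 2)) → ℝ) :
    iterP t G = iterP t (fun σ₀ : Perm (Pos (k + 1)) => iterP t (fun σ₁ : Perm (Pos (k + 1)) =>
      G (moveE t 0 σ₀ σ₁))) := by
  induction t generalizing G with
  | zero =>
    have : moveE 0 0 (1 : Perm (Pos (k + 1))) 1 = 1 := by
      ext1 x
      obtain ⟨w, a, rfl⟩ := exists_insF 0 x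
      rw [moveE_insF]
      cases a <;> simp
    simp [iterP, this]
  | succ t ih =>
    have hle : t ≤ k := by omega
    set Φ : (Pos k → Bool) → (Pos k → Bool) → ℝ := fun b₀ b₁ =>
      iterP t (fun σ₀ : Perm (Pos (k + 1)) => iterP t (fun σ₁ : Perm (Pos (k + 1)) =>
        G (moveE (t + 1) 0 (σ₀ * stepE b₀) (σ₁ * stepE b₁)))) with hΦ
    -- the left hand side
    have hL : iterP (t + 1) G = avg (fun b₀ => avg (fun b₁ => Φ b₀ b₁)) := by
      have h1 : iterP (t + 1) G =
          avg (fun b : Pos (k + 1) → Bool => Φ (coinSplit t b).1 (coinSplit t b).2) := by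
        show avg (fun b : Pos (k + 1) → Bool => iterP t (fun σ => G (σ * stepE b))) = _
        congr 1
        funext b
        rw [ih (by omega)]
        simp only [moveE_mul_stepE t hle, hΦ]
      rw [h1, avg_equiv (coinSplit t) (fun c => Φ c.1 c.2), avg_prod]
    -- the right hand side
    have hR : iterP (t + 1) (fun σ₀ : Perm (Pos (k + 1)) =>
        iterP (t + 1) (fun σ₁ : Perm (Pos (k + 1)) => G (moveE (t + 1) 0 σ₀ σ₁))) =
        avg (fun b₀ => avg (fun b₁ => Φ b₀ b₁)) := by
      show avg (fun b₀ : Pos k → Bool => iterP t (fun σ₀ : Perm (Pos (k + 1)) =>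
        avg (fun b₁ : Pos k → Bool => iterP t (fun σ₁ : Perm (Pos (k + 1)) =>
          G (moveE (t + 1) 0 (σ₀ * stepE b₀) (σ₁ * stepE b₁)))))) = _
      congr 1
      funext b₀
      rw [iterP_avg]
    rw [hL, hR]

/-- The last frozen step gives back the flip and the slices. -/
lemma moveE_last_mul_stepE {k : ℕ} (σ₀ σ₁ : Perm (Pos k)) (b : Pos k → Bool) :
    moveE k 0 σ₀ σ₁ * stepE b = (flipE b).trans (sliceE σ₀ σ₁) := by
  ext1 x
  rw [Equiv.Perm.mul_apply, stepE_apply, snocP_eq_insF _ _ k le_rfl, moveE_insF]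
  rcases x with ⟨a, u⟩
  show (xor a (b u), (if xor a (b u) then σ₁ u else σ₀ u)) =
    (xor a (b u), (if xor a (b u) then σ₁ u else σ₀ u))
  rfl

lemma avg_coins (k : ℕ) (f : Coins (k + 1) → ℝ) :
    avg f = avg (fun b : Pos k → Bool => avg (fun ω₀ : Coins k => avg (fun ω₁ : Coins k =>
      f (b, ω₀, ω₁)))) := by
  have h1 := avg_prod (α := Pos k → Bool) (β := Coins k × Coins k) f
  have h2 : ∀ b : Pos k → Bool, avg (fun c : Coins k × Coins k => f (b, c)) =
      avg (fun ω₀ : Coins k => avg (fun ω₁ : Coins k => f (b, ω₀, ω₁))) := fun b =>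
    avg_prod (fun c : Coins k × Coins k => f (b, c))
  simp only [h2] at h1
  exact h1

/-- `k+1` steps on words of length `k+1` make one pass. -/
theorem iterP_pass : ∀ (k : ℕ) (F : Perm (Pos (k + 1)) → ℝ),
    iterP (k + 1) F = avg (fun ω : Coins (k + 1) => F (act (k + 1) ω))
  | 0, F => by
      rw [avg_coins]
      show avg (fun b : Pos 0 → Bool => F (1 * stepE b)) = _
      congr 1
      funext b
      have e : (1 : Perm (Pos 1)) * stepE b = (flipE b).trans (sliceE 1 1) := by
        rw [← moveE_last_mul_stepE]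
        congr 1
      rw [e]
      have h : ∀ g : Coins 0 → ℝ, avg g = g () := fun g => avg_unit g
      rw [h]
      show _ = avg (fun ω₁ : Coins 0 => F ((flipE b).trans (sliceE 1 1)))
      rw [h]
  | k + 1, F => by
      rw [avg_coins]
      show avg (fun b : Pos (k + 1) → Bool => iterP (k + 1) (fun σ => F (σ * stepE b))) = _
      congr 1
      funext b
      rw [iterP_frozen (k + 1) le_rfl, iterP_pass k]
      congr 1
      funext ω₀
      rw [iterP_pass k]
      simp only [moveE_last_mul_stepE]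
      rfl

/-! ### Bits of a position -/

/-- Big-endian bits. -/
def bitsFun : ∀ k : ℕ, ℕ → Pos k
  | 0, _ => ()
  | k + 1, p => (decide (2 ^ k ≤ p), bitsFun k (p % 2 ^ k))

/-- Value of a word. -/
def bitsVal : ∀ k : ℕ, Pos k → ℕ
  | 0, _ => 0
  | k + 1, x => (if x.1 then 2 ^ k else 0) + bitsVal k x.2

lemma bitsVal_lt : ∀ (k : ℕ) (x : Pos k), bitsVal k x < 2 ^ k
  | 0, _ => by simp [bitsVal]
  | k + 1, x => by
      have := bitsVal_lt k x.2
      have h2 : 2 ^ (k + 1) = 2 * 2 ^ k := by ring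
      simp only [bitsVal]
      split_ifs <;> omega

lemma bitsFun_val : ∀ (k : ℕ) (x : Pos k), bitsFun k (bitsVal k x) = x
  | 0, _ => rfl
  | k + 1, x => by
      rcases x with ⟨a, u⟩
      have hu := bitsVal_lt k u
      have ih := bitsFun_val k u
      cases a
      · show (decide (2 ^ k ≤ 0 + bitsVal k u), bitsFun k ((0 + bitsVal k u) % 2 ^ k)) = (false, u)
        have h1 : ¬ 2 ^ k ≤ 0 + bitsVal k u := by omega
        have h2 : (0 + bitsVal k u) % 2 ^ k = bitsVal k u := by
          rw [zero_add]; exact Nat.mod_eq_of_lt hu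
        rw [h2, ih]; simp; exact hu
      · show (decide (2 ^ k ≤ 2 ^ k + bitsVal k u),
          bitsFun k ((2 ^ k + bitsVal k u) % 2 ^ k)) = (true, u)
        have h2 : (2 ^ k + bitsVal k u) % 2 ^ k = bitsVal k u := by
          rw [Nat.add_mod_left]; exact Nat.mod_eq_of_lt hu
        rw [h2, ih]; simp

lemma bitsVal_fun : ∀ (k p : ℕ), p < 2 ^ k → bitsVal k (bitsFun k p) = p
  | 0, p, h => by
      have : p = 0 := by simpa using h
      simp [bitsVal, this]
  | k + 1, p, h => by
      have hk : 0 < 2 ^ k := by positivity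
      have h2 : 2 ^ (k + 1) = 2 * 2 ^ k := by ring
      have ih := bitsVal_fun k (p % 2 ^ k) (Nat.mod_lt _ hk)
      simp only [bitsVal, bitsFun, ih]
      by_cases hp : 2 ^ k ≤ p
      · have e : p % 2 ^ k = p - 2 ^ k := by
          rw [Nat.mod_eq_sub_mod hp]
          exact Nat.mod_eq_of_lt (by omega)
        simp [hp, e]
      · have e : p % 2 ^ k = p := Nat.mod_eq_of_lt (by omega)
        simp [hp, e]

/-- Big-endian bits of a position. -/
def bitsE (k : ℕ) : Fin (2 ^ k) ≃ Pos k where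
  toFun p := bitsFun k p.val
  invFun x := ⟨bitsVal k x, bitsVal_lt k x⟩
  left_inv p := Fin.ext (bitsVal_fun k p.val p.isLt)
  right_inv x := bitsFun_val k x

lemma bitsE_succ (k : ℕ) (p : Fin (2 ^ (k + 1))) :
    bitsE (k + 1) p = (decide (2 ^ k ≤ p.val), bitsE k ⟨p.val % 2 ^ k, Nat.mod_lt _ (by positivity)⟩) :=
  rfl

/-- Doubling appends a bit. -/
lemma bitsFun_double : ∀ (k i : ℕ) (e : Bool), i < 2 ^ k →
    bitsFun (k + 1) (2 * i + (if e then 1 else 0)) = snocP (bitsFun k i) e
  | 0, i, e, h => by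
      have hi : i = 0 := by simpa using h
      subst hi
      cases e <;> rfl
  | k + 1, i, e, h => by
      have hk : 0 < 2 ^ k := by positivity
      have h2 : 2 ^ (k + 1) = 2 * 2 ^ k := by ring
      have hc : (if e then 1 else 0) ≤ 1 := by split_ifs <;> omega
      set c : ℕ := if e then 1 else 0 with hcdef
      have ih := bitsFun_double k (i % 2 ^ k) e (Nat.mod_lt _ hk)
      rw [← hcdef] at ih
      show (decide (2 ^ (k + 1) ≤ 2 * i + c), bitsFun (k + 1) ((2 * i + c) % 2 ^ (k + 1))) =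
        (decide (2 ^ k ≤ i), snocP (bitsFun k (i % 2 ^ k)) e)
      rw [← ih]
      by_cases hi : 2 ^ k ≤ i
      · have e1 : i % 2 ^ k = i - 2 ^ k := by
          rw [Nat.mod_eq_sub_mod hi]
          exact Nat.mod_eq_of_lt (by omega)
        have e2 : (2 * i + c) % 2 ^ (k + 1) = 2 * (i - 2 ^ k) + c := by
          rw [h2, Nat.mod_eq_sub_mod (by omega)]
          rw [Nat.mod_eq_of_lt (by omega)]
          omega
        have e3 : 2 ^ (k + 1) ≤ 2 * i + c := by omega
        rw [e1, e2]
        simp [hi, e3]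
      · have e1 : i % 2 ^ k = i := Nat.mod_eq_of_lt (by omega)
        have e2 : (2 * i + c) % 2 ^ (k + 1) = 2 * i + c := Nat.mod_eq_of_lt (by omega)
        have e3 : ¬ 2 ^ (k + 1) ≤ 2 * i + c := by omega
        rw [e1, e2]
        simp [hi, e3]

/-! ### The Thorp shuffle on positions -/

lemma thorp_val_lt (d : ℕ) (c : ℕ) (hc : c ≤ 1) (p : ℕ) :
    2 * (p % 2 ^ d) + c < 2 ^ (d + 1) := by
  have := Nat.mod_lt p (show 0 < 2 ^ d by positivity)
  have h2 : 2 ^ (d + 1) = 2 * 2 ^ d := by ring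
  omega

/-- One Thorp shuffle with coins `b`, as a function of positions. Position `p = a 2^d + i` goes to
`2 i + (a xor b i)`. -/
def thorpFun (d : ℕ) (b : Fin (2 ^ d) → Bool) (p : Fin (2 ^ (d + 1))) : Fin (2 ^ (d + 1)) :=
  ⟨2 * (p.val % 2 ^ d) +
      (if xor (decide (2 ^ d ≤ p.val)) (b ⟨p.val % 2 ^ d, Nat.mod_lt _ (by positivity)⟩) then 1 else 0),
    thorp_val_lt d _ (by split_ifs <;> omega) _⟩

/-- Thorp's shuffle in bits. -/
theorem bits_thorp (d : ℕ) (b : Fin (2 ^ d) → Bool) (p : Fin (2 ^ (d + 1))) :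
    bitsE (d + 1) (thorpFun d b p) = stepE (b ∘ (bitsE d).symm) (bitsE (d + 1) p) := by
  rw [stepE_apply, bitsE_succ d p]
  show bitsFun (d + 1) (2 * (p.val % 2 ^ d) + _) = _
  rw [bitsFun_double d _ _ (Nat.mod_lt _ (by positivity))]
  congr 1
  simp only [Function.comp]
  congr 2
  exact ((bitsE d).symm_apply_apply _).symm

/-- The conjugation from words to positions. -/
def conjP (d : ℕ) (σ : Perm (Pos (d + 1))) : Perm (Fin (2 ^ (d + 1))) :=
  (bitsE (d + 1)).trans (σ.trans (bitsE (d + 1)).symm)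

lemma conjP_one (d : ℕ) : conjP d 1 = 1 := by
  ext1 x
  simp [conjP]

lemma conjP_mul (d : ℕ) (σ τ : Perm (Pos (d + 1))) : conjP d (σ * τ) = conjP d σ * conjP d τ := by
  ext1 x
  simp [conjP, Equiv.Perm.mul_apply]

lemma thorpFun_eq (d : ℕ) (b : Fin (2 ^ d) → Bool) :
    thorpFun d b = conjP d (stepE (b ∘ (bitsE d).symm)) := by
  funext p
  show _ = (bitsE (d + 1)).symm (stepE (b ∘ (bitsE d).symm) (bitsE (d + 1) p))
  rw [← bits_thorp, Equiv.symm_apply_apply]

theorem thorpFun_bijective (d : ℕ) (b : Fin (2 ^ d) → Bool) : Function.Bijective (thorpFun d b) := by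
  rw [thorpFun_eq]
  exact Equiv.bijective _

/-- One Thorp shuffle as a permutation of positions. -/
def thorpPerm (d : ℕ) (b : Fin (2 ^ d) → Bool) : Perm (Fin (2 ^ (d + 1))) :=
  Equiv.ofBijective _ (thorpFun_bijective d b)

lemma thorpPerm_eq (d : ℕ) (b : Fin (2 ^ d) → Bool) :
    thorpPerm d b = conjP d (stepE (b ∘ (bitsE d).symm)) := by
  ext1 p
  show thorpFun d b p = _
  rw [thorpFun_eq]

/-- `q_n`, the law of one shuffle. -/
def q (d : ℕ) (w : Perm (Fin (2 ^ (d + 1)))) : ℝ :=
  (((Finset.univ : Finset (Fin (2 ^ d) → Bool)).filter fun b => thorpPerm d b = w).card : ℝ) / 2 ^ (2 ^ d)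

/-- Convolution on the symmetric group. -/
def conv {α : Type} [Fintype α] [DecidableEq α] (μ ν : Perm α → ℝ) (w : Perm α) : ℝ :=
  ∑ σ, μ σ * ν (σ⁻¹ * w)

/-- `q_n^{*t}`. -/
def qPow (d : ℕ) : ℕ → Perm (Fin (2 ^ (d + 1))) → ℝ
  | 0 => fun w => if w = 1 then 1 else 0
  | t + 1 => conv (qPow d t) (q d)

/-- Uniform law. -/
def unifLaw (d : ℕ) (_ : Perm (Fin (2 ^ (d + 1)))) : ℝ :=
  1 / (Fintype.card (Perm (Fin (2 ^ (d + 1)))) : ℝ)

/-- Total variation distance. -/
def tvDist {α : Type} [Fintype α] (μ ν : α → ℝ) : ℝ := (1 / 2) * ∑ a, |μ a - ν a|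

section Conv
variable {α : Type} [Fintype α] [DecidableEq α]

lemma sum_conv (μ ν : Perm α → ℝ) (F : Perm α → ℝ) :
    ∑ w, conv μ ν w * F w = ∑ σ, μ σ * ∑ τ, ν τ * F (σ * τ) := by
  simp only [conv, Finset.sum_mul]
  rw [Finset.sum_comm]
  apply Finset.sum_congr rfl
  intro σ _
  rw [Finset.mul_sum, ← Equiv.sum_comp (Equiv.mulLeft σ)]
  apply Finset.sum_congr rfl
  intro τ _
  simp [mul_assoc]

lemma conv_assoc (μ ν ρ : Perm α → ℝ) : conv (conv μ ν) ρ = conv μ (conv ν ρ) := by
  funext w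
  have h := sum_conv μ ν (fun σ => ρ (σ⁻¹ * w))
  have e1 : conv (conv μ ν) ρ w = ∑ σ, conv μ ν σ * ρ (σ⁻¹ * w) := rfl
  rw [e1, h]
  show _ = ∑ σ, μ σ * conv ν ρ (σ⁻¹ * w)
  apply Finset.sum_congr rfl
  intro σ _
  congr 1

lemma conv_delta (μ : Perm α → ℝ) : conv μ (fun w => if w = 1 then 1 else 0) = μ := by
  funext w
  show ∑ σ, μ σ * (if σ⁻¹ * w = 1 then (1 : ℝ) else 0) = μ w
  rw [Finset.sum_eq_single w]
  · simp
  · intro σ _ hσ
    have : σ⁻¹ * w ≠ 1 := by
      intro h
      apply hσ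
      rw [inv_mul_eq_one] at h
      exact h
    simp [this]
  · simp

/-- Right translation invariance of the total variation to a constant law. -/
lemma tv_conv_le (μ ν : Perm α → ℝ) (hν : ∀ w, 0 ≤ ν w) (hν1 : ∑ w, ν w = 1) (c : ℝ) :
    ∑ w, |conv μ ν w - c| ≤ ∑ w, |μ w - c| := by
  -- `conv μ ν w = ∑ τ, ν τ μ (w τ⁻¹)`
  have h1 : ∀ w, conv μ ν w - c = ∑ τ, ν τ * (μ (w * τ⁻¹) - c) := by
    intro w
    have e : conv μ ν w = ∑ τ, ν τ * μ (w * τ⁻¹) := by
      show ∑ σ, μ σ * ν (σ⁻¹ * w) = _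
      rw [← Equiv.sum_comp ((Equiv.inv (Perm α)).trans (Equiv.mulLeft w))]
      apply Finset.sum_congr rfl
      intro τ _
      simp [mul_comm]
    rw [e]
    simp only [mul_sub, Finset.sum_sub_distrib, ← Finset.sum_mul, hν1, one_mul]
  have h2 : ∀ w, |conv μ ν w - c| ≤ ∑ τ, ν τ * |μ (w * τ⁻¹) - c| := by
    intro w
    rw [h1 w]
    refine (Finset.abs_sum_le_sum_abs _ _).trans (le_of_eq ?_)
    apply Finset.sum_congr rfl
    intro τ _
    rw [abs_mul, abs_of_nonneg (hν τ)]
  calc ∑ w, |conv μ ν w - c| ≤ ∑ w, ∑ τ, ν τ * |μ (w * τ⁻¹) - c| :=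
        Finset.sum_le_sum fun w _ => h2 w
    _ = ∑ τ, ν τ * ∑ w, |μ (w * τ⁻¹) - c| := by
        rw [Finset.sum_comm]
        apply Finset.sum_congr rfl
        intro τ _
        rw [Finset.mul_sum]
    _ = ∑ τ, ν τ * ∑ w, |μ w - c| := by
        apply Finset.sum_congr rfl
        intro τ _
        congr 1
        exact Equiv.sum_comp (Equiv.mulRight τ⁻¹) (fun w => |μ w - c|)
    _ = ∑ w, |μ w - c| := by
        rw [← Finset.sum_mul, hν1, one_mul]

end Conv

/-! ### Laws -/

lemma card_coins (d : ℕ) :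
    (Fintype.card (Fin (2 ^ d) → Bool) : ℝ) = 2 ^ (2 ^ d) := by
  simp

/-- Expectation under `q`. -/
lemma sum_q (d : ℕ) (F : Perm (Fin (2 ^ (d + 1))) → ℝ) :
    ∑ w, q d w * F w = avg (fun b : Fin (2 ^ d) → Bool => F (thorpPerm d b)) := by
  classical
  unfold q avg
  rw [card_coins]
  simp only [div_mul_eq_mul_div]
  rw [← Finset.sum_div]
  congr 1
  have h : ∀ w, (((Finset.univ : Finset (Fin (2 ^ d) → Bool)).filter fun b => thorpPerm d b = w).card : ℝ) * F w
      = ∑ b with thorpPerm d b = w, F (thorpPerm d b) := by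
    intro w
    rw [Finset.sum_congr rfl (g := fun _ => F w)]
    · simp
    · intro b hb
      rw [(Finset.mem_filter.mp hb).2]
  simp only [h]
  exact Finset.sum_fiberwise _ _ _

lemma q_nonneg (d : ℕ) (w) : 0 ≤ q d w := by unfold q; positivity

lemma q_sum (d : ℕ) : ∑ w, q d w = 1 := by
  have h := sum_q d (fun _ => 1)
  simp only [mul_one] at h
  rw [h]
  have : Nonempty (Fin (2 ^ d) → Bool) := inferInstance
  simp [avg]

/-- Expectation under `qPow` in terms of words. -/
theorem sum_qPow (d t : ℕ) (F : Perm (Fin (2 ^ (d + 1))) → ℝ) :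
    ∑ w, qPow d t w * F w = iterP t (fun σ => F (conjP d σ)) := by
  induction t generalizing F with
  | zero =>
    show ∑ w, (if w = 1 then (1 : ℝ) else 0) * F w = F (conjP d 1)
    rw [conjP_one]
    simp
  | succ t ih =>
    show ∑ w, conv (qPow d t) (q d) w * F w = _
    rw [sum_conv]
    simp only [sum_q]
    -- exchange
    have h1 : ∑ σ, qPow d t σ * avg (fun b : Fin (2 ^ d) → Bool => F (σ * thorpPerm d b)) =
        avg (fun b : Fin (2 ^ d) → Bool => ∑ σ, qPow d t σ * F (σ * thorpPerm d b)) := by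
      simp only [avg, Finset.mul_sum, ← Finset.sum_div, mul_div_assoc']
      rw [Finset.sum_comm]
    rw [h1]
    simp only [ih]
    show _ = avg (fun b : Pos d → Bool => iterP t (fun σ => F (conjP d (σ * stepE b))))
    rw [← avg_equiv (Equiv.arrowCongr (bitsE d) (Equiv.refl Bool))]
    congr 1
    funext b
    congr 1
    funext σ
    rw [thorpPerm_eq, conjP_mul]
    rfl

/-- `d+1` shuffles make one pass: law identity.  For every test function. -/
theorem qPow_pass (d : ℕ) (F : Perm (Fin (2 ^ (d + 1))) → ℝ) :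
    ∑ w, qPow d (d + 1) w * F w
      = avg (fun ω : Coins (d + 1) =>
          F (((bitsE (d + 1)).trans (act (d + 1) ω)).trans (bitsE (d + 1)).symm)) := by
  rw [sum_qPow, iterP_pass]
  congr 1

/-- Additivity of exponents. -/
theorem qPow_add (d s t : ℕ) : qPow d (s + t) = conv (qPow d s) (qPow d t) := by
  induction t with
  | zero =>
    show qPow d s = conv (qPow d s) (fun w => if w = 1 then 1 else 0)
    rw [conv_delta]
  | succ t ih =>
    show conv (qPow d (s + t)) (q d) = conv (qPow d s) (conv (qPow d t) (q d))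
    rw [ih, conv_assoc]

theorem qPow_comm (d s t : ℕ) : conv (qPow d s) (qPow d t) = conv (qPow d t) (qPow d s) := by
  rw [← qPow_add, ← qPow_add]
  exact congrArg (qPow d) (add_comm s t)

theorem qPow_nonneg (d t : ℕ) (w) : 0 ≤ qPow d t w := by
  induction t generalizing w with
  | zero =>
    show 0 ≤ (if w = 1 then (1 : ℝ) else 0)
    split_ifs <;> norm_num
  | succ t ih =>
    exact Finset.sum_nonneg fun σ _ => mul_nonneg (ih σ) (q_nonneg d _)

theorem qPow_sum (d t : ℕ) : ∑ w, qPow d t w = 1 := by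
  induction t with
  | zero =>
    show ∑ w, (if w = 1 then (1 : ℝ) else 0) = 1
    simp
  | succ t ih =>
    have h := sum_conv (qPow d t) (q d) (fun _ => 1)
    simp only [mul_one] at h
    show ∑ w, conv (qPow d t) (q d) w = 1
    rw [h, q_sum]
    simp [ih]

/-- TV is monotone in time. -/
theorem tv_mono (d s t : ℕ) : tvDist (qPow d (s + t)) (unifLaw d) ≤ tvDist (qPow d s) (unifLaw d) := by
  unfold tvDist unifLaw
  rw [qPow_add]
  apply mul_le_mul_of_nonneg_left _ (by norm_num)
  exact tv_conv_le _ _ (qPow_nonneg d t) (qPow_sum d t) _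

end P162
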