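import Vale.Agent.Lib.P162.Kernel

/-!
# P162: decomposition of a bijection `g : C ≃ Pos (k+1)` into its row `A` and the two
bijections of the rows.
-/

open Finset BigOperators Real

noncomputable section

namespace P162

lemma card_Pos : ∀ k : ℕ, Fintype.card (Pos k) = 2 ^ k
  | 0 => by
      show Fintype.card Unit = 1
      simp
  | k + 1 => by
      show Fintype.card (Bool × Pos k) = _
      rw [Fintype.card_prod, card_Pos k, Fintype.card_bool, pow_succ]
      ring

lemma card_filter_false (k : ℕ) :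
    ((Finset.univ : Finset (Pos (k + 1))).filter fun x => x.1 = false).card = 2 ^ k := by
  rw [← card_Pos k, ← Finset.card_univ]
  symm
  refine Finset.card_bij (fun u _ => (false, u)) ?_ ?_ ?_
  · intro u _
    exact Finset.mem_filter.2 ⟨Finset.mem_univ _, rfl⟩
  · intro a _ b _ h
    exact (Prod.ext_iff.1 h).2
  · intro x hx
    have hx' : x.1 = false := (Finset.mem_filter.1 hx).2
    exact ⟨x.2, Finset.mem_univ _, Prod.ext hx'.symm rfl⟩

variable {C : Type} [Fintype C] [DecidableEq C] {k : ℕ}

lemma card_rowA_aux (g : C ≃ Pos (k + 1)) :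
    2 * (Finset.univ.filter fun a => (g a).1 = false).card = Fintype.card C := by
  have h1 : (Finset.univ.filter fun a => (g a).1 = false).card = 2 ^ k := by
    rw [← card_filter_false k]
    refine Finset.card_equiv g fun a => ?_
    simp
  rw [h1, Fintype.card_congr g, card_Pos, pow_succ]
  ring

/-- The set of cards in the slice `a = false`. -/
def rowA (g : C ≃ Pos (k + 1)) : Half C :=
  ⟨Finset.univ.filter fun a => (g a).1 = false, card_rowA_aux g⟩

lemma mem_rowA (g : C ≃ Pos (k + 1)) (a : C) : a ∈ (rowA g).1 ↔ (g a).1 = false := by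
  simp [rowA]

/-- The data of `g` given its row. -/
abbrev Dec (k : ℕ) (A : Half C) : Type := (↥A.1 ≃ Pos k) × ({a // a ∉ A.1} ≃ Pos k)

/-- The underlying function of `assemble`. -/
def asmFun (A : Half C) (e : Dec k A) (a : C) : Bool × Pos k :=
  if h : a ∈ A.1 then (false, e.1 ⟨a, h⟩) else (true, e.2 ⟨a, h⟩)

lemma asmFun_pos (A : Half C) (e : Dec k A) {a : C} (h : a ∈ A.1) :
    asmFun A e a = (false, e.1 ⟨a, h⟩) := dif_pos h

lemma asmFun_neg (A : Half C) (e : Dec k A) {a : C} (h : a ∉ A.1) :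
    asmFun A e a = (true, e.2 ⟨a, h⟩) := dif_neg h

/-- Assemble a bijection from its two slices. -/
def assemble (A : Half C) (e : Dec k A) : C ≃ Pos (k + 1) where
  toFun a := asmFun A e a
  invFun x := cond x.1 (e.2.symm x.2).1 (e.1.symm x.2).1
  left_inv := by
    intro a
    show cond (asmFun A e a).1 (e.2.symm (asmFun A e a).2).1 (e.1.symm (asmFun A e a).2).1 = a
    by_cases h : a ∈ A.1
    · rw [asmFun_pos A e h]
      simp
    · rw [asmFun_neg A e h]
      simp
  right_inv := by
    intro x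
    rcases x with ⟨b, u⟩
    cases b
    · show asmFun A e (e.1.symm u).1 = (false, u)
      rw [asmFun_pos A e (e.1.symm u).2]
      simp
    · show asmFun A e (e.2.symm u).1 = (true, u)
      rw [asmFun_neg A e (e.2.symm u).2]
      simp

lemma assemble_apply_mem (A : Half C) (e : Dec k A) (a : ↥A.1) :
    assemble A e a = (false, e.1 a) :=
  asmFun_pos A e a.2

lemma assemble_apply_not_mem (A : Half C) (e : Dec k A) (a : {a // a ∉ A.1}) :
    assemble A e a = (true, e.2 a) :=
  asmFun_neg A e a.2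

lemma assemble_injective (A : Half C) : Function.Injective (assemble (k := k) A) := by
  intro e e' h
  refine Prod.ext ?_ ?_
  · ext a
    have := congrArg (fun g : C ≃ Pos (k + 1) => g a) h
    simp only [assemble_apply_mem] at this
    have h2 : e.1 a = e'.1 a := (Prod.ext_iff.1 this).2
    rw [h2]
  · ext a
    have := congrArg (fun g : C ≃ Pos (k + 1) => g a) h
    simp only [assemble_apply_not_mem] at this
    have h2 : e.2 a = e'.2 a := (Prod.ext_iff.1 this).2
    rw [h2]

lemma rowA_assemble (A : Half C) (e : Dec k A) : rowA (assemble A e) = A := by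
  apply Subtype.ext
  ext a
  rw [mem_rowA]
  by_cases h : a ∈ A.1
  · have := assemble_apply_mem A e ⟨a, h⟩
    simp only at this
    rw [this]
    simp [h]
  · have := assemble_apply_not_mem A e ⟨a, h⟩
    simp only at this
    rw [this]
    simp [h]

lemma apply_symm_fst (g : C ≃ Pos (k + 1)) (x : Pos (k + 1)) : (g (g.symm x)).1 = x.1 := by
  rw [g.apply_symm_apply]

lemma apply_symm_snd (g : C ≃ Pos (k + 1)) (x : Pos (k + 1)) : (g (g.symm x)).2 = x.2 := by
  rw [g.apply_symm_apply]

/-- The decomposition of `g`. -/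
def decOf (g : C ≃ Pos (k + 1)) : Dec k (rowA g) :=
  ({ toFun := fun a => (g a.1).2
     invFun := fun u => ⟨g.symm (false, u), (mem_rowA g _).2 (apply_symm_fst g (false, u))⟩
     left_inv := by
       intro a
       have h : (g a.1).1 = false := (mem_rowA g a.1).1 a.2
       apply Subtype.ext
       show g.symm (false, (g a.1).2) = a.1
       rw [show ((false, (g a.1).2) : Pos (k + 1)) = g a.1 from Prod.ext h.symm rfl]
       simp
     right_inv := by
       intro u
       exact apply_symm_snd g (false, u) },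
   { toFun := fun a => (g a.1).2
     invFun := fun u => ⟨g.symm (true, u), fun h => by
       have h1 := (mem_rowA g _).1 h
       rw [apply_symm_fst g (true, u)] at h1
       exact Bool.noConfusion h1⟩
     left_inv := by
       intro a
       have h : (g a.1).1 = true := by
         have := a.2
         rw [mem_rowA] at this
         simpa using this
       apply Subtype.ext
       show g.symm (true, (g a.1).2) = a.1
       rw [show ((true, (g a.1).2) : Pos (k + 1)) = g a.1 from Prod.ext h.symm rfl]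
       simp
     right_inv := by
       intro u
       exact apply_symm_snd g (true, u) })

lemma assemble_decOf (g : C ≃ Pos (k + 1)) : assemble (rowA g) (decOf g) = g := by
  ext a
  by_cases h : a ∈ (rowA g).1
  · have h1 := assemble_apply_mem (rowA g) (decOf g) ⟨a, h⟩
    simp only at h1
    rw [h1]
    have h2 : (g a).1 = false := (mem_rowA g a).1 h
    exact Prod.ext h2.symm rfl
  · have h1 := assemble_apply_not_mem (rowA g) (decOf g) ⟨a, h⟩
    simp only at h1
    rw [h1]
    have h2 : (g a).1 = true := by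
      rw [mem_rowA] at h
      simpa using h
    exact Prod.ext h2.symm rfl

lemma mem_range_assemble (A : Half C) (g : C ≃ Pos (k + 1)) :
    g ∈ Set.range (assemble (k := k) A) ↔ rowA g = A := by
  constructor
  · rintro ⟨e, rfl⟩
    exact rowA_assemble A e
  · rintro rfl
    exact ⟨decOf g, assemble_decOf g⟩

/-- Sum over all bijections as a sum over rows. -/
lemma sum_assemble (h : (C ≃ Pos (k + 1)) → ℝ) :
    ∑ g, h g = ∑ A : Half C, ∑ e : Dec k A, h (assemble A e) := by
  rw [← Finset.sum_fiberwise (s := Finset.univ) (g := fun g : C ≃ Pos (k + 1) => rowA g)]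
  refine Finset.sum_congr rfl fun A _ => ?_
  have h1 : (Finset.univ.filter fun g : C ≃ Pos (k + 1) => rowA g = A)
      = (Finset.univ : Finset (Dec k A)).map ⟨assemble A, assemble_injective A⟩ := by
    ext g
    simp only [Finset.mem_filter, Finset.mem_univ, true_and, Finset.mem_map,
      Function.Embedding.coeFn_mk]
    rw [← mem_range_assemble]
    rfl
  rw [h1, Finset.sum_map]
  rfl

/-- The law on the two slices, given the row. -/
def rhoA (μ : (C ≃ Pos (k + 1)) → ℝ) (A : Half C) : Dec k A → ℝ := fun e => μ (assemble A e)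

lemma rhoA_nonneg {μ : (C ≃ Pos (k + 1)) → ℝ} (hμ : ∀ g, 0 ≤ μ g) (A : Half C) (e : Dec k A) :
    0 ≤ rhoA μ A e := hμ _

/-- The relative bijection `c = π₁⁻¹ π₀`. -/
def cOf (A : Half C) (e : Dec k A) : ↥A.1 ≃ {a // a ∉ A.1} := e.1.trans e.2.symm

/-- Law of the relative bijection. -/
def nuA (μ : (C ≃ Pos (k + 1)) → ℝ) (A : Half C) : (↥A.1 ≃ {a // a ∉ A.1}) → ℝ :=
  push (cOf A) (rhoA μ A)

lemma card_half_part_pow (hC : Fintype.card C = 2 ^ (k + 1)) (A : Half C) :
    Fintype.card ↥A.1 = 2 ^ k :=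
  half_of_pow _ k ((card_half_sub A).trans hC)

lemma card_half_compl_pow (hC : Fintype.card C = 2 ^ (k + 1)) (A : Half C) :
    Fintype.card {a // a ∉ A.1} = 2 ^ k :=
  half_of_pow _ k ((card_half_compl A).trans hC)

lemma card_Dec (hC : Fintype.card C = 2 ^ (k + 1)) (A : Half C) :
    Fintype.card (Dec k A) = ((2 ^ k).factorial) ^ 2 := by
  have h1 := card_half_part_pow hC A
  have h2 := card_half_compl_pow hC A
  rw [Fintype.card_prod,
    Fintype.card_equiv (Fintype.equivOfCardEq (by rw [h1, card_Pos])),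
    Fintype.card_equiv (Fintype.equivOfCardEq (by rw [h2, card_Pos])), h1, h2]
  ring

lemma restr_rowA_comp (μ : (C ≃ Pos (k + 1)) → ℝ) (A : Half C) :
    rhoA μ A = (restr rowA μ A) ∘ assemble A := by
  funext e
  simp [rhoA, restr, rowA_assemble]

lemma restr_rowA_zero (μ : (C ≃ Pos (k + 1)) → ℝ) (A : Half C) (g : C ≃ Pos (k + 1))
    (hg : g ∉ Set.range (assemble (k := k) A)) : restr rowA μ A g = 0 := by
  unfold restr
  rw [if_neg]
  intro h
  exact hg ((mem_range_assemble A g).2 h)

lemma hh_rhoA (μ : (C ≃ Pos (k + 1)) → ℝ) (A : Half C) :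
    hh (rhoA μ A) = hh (restr rowA μ A) := by
  rw [restr_rowA_comp]
  exact hh_comp_inj _ (assemble_injective A) _ (restr_rowA_zero μ A)

lemma mass_rhoA (μ : (C ≃ Pos (k + 1)) → ℝ) (A : Half C) :
    mass (rhoA μ A) = push rowA μ A := by
  rw [restr_rowA_comp, mass_comp_inj _ (assemble_injective A) _ (restr_rowA_zero μ A), mass_restr]

/-- Chain rule. -/
theorem Dm_rowA (hC : Fintype.card C = 2 ^ (k + 1)) (μ : (C ≃ Pos (k + 1)) → ℝ) :
    Dm μ = Dm (push rowA μ) + ∑ A : Half C, Dm (rhoA μ A) := by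
  have hev : Even (Fintype.card C) := by
    rw [hC, pow_succ]; exact ⟨2 ^ k, by ring⟩
  have hH : ((Fintype.card (Half C) : ℕ) : ℝ) ≠ 0 := by
    have := card_half_pos hev
    positivity
  have hF : (((2 ^ k).factorial : ℕ) : ℝ) ^ 2 ≠ 0 := by positivity
  have hcard : ((Fintype.card (C ≃ Pos (k + 1)) : ℕ) : ℝ)
      = ((Fintype.card (Half C) : ℕ) : ℝ) * (((2 ^ k).factorial : ℕ) : ℝ) ^ 2 := by
    have hcP : Fintype.card C = Fintype.card (Pos (k + 1)) := by rw [hC, card_Pos]
    rw [Fintype.card_equiv (Fintype.equivOfCardEq hcP), card_half hev]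
    have h2 : Fintype.card C / 2 = 2 ^ k := by
      rw [hC, pow_succ]; simp
    rw [h2]
    have := Nat.choose_mul_factorial_mul_factorial (show 2 ^ k ≤ Fintype.card C by
      rw [hC, pow_succ]; omega)
    have h3 : Fintype.card C - 2 ^ k = 2 ^ k := by
      rw [hC, pow_succ]; omega
    rw [h3] at this
    rw [← this]
    push_cast
    ring
  have h := DN_chain rowA μ hH hF
  unfold Dm
  rw [hcard, h]
  congr 1
  refine Finset.sum_congr rfl fun A _ => ?_
  unfold DN
  rw [hh_rhoA, mass_rhoA, ← mass_restr, card_Dec hC]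
  push_cast
  rfl

/-! ### Relative bijection -/

/-- Subadditivity: `Dm fst + Dm snd ≤ Dm`. -/
theorem Dm_marginals_le {U V : Type} [Fintype U] [Fintype V] [DecidableEq U] [DecidableEq V]
    [Nonempty U] [Nonempty V] (ρ : U × V → ℝ) (hρ : ∀ e, 0 ≤ ρ e) :
    Dm (push Prod.fst ρ) + Dm (push Prod.snd ρ) ≤ Dm ρ := by
  have hU : ((Fintype.card U : ℕ) : ℝ) ≠ 0 := by
    have : 0 < Fintype.card U := Fintype.card_pos
    positivity
  have hV : ((Fintype.card V : ℕ) : ℝ) ≠ 0 := by
    have : 0 < Fintype.card V := Fintype.card_pos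
    positivity
  rw [Dm_prod_chain hU hV ρ]
  have e : push Prod.snd ρ = fun v => ∑ u ∈ (Finset.univ : Finset U), ρ (u, v) := by
    funext v
    unfold push
    rw [Finset.sum_filter, Fintype.sum_prod_type]
    refine Finset.sum_congr rfl fun u _ => ?_
    simp
  have h2 : Dm (push Prod.snd ρ) ≤ ∑ u, Dm (fun v => ρ (u, v)) := by
    rw [e]
    exact DN_sum_le _ _ (fun u v => hρ _) _
  linarith

/-- Symmetric chain rule. -/
lemma Dm_prod_chain' {U V : Type} [Fintype U] [Fintype V] [DecidableEq U] [DecidableEq V]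
    [Nonempty U] [Nonempty V] (ρ : U × V → ℝ) :
    Dm ρ = Dm (push Prod.snd ρ) + ∑ v, Dm (fun u => ρ (u, v)) := by
  have hU : ((Fintype.card U : ℕ) : ℝ) ≠ 0 := by
    have : 0 < Fintype.card U := Fintype.card_pos
    positivity
  have hV : ((Fintype.card V : ℕ) : ℝ) ≠ 0 := by
    have : 0 < Fintype.card V := Fintype.card_pos
    positivity
  have h := Dm_prod_chain hV hU (ρ ∘ (Equiv.prodComm V U))
  have e1 : Dm (ρ ∘ (Equiv.prodComm V U)) = Dm ρ := Dm_comp_equiv _ ρ
  have e2 : push Prod.fst (ρ ∘ (Equiv.prodComm V U)) = push Prod.snd ρ := by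
    funext v
    unfold push
    refine Finset.sum_bij (fun x _ => x.swap) ?_ ?_ ?_ ?_
    · intro x hx
      simpa using hx
    · intro a _ b _ h
      exact Prod.swap_injective h
    · intro y hy
      exact ⟨y.swap, by simpa using hy, Prod.swap_swap y⟩
    · intro x _
      rfl
  rw [e1, e2] at h
  exact h

/-- (R2) for a general law on a pair of bijections. -/
theorem Dm_relative_le {A' B' P : Type} [Fintype A'] [Fintype B'] [Fintype P]
    [DecidableEq A'] [DecidableEq B'] [DecidableEq P] (hA : Fintype.card A' = Fintype.card P)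
    (hB : Fintype.card B' = Fintype.card P)
    (ρ : (A' ≃ P) × (B' ≃ P) → ℝ) (hρ : ∀ e, 0 ≤ ρ e) :
    Dm (push (fun e : (A' ≃ P) × (B' ≃ P) => e.1.trans e.2.symm) ρ)
      ≤ Dm ρ - (Dm (push Prod.fst ρ) + Dm (push Prod.snd ρ)) / 2 := by
  haveI : Nonempty (A' ≃ P) := ⟨Fintype.equivOfCardEq hA⟩
  haveI : Nonempty (B' ≃ P) := ⟨Fintype.equivOfCardEq hB⟩
  set c := fun e : (A' ≃ P) × (B' ≃ P) => e.1.trans e.2.symm with hc
  have hcard1 : Fintype.card (A' ≃ B') = Fintype.card (A' ≃ P) := by
    rw [Fintype.card_equiv (Fintype.equivOfCardEq (hA.trans hB.symm)),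
      Fintype.card_equiv (Fintype.equivOfCardEq hA)]
  have hcard2 : Fintype.card (A' ≃ B') = Fintype.card (B' ≃ P) := by
    rw [Fintype.card_equiv (Fintype.equivOfCardEq (hA.trans hB.symm)),
      Fintype.card_equiv (Fintype.equivOfCardEq hB), hA, hB]
  -- conditioning on the second coordinate
  have h1 : Dm (push c ρ) ≤ Dm ρ - Dm (push Prod.snd ρ) := by
    rw [Dm_prod_chain' ρ]
    have e : push c ρ = fun z => ∑ v ∈ (Finset.univ : Finset (B' ≃ P)),
        push (fun u : A' ≃ P => u.trans v.symm) (fun u => ρ (u, v)) z := by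
      funext z
      unfold push
      simp_rw [Finset.sum_filter]
      rw [Fintype.sum_prod_type, Finset.sum_comm]
    have hinj : ∀ v : B' ≃ P, Function.Injective (fun u : A' ≃ P => u.trans v.symm) := by
      intro v a b h
      ext x
      have := congrArg (fun f : A' ≃ B' => v (f x)) h
      simpa using this
    have h2 : Dm (push c ρ) ≤ ∑ v, Dm (push (fun u : A' ≃ P => u.trans v.symm) (fun u => ρ (u, v))) := by
      rw [e]
      exact DN_sum_le _ _ (fun v z => push_nonneg _ (fun u => hρ _) z) _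
    have h3 : ∀ v, Dm (push (fun u : A' ≃ P => u.trans v.symm) (fun u => ρ (u, v)))
        = Dm (fun u => ρ (u, v)) := by
      intro v
      unfold Dm DN
      rw [hh_push_inj _ (hinj v), mass_push, hcard1]
    simp_rw [h3] at h2
    linarith
  have h1' : Dm (push c ρ) ≤ Dm ρ - Dm (push Prod.fst ρ) := by
    have hU : ((Fintype.card (A' ≃ P) : ℕ) : ℝ) ≠ 0 := by
      have : 0 < Fintype.card (A' ≃ P) := Fintype.card_pos
      positivity
    have hV : ((Fintype.card (B' ≃ P) : ℕ) : ℝ) ≠ 0 := by
      have : 0 < Fintype.card (B' ≃ P) := Fintype.card_pos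
      positivity
    rw [Dm_prod_chain hU hV ρ]
    have e : push c ρ = fun z => ∑ u ∈ (Finset.univ : Finset (A' ≃ P)),
        push (fun v : B' ≃ P => u.trans v.symm) (fun v => ρ (u, v)) z := by
      funext z
      unfold push
      simp_rw [Finset.sum_filter]
      rw [Fintype.sum_prod_type]
    have hinj : ∀ u : A' ≃ P, Function.Injective (fun v : B' ≃ P => u.trans v.symm) := by
      intro u a b h
      apply Equiv.symm_bijective.injective
      ext x
      have := congrArg (fun f : A' ≃ B' => f (u.symm x)) h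
      simpa using this
    have h2 : Dm (push c ρ) ≤ ∑ u, Dm (push (fun v : B' ≃ P => u.trans v.symm) (fun v => ρ (u, v))) := by
      rw [e]
      exact DN_sum_le _ _ (fun v z => push_nonneg _ (fun u => hρ _) z) _
    have h3 : ∀ u, Dm (push (fun v : B' ≃ P => u.trans v.symm) (fun v => ρ (u, v)))
        = Dm (fun v => ρ (u, v)) := by
      intro u
      unfold Dm DN
      rw [hh_push_inj _ (hinj u), mass_push, hcard2]
    simp_rw [h3] at h2
    linarith
  linarith

/-- `u` on a fixed row. -/
def uA (μ : (C ≃ Pos (k + 1)) → ℝ) (A : Half C) : ℝ :=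
  Dm (rhoA μ A) - (Dm (push Prod.fst (rhoA μ A)) + Dm (push Prod.snd (rhoA μ A))) / 2

lemma Dm_nuA_le (hC : Fintype.card C = 2 ^ (k + 1)) (μ : (C ≃ Pos (k + 1)) → ℝ)
    (hμ : ∀ g, 0 ≤ μ g) (A : Half C) : Dm (nuA μ A) ≤ uA μ A := by
  have h1 := card_half_part_pow hC A
  have h2 := card_half_compl_pow hC A
  exact Dm_relative_le (by rw [h1, card_Pos]) (by rw [h2, card_Pos]) (rhoA μ A) (rhoA_nonneg hμ A)

lemma uA_ge (hC : Fintype.card C = 2 ^ (k + 1)) (μ : (C ≃ Pos (k + 1)) → ℝ)
    (hμ : ∀ g, 0 ≤ μ g) (A : Half C) : Dm (rhoA μ A) ≤ 2 * uA μ A := by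
  have h1 := card_half_part_pow hC A
  have h2 := card_half_compl_pow hC A
  haveI : Nonempty (↥A.1 ≃ Pos k) := ⟨Fintype.equivOfCardEq (by rw [h1, card_Pos])⟩
  haveI : Nonempty ({a // a ∉ A.1} ≃ Pos k) := ⟨Fintype.equivOfCardEq (by rw [h2, card_Pos])⟩
  have := Dm_marginals_le (rhoA μ A) (rhoA_nonneg hμ A)
  unfold uA
  linarith

end P162
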