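import Vale.Agent.Lib.P162.TopA

/-!
# P162: the top inequality `x ≤ ∑_A xRow(ν_A) + log E_{μ×μ} Wtop`.
-/

open Finset BigOperators Real

noncomputable section

namespace P162

section General
variable {X Y : Type} [Fintype X] [Fintype Y] [DecidableEq X] [DecidableEq Y]

lemma mem_row (c : X ≃ Y) (T : Half X) (y : Y) : y ∈ (row c T).1 ↔ c.symm y ∈ T.1 := by
  simp only [row, Finset.mem_map, Equiv.coe_toEmbedding]
  constructor
  · rintro ⟨x, hx, rfl⟩
    simpa using hx
  · intro h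
    exact ⟨c.symm y, h, by simp⟩

/-- Complement of a half set. -/
def hCompl (T : Half X) : Half X :=
  ⟨T.1ᶜ, by
    rw [Finset.card_compl]
    have := T.2
    omega⟩

lemma mem_hCompl (T : Half X) (x : X) : x ∈ (hCompl T).1 ↔ x ∉ T.1 := by
  simp [hCompl]

lemma hCompl_injective : Function.Injective (hCompl : Half X → Half X) := by
  intro a b h
  apply Subtype.ext
  ext x
  have := congrArg (fun T : Half X => x ∈ T.1) h
  simp only [mem_hCompl, eq_iff_iff] at this
  tauto

/-- `row c` as an equivalence of half sets. -/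
def rowEquiv (c : X ≃ Y) : Half X ≃ Half Y where
  toFun := row c
  invFun := row c.symm
  left_inv := by
    intro T
    apply Subtype.ext
    ext x
    simp [mem_row]
  right_inv := by
    intro T
    apply Subtype.ext
    ext x
    simp [mem_row]

end General

lemma eq_of_sum_mul {β : Type*} [Fintype β] [DecidableEq β] {f g : β → ℝ}
    (h : ∀ φ : β → ℝ, ∑ b, f b * φ b = ∑ b, g b * φ b) : f = g := by
  funext b
  have := h (fun b' => if b' = b then 1 else 0)
  simpa using this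

variable {C : Type} [Fintype C] [DecidableEq C] {k : ℕ}

/-- Coins given by a half set. -/
def coin (τ : Half (Pos k)) : Pos k → Bool := fun u => decide (u ∈ τ.1)

/-- The second row. -/
def secondRow (τ : Half (Pos k)) (g : C ≃ Pos (k + 1)) : Half C :=
  rowA (g.trans (flipE (coin τ)))

lemma flipE_apply (b : Pos k → Bool) (x : Pos (k + 1)) : flipE b x = (xor x.1 (b x.2), x.2) := rfl

lemma mem_secondRow (τ : Half (Pos k)) (g : C ≃ Pos (k + 1)) (a : C) :
    a ∈ (secondRow τ g).1 ↔ xor (g a).1 (coin τ (g a).2) = false := by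
  unfold secondRow
  rw [mem_rowA]
  rfl

/-- The second row of an assembled bijection. -/
lemma secondRow_assemble (A : Half C) (e : Dec k A) (τ : Half (Pos k)) :
    secondRow τ (assemble A e)
      = joinHalf A (hCompl (row e.1.symm τ)) (row (cOf A e) (row e.1.symm τ)) := by
  apply Subtype.ext
  ext a
  rw [mem_secondRow]
  by_cases h : a ∈ A.1
  · have h1 := assemble_apply_mem A e ⟨a, h⟩
    simp only at h1
    rw [h1, mem_joinHalf_of_mem A _ _ ⟨a, h⟩, mem_hCompl, mem_row]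
    simp [coin]
  · have h1 := assemble_apply_not_mem A e ⟨a, h⟩
    simp only at h1
    rw [h1, mem_joinHalf_of_not_mem A _ _ ⟨a, h⟩, mem_row, mem_row]
    simp [coin, cOf]

lemma orth_secondRow (τ : Half (Pos k)) (g : C ≃ Pos (k + 1)) : Orth (rowA g) (secondRow τ g) := by
  have h := secondRow_assemble (rowA g) (decOf g) τ
  rw [assemble_decOf] at h
  rw [h]
  exact orth_joinHalf _ _ _

/-- Flip invariance gives the same law of rows. -/
lemma sum_flip (μ : (C ≃ Pos (k + 1)) → ℝ) (hinv : FlipInv μ) (b : Pos k → Bool)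
    (f : (C ≃ Pos (k + 1)) → ℝ) :
    ∑ g, μ g * f (g.trans (flipE b)) = ∑ g, μ g * f g := by
  refine Fintype.sum_equiv (Equiv.equivCongr (Equiv.refl C) (flipE b)) _ _ fun g => ?_
  have e : (Equiv.equivCongr (Equiv.refl C) (flipE b)) g = g.trans (flipE b) := by
    ext a
    simp [Equiv.equivCongr]
  rw [e, hinv b g]

/-- The joint law of the two rows. -/
def F2 (μ : (C ≃ Pos (k + 1)) → ℝ) : Half C × Half C → ℝ :=
  fun p => avg (fun τ : Half (Pos k) => push (fun g => (rowA g, secondRow τ g)) μ p)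

lemma sum_F2_mul (μ : (C ≃ Pos (k + 1)) → ℝ) (φ : Half C × Half C → ℝ) :
    ∑ p, F2 μ p * φ p = avg (fun τ : Half (Pos k) => ∑ g, μ g * φ (rowA g, secondRow τ g)) := by
  unfold F2 avg
  simp_rw [div_mul_eq_mul_div, Finset.sum_mul]
  rw [← Finset.sum_div, Finset.sum_comm]
  congr 1
  refine Finset.sum_congr rfl fun τ _ => ?_
  exact (sum_mul_push (fun g => (rowA g, secondRow τ g)) μ φ).symm

lemma avg_const {ι : Type*} [Fintype ι] [Nonempty ι] (a : ℝ) : avg (fun _ : ι => a) = a := by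
  have hN : (Fintype.card ι : ℝ) ≠ 0 := by
    have : 0 < Fintype.card ι := Fintype.card_pos
    positivity
  unfold avg
  simp only [Finset.sum_const, Finset.card_univ, nsmul_eq_mul]
  field_simp

lemma pos_half_nonempty (hk : 1 ≤ k) : Nonempty (Half (Pos k)) := by
  have hev : Even (Fintype.card (Pos k)) := by
    rw [card_Pos]
    obtain ⟨i, rfl⟩ : ∃ i, k = i + 1 := ⟨k - 1, by omega⟩
    exact ⟨2 ^ i, by rw [pow_succ]; ring⟩
  exact Fintype.card_pos_iff.1 (card_half_pos hev)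

lemma push_fst_F2 (hk : 1 ≤ k) (μ : (C ≃ Pos (k + 1)) → ℝ) :
    push Prod.fst (F2 μ) = push rowA μ := by
  haveI := pos_half_nonempty hk
  apply eq_of_sum_mul
  intro φ
  rw [← sum_mul_push Prod.fst (F2 μ) φ, sum_F2_mul, ← sum_mul_push rowA μ φ]
  show avg (fun _ : Half (Pos k) => ∑ g, μ g * φ (rowA g)) = _
  exact avg_const _

lemma push_snd_F2 (hk : 1 ≤ k) (μ : (C ≃ Pos (k + 1)) → ℝ) (hinv : FlipInv μ) :
    push Prod.snd (F2 μ) = push rowA μ := by
  haveI := pos_half_nonempty hk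
  apply eq_of_sum_mul
  intro φ
  rw [← sum_mul_push Prod.snd (F2 μ) φ, sum_F2_mul, ← sum_mul_push rowA μ φ]
  have : ∀ τ : Half (Pos k), ∑ g, μ g * φ (rowA g, secondRow τ g).2 = ∑ g, μ g * φ (rowA g) := by
    intro τ
    exact sum_flip μ hinv (coin τ) (fun g => φ (rowA g))
  simp_rw [this]
  exact avg_const _

lemma F2_nonneg (μ : (C ≃ Pos (k + 1)) → ℝ) (hμ : ∀ g, 0 ≤ μ g) (p : Half C × Half C) :
    0 ≤ F2 μ p :=
  div_nonneg (Finset.sum_nonneg fun _ _ => push_nonneg _ hμ _) (Nat.cast_nonneg _)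

lemma sum_F2 (hk : 1 ≤ k) (μ : (C ≃ Pos (k + 1)) → ℝ) (hμ1 : ∑ g, μ g = 1) :
    ∑ p, F2 μ p = 1 := by
  haveI := pos_half_nonempty hk
  have := sum_F2_mul μ (fun _ => 1)
  simp only [mul_one] at this
  rw [this, hμ1]
  exact avg_const _

lemma F2_support (μ : (C ≃ Pos (k + 1)) → ℝ) (p : Half C × Half C) (hp : F2 μ p ≠ 0) :
    Orth p.1 p.2 := by
  by_contra hno
  apply hp
  unfold F2 avg
  rw [Finset.sum_eq_zero, zero_div]
  intro τ _
  unfold push
  refine Finset.sum_eq_zero fun g hg => ?_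
  exfalso
  apply hno
  rw [← (Finset.mem_filter.1 hg).2]
  exact orth_secondRow τ g

/-! ### Description of the joint law by the row systems -/

/-- Parameters of the second row given the first. -/
abbrev Sg (C : Type) [Fintype C] [DecidableEq C] : Type :=
  Σ A : Half C, Half ↥A.1 × Half {a // a ∉ A.1}

/-- The number of half sets of a half. -/
def bN (k : ℕ) : ℝ := (Fintype.card (Half (Pos k)) : ℝ)

/-- The law on the parameters. -/
def qSg (μ : (C ≃ Pos (k + 1)) → ℝ) : Sg C → ℝ :=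
  fun x => (bN k)⁻¹ * push (fun c : ↥x.1.1 ≃ {a // a ∉ x.1.1} => row c x.2.1) (nuA μ x.1) x.2.2

/-- The map to pairs of rows. -/
def psiSg : Sg C → Half C × Half C :=
  fun x => (x.1, joinHalf x.1 (hCompl x.2.1) x.2.2)

lemma psiSg_injective : Function.Injective (psiSg : Sg C → Half C × Half C) := by
  rintro ⟨A, E, Z⟩ ⟨A', E', Z'⟩ h
  have h1 : A = A' := (Prod.ext_iff.1 h).1
  subst h1
  have h2 : joinHalf A (hCompl E) Z = joinHalf A (hCompl E') Z' := (Prod.ext_iff.1 h).2
  have h3 := joinHalf_injective A (a₁ := (hCompl E, Z)) (a₂ := (hCompl E', Z')) h2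
  have h4 : hCompl E = hCompl E' := (Prod.ext_iff.1 h3).1
  have h5 : Z = Z' := (Prod.ext_iff.1 h3).2
  have h6 := hCompl_injective h4
  subst h6
  subst h5
  rfl

lemma card_half_equiv {X Y : Type} [Fintype X] [Fintype Y] [DecidableEq X] [DecidableEq Y] (c : X ≃ Y) :
    Fintype.card (Half X) = Fintype.card (Half Y) :=
  Fintype.card_congr (rowEquiv c)

/-- Both descriptions of the joint law agree. -/
theorem F2_eq_push (μ : (C ≃ Pos (k + 1)) → ℝ) (hC : Fintype.card C = 2 ^ (k + 1)) :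
    F2 μ = push psiSg (qSg μ) := by
  apply eq_of_sum_mul
  intro φ
  rw [sum_F2_mul, ← sum_mul_push psiSg (qSg μ) φ]
  -- left side
  have hL : avg (fun τ : Half (Pos k) => ∑ g, μ g * φ (rowA g, secondRow τ g))
      = ∑ A : Half C, ∑ e : Dec k A, μ (assemble A e) * avg (fun τ : Half (Pos k) =>
          φ (A, joinHalf A (hCompl (row e.1.symm τ)) (row (cOf A e) (row e.1.symm τ)))) := by
    unfold avg
    have h1 : ∀ τ : Half (Pos k), ∑ g, μ g * φ (rowA g, secondRow τ g)
        = ∑ A : Half C, ∑ e : Dec k A, μ (assemble A e) *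
          φ (A, joinHalf A (hCompl (row e.1.symm τ)) (row (cOf A e) (row e.1.symm τ))) := by
      intro τ
      rw [sum_assemble]
      refine Finset.sum_congr rfl fun A _ => Finset.sum_congr rfl fun e _ => ?_
      rw [rowA_assemble, secondRow_assemble]
    simp_rw [h1]
    rw [Finset.sum_comm, Finset.sum_div]
    refine Finset.sum_congr rfl fun A _ => ?_
    rw [Finset.sum_comm, Finset.sum_div]
    refine Finset.sum_congr rfl fun e _ => ?_
    rw [← Finset.mul_sum, mul_div_assoc]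
  rw [hL]
  -- right side
  rw [Fintype.sum_sigma]
  refine Finset.sum_congr rfl fun A _ => ?_
  -- fixed A
  have hcA : Fintype.card (Half ↥A.1) = Fintype.card (Half (Pos k)) := by
    have h1 := card_half_part_pow hC A
    exact card_half_equiv (Fintype.equivOfCardEq (by rw [h1, card_Pos]))
  have h2 : ∀ e : Dec k A, avg (fun τ : Half (Pos k) =>
        φ (A, joinHalf A (hCompl (row e.1.symm τ)) (row (cOf A e) (row e.1.symm τ))))
      = (bN k)⁻¹ * ∑ E : Half ↥A.1, φ (A, joinHalf A (hCompl E) (row (cOf A e) E)) := by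
    intro e
    unfold avg bN
    rw [div_eq_inv_mul]
    congr 1
    exact Fintype.sum_equiv (rowEquiv e.1.symm) _ _ fun τ => rfl
  simp_rw [h2]
  -- push along cOf
  have h3 : ∑ e : Dec k A, μ (assemble A e) * ((bN k)⁻¹ * ∑ E : Half ↥A.1,
        φ (A, joinHalf A (hCompl E) (row (cOf A e) E)))
      = ∑ c : ↥A.1 ≃ {a // a ∉ A.1}, nuA μ A c * ((bN k)⁻¹ * ∑ E : Half ↥A.1,
        φ (A, joinHalf A (hCompl E) (row c E))) :=
    sum_mul_push (cOf A) (rhoA μ A)
      (fun c => (bN k)⁻¹ * ∑ E : Half ↥A.1, φ (A, joinHalf A (hCompl E) (row c E)))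
  rw [h3, Fintype.sum_prod_type]
  -- exchange
  have h4 : ∀ E : Half ↥A.1, ∑ Z : Half {a // a ∉ A.1},
        qSg μ ⟨A, (E, Z)⟩ * φ (psiSg ⟨A, (E, Z)⟩)
      = (bN k)⁻¹ * ∑ c : ↥A.1 ≃ {a // a ∉ A.1}, nuA μ A c * φ (A, joinHalf A (hCompl E) (row c E)) := by
    intro E
    have h5 := sum_mul_push (fun c : ↥A.1 ≃ {a // a ∉ A.1} => row c E) (nuA μ A)
      (fun Z => φ (A, joinHalf A (hCompl E) Z))
    rw [h5, Finset.mul_sum]
    refine Finset.sum_congr rfl fun Z _ => ?_
    simp only [qSg, psiSg]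
    ring
  simp_rw [h4]
  rw [← Finset.mul_sum, Finset.sum_comm, Finset.mul_sum]
  refine Finset.sum_congr rfl fun c _ => ?_
  rw [mul_left_comm, Finset.mul_sum]

lemma card_half_row (hC : Fintype.card C = 2 ^ (k + 1)) (A : Half C) :
    (Fintype.card (Half ↥A.1) : ℝ) = bN k := by
  have h1 := card_half_part_pow hC A
  unfold bN
  exact_mod_cast card_half_equiv (Fintype.equivOfCardEq (by rw [h1, card_Pos]))

lemma card_half_row' (hC : Fintype.card C = 2 ^ (k + 1)) (A : Half C) :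
    (Fintype.card (Half {a // a ∉ A.1}) : ℝ) = bN k := by
  have h1 := card_half_compl_pow hC A
  unfold bN
  exact_mod_cast card_half_equiv (Fintype.equivOfCardEq (by rw [h1, card_Pos]))

lemma bN_pos (hk : 1 ≤ k) : 0 < bN k := by
  haveI := pos_half_nonempty hk
  unfold bN
  exact_mod_cast Fintype.card_pos

/-- The entropy on a fixed row. -/
lemma fixed_row (hk : 1 ≤ k) (hC : Fintype.card C = 2 ^ (k + 1)) (μ : (C ≃ Pos (k + 1)) → ℝ) (A : Half C) :
    ∑ E : Half ↥A.1, ∑ Z : Half {a // a ∉ A.1},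
        negMulLog ((bN k)⁻¹ * push (fun c : ↥A.1 ≃ {a // a ∉ A.1} => row c E) (nuA μ A) Z)
      = 2 * (push rowA μ A * log (bN k)) + negMulLog (push rowA μ A) - xRow (nuA μ A) := by
  have hb := bN_pos hk
  set P := push rowA μ A with hP
  have hmass : mass (nuA μ A) = P := by
    unfold nuA
    rw [mass_push, mass_rhoA]
  have hZ : ∀ E : Half ↥A.1, ∑ Z : Half {a // a ∉ A.1},
        push (fun c : ↥A.1 ≃ {a // a ∉ A.1} => row c E) (nuA μ A) Z = P := by
    intro E
    have := mass_push (fun c : ↥A.1 ≃ {a // a ∉ A.1} => row c E) (nuA μ A)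
    rw [hmass] at this
    exact this
  have hneg : negMulLog (bN k)⁻¹ = (bN k)⁻¹ * log (bN k) := by
    unfold negMulLog
    rw [log_inv]
    ring
  have h1 : ∀ E : Half ↥A.1, ∑ Z : Half {a // a ∉ A.1},
        negMulLog ((bN k)⁻¹ * push (fun c : ↥A.1 ≃ {a // a ∉ A.1} => row c E) (nuA μ A) Z)
      = P * ((bN k)⁻¹ * log (bN k)) + (bN k)⁻¹ * ∑ Z : Half {a // a ∉ A.1},
          negMulLog (push (fun c : ↥A.1 ≃ {a // a ∉ A.1} => row c E) (nuA μ A) Z) := by
    intro E
    simp_rw [negMulLog_mul, hneg]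
    rw [Finset.sum_add_distrib, ← Finset.sum_mul, hZ, Finset.mul_sum]
  simp_rw [h1]
  rw [Finset.sum_add_distrib, Finset.sum_const, Finset.card_univ, nsmul_eq_mul, card_half_row hC A]
  -- xRow
  have hx : xRow (nuA μ A) = P * log (bN k) + negMulLog P
      - (bN k)⁻¹ * ∑ E : Half ↥A.1, ∑ Z : Half {a // a ∉ A.1},
          negMulLog (push (fun c : ↥A.1 ≃ {a // a ∉ A.1} => row c E) (nuA μ A) Z) := by
    unfold xRow
    have hD : ∀ E : Half ↥A.1, Dm (push (fun c : ↥A.1 ≃ {a // a ∉ A.1} => row c E) (nuA μ A))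
        = P * log (bN k) + negMulLog P - ∑ Z : Half {a // a ∉ A.1},
          negMulLog (push (fun c : ↥A.1 ≃ {a // a ∉ A.1} => row c E) (nuA μ A) Z) := by
      intro E
      unfold Dm DN hh
      rw [mass_push, hmass, card_half_row' hC A]
      ring
    simp_rw [hD]
    rw [Finset.sum_sub_distrib, Finset.sum_const, Finset.card_univ, nsmul_eq_mul, card_half_row hC A]
    field_simp
  rw [hx, ← Finset.mul_sum]
  have e : bN k * (P * ((bN k)⁻¹ * log (bN k))) = P * log (bN k) := by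
    field_simp
  rw [e]
  ring

/-- The entropy of the joint law of the two rows. -/
theorem hh_F2 (hk : 1 ≤ k) (hC : Fintype.card C = 2 ^ (k + 1)) (μ : (C ≃ Pos (k + 1)) → ℝ)
    (hμ1 : ∑ g, μ g = 1) :
    hh (F2 μ) = 2 * log (bN k) + hh (push rowA μ) - ∑ A : Half C, xRow (nuA μ A) := by
  have hF : ∑ A, push rowA μ A = 1 := by
    have := mass_push (rowA (C := C) (k := k)) μ
    unfold mass at this
    rw [this, hμ1]
  have h2 := sum_F2 hk μ hμ1
  rw [F2_eq_push μ hC] at h2 ⊢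
  have h3 : ∑ x, qSg μ x = 1 := by
    have := mass_push (psiSg (C := C)) (qSg μ)
    unfold mass at this
    rw [← this, h2]
  rw [hh_push_inj _ psiSg_injective, negMulLog_of_mass_one h3, negMulLog_of_mass_one hF,
    Fintype.sum_sigma]
  have h4 : ∀ A : Half C, ∑ p : Half ↥A.1 × Half {a // a ∉ A.1}, negMulLog (qSg μ ⟨A, p⟩)
      = 2 * (push rowA μ A * log (bN k)) + negMulLog (push rowA μ A) - xRow (nuA μ A) := by
    intro A
    rw [← fixed_row hk hC μ A, Fintype.sum_prod_type]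
    rfl
  simp_rw [h4]
  rw [Finset.sum_sub_distrib, Finset.sum_add_distrib, ← Finset.mul_sum, ← Finset.sum_mul, hF]
  ring

/-- The collision probability of the row. -/
def qTop (μ : (C ≃ Pos (k + 1)) → ℝ) : ℝ :=
  ∑ a : Half C × Half C with Orth a.1 a.2, push rowA μ a.1 * push rowA μ a.2

/-- The kernel of the top level. -/
def Wtop (g g' : C ≃ Pos (k + 1)) : ℝ :=
  hInv (2 ^ k) * avg (fun bb : (Pos k → Bool) × (Pos k → Bool) =>
    if Orth (rowA (g.trans (flipE bb.1))) (rowA (g'.trans (flipE bb.2))) then (1 : ℝ) else 0)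

lemma qTop_eq (μ : (C ≃ Pos (k + 1)) → ℝ) :
    qTop μ = ∑ g, ∑ g', μ g * μ g' * (if Orth (rowA g) (rowA g') then (1 : ℝ) else 0) := by
  unfold qTop
  rw [Finset.sum_filter, Fintype.sum_prod_type]
  have e1 : ∀ u : Half C, ∑ v : Half C, (if Orth u v then push rowA μ u * push rowA μ v else 0)
      = push rowA μ u * ∑ g', μ g' * (if Orth u (rowA g') then 1 else 0) := by
    intro u
    rw [sum_mul_push rowA μ (fun v => if Orth u v then (1 : ℝ) else 0), Finset.mul_sum]
    refine Finset.sum_congr rfl fun v _ => ?_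
    split_ifs <;> ring
  rw [Finset.sum_congr rfl fun u _ => e1 u]
  rw [← sum_mul_push rowA μ (fun u => ∑ g', μ g' * (if Orth u (rowA g') then (1 : ℝ) else 0))]
  refine Finset.sum_congr rfl fun g _ => ?_
  rw [Finset.mul_sum]
  refine Finset.sum_congr rfl fun g' _ => ?_
  ring

lemma sum_Wtop (μ : (C ≃ Pos (k + 1)) → ℝ) (hinv : FlipInv μ) :
    ∑ g, ∑ g', μ g * μ g' * Wtop g g' = hInv (2 ^ k) * qTop μ := by
  have hflip : ∀ b b' : Pos k → Bool,
      ∑ g, ∑ g', μ g * μ g' *
        (if Orth (rowA (g.trans (flipE b))) (rowA (g'.trans (flipE b'))) then (1 : ℝ) else 0)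
      = qTop μ := by
    intro b b'
    rw [qTop_eq]
    have h1 : ∀ g, ∑ g', μ g * μ g' *
        (if Orth (rowA (g.trans (flipE b))) (rowA (g'.trans (flipE b'))) then (1 : ℝ) else 0)
        = μ g * ∑ g', μ g' * (if Orth (rowA (g.trans (flipE b))) (rowA g') then (1 : ℝ) else 0) := by
      intro g
      rw [← sum_flip μ hinv b' (fun g' => if Orth (rowA (g.trans (flipE b))) (rowA g') then (1 : ℝ) else 0),
        Finset.mul_sum]
      refine Finset.sum_congr rfl fun g' _ => ?_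
      ring
    simp_rw [h1]
    rw [sum_flip μ hinv b (fun g => ∑ g', μ g' * (if Orth (rowA g) (rowA g') then (1 : ℝ) else 0))]
    refine Finset.sum_congr rfl fun g _ => ?_
    rw [Finset.mul_sum]
    refine Finset.sum_congr rfl fun g' _ => ?_
    ring
  unfold Wtop avg
  have h2 : ∀ g g', μ g * μ g' * (hInv (2 ^ k) * ((∑ bb : (Pos k → Bool) × (Pos k → Bool),
      (if Orth (rowA (g.trans (flipE bb.1))) (rowA (g'.trans (flipE bb.2))) then (1 : ℝ) else 0))
      / (Fintype.card ((Pos k → Bool) × (Pos k → Bool)) : ℝ)))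
      = (hInv (2 ^ k) / (Fintype.card ((Pos k → Bool) × (Pos k → Bool)) : ℝ)) *
        ∑ bb : (Pos k → Bool) × (Pos k → Bool), μ g * μ g' *
        (if Orth (rowA (g.trans (flipE bb.1))) (rowA (g'.trans (flipE bb.2))) then (1 : ℝ) else 0) := by
    intro g g'
    rw [← Finset.mul_sum]
    ring
  simp_rw [h2]
  have h3 : ∑ g, ∑ g', ∑ bb : (Pos k → Bool) × (Pos k → Bool), μ g * μ g' *
        (if Orth (rowA (g.trans (flipE bb.1))) (rowA (g'.trans (flipE bb.2))) then (1 : ℝ) else 0)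
      = (Fintype.card ((Pos k → Bool) × (Pos k → Bool)) : ℝ) * qTop μ := by
    rw [Finset.sum_congr rfl fun g _ => Finset.sum_comm]
    rw [Finset.sum_comm]
    rw [Finset.sum_congr rfl fun bb _ => hflip bb.1 bb.2]
    simp
  have h4 : ∑ g, ∑ g', (hInv (2 ^ k) / (Fintype.card ((Pos k → Bool) × (Pos k → Bool)) : ℝ)) *
        ∑ bb : (Pos k → Bool) × (Pos k → Bool), μ g * μ g' *
        (if Orth (rowA (g.trans (flipE bb.1))) (rowA (g'.trans (flipE bb.2))) then (1 : ℝ) else 0)
      = (hInv (2 ^ k) / (Fintype.card ((Pos k → Bool) × (Pos k → Bool)) : ℝ)) *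
        ∑ g, ∑ g', ∑ bb : (Pos k → Bool) × (Pos k → Bool), μ g * μ g' *
        (if Orth (rowA (g.trans (flipE bb.1))) (rowA (g'.trans (flipE bb.2))) then (1 : ℝ) else 0) := by
    rw [Finset.mul_sum]
    refine Finset.sum_congr rfl fun g _ => ?_
    rw [Finset.mul_sum]
  rw [h4, h3]
  have hN : (Fintype.card ((Pos k → Bool) × (Pos k → Bool)) : ℝ) ≠ 0 := by
    have : 0 < Fintype.card ((Pos k → Bool) × (Pos k → Bool)) := Fintype.card_pos
    positivity
  field_simp

lemma qTop_pos (hk : 1 ≤ k) (μ : (C ≃ Pos (k + 1)) → ℝ) (hμ : ∀ g, 0 ≤ μ g) (hμ1 : ∑ g, μ g = 1)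
    (hinv : FlipInv μ) : 0 < qTop μ := by
  obtain ⟨τ⟩ := pos_half_nonempty hk
  have hex : ∃ g, 0 < μ g := by
    by_contra hne
    push Not at hne
    have : ∑ c, μ c ≤ 0 := Finset.sum_nonpos fun c _ => hne c
    linarith
  obtain ⟨g, hg⟩ := hex
  have hF1 : μ g ≤ push rowA μ (rowA g) :=
    Finset.single_le_sum (f := μ) (fun a _ => hμ a) (Finset.mem_filter.2 ⟨Finset.mem_univ _, rfl⟩)
  have hF2 : μ g ≤ push rowA μ (secondRow τ g) := by
    have : μ (g.trans (flipE (coin τ))) ≤ push rowA μ (secondRow τ g) :=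
      Finset.single_le_sum (f := μ) (fun a _ => hμ a) (Finset.mem_filter.2 ⟨Finset.mem_univ _, rfl⟩)
    rwa [hinv] at this
  unfold qTop
  have hnn : ∀ a : Half C × Half C, 0 ≤ push rowA μ a.1 * push rowA μ a.2 := fun a =>
    mul_nonneg (push_nonneg _ hμ _) (push_nonneg _ hμ _)
  refine lt_of_lt_of_le ?_ (Finset.single_le_sum (f := fun a : Half C × Half C =>
    push rowA μ a.1 * push rowA μ a.2) (fun a _ => hnn a)
    (Finset.mem_filter.2 ⟨Finset.mem_univ (rowA g, secondRow τ g), orth_secondRow τ g⟩))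
  exact mul_pos (lt_of_lt_of_le hg hF1) (lt_of_lt_of_le hg hF2)

lemma hInv_eq (hk : 1 ≤ k) (hC : Fintype.card C = 2 ^ (k + 1)) :
    hInv (2 ^ k) = (Fintype.card (Half C) : ℝ) / (bN k) ^ 2 := by
  have hevC : Even (Fintype.card C) := by
    rw [hC, pow_succ]; exact ⟨2 ^ k, by ring⟩
  have hevP : Even (Fintype.card (Pos k)) := by
    rw [card_Pos]
    obtain ⟨i, rfl⟩ : ∃ i, k = i + 1 := ⟨k - 1, by omega⟩
    exact ⟨2 ^ i, by rw [pow_succ]; ring⟩
  unfold hInv bN
  rw [card_half hevC, card_half hevP, hC, card_Pos]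
  have h1 : 2 ^ (k + 1) = 2 * 2 ^ k := by ring
  have h2 : 2 * 2 ^ k / 2 = 2 ^ k := by simp
  rw [h1, h2]

/-- The top inequality: `x ≤ L2top + ζ_top`. -/
theorem top_ineq (hk : 1 ≤ k) (hC : Fintype.card C = 2 ^ (k + 1)) (μ : (C ≃ Pos (k + 1)) → ℝ)
    (hμ : ∀ g, 0 ≤ μ g) (hμ1 : ∑ g, μ g = 1) (hinv : FlipInv μ) :
    Dm (push rowA μ) ≤ (∑ A : Half C, xRow (nuA μ A))
      + log (∑ g, ∑ g', μ g * μ g' * Wtop g g') := by
  have hb := bN_pos hk
  have hq := qTop_pos hk μ hμ hμ1 hinv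
  have hF : ∑ A, push rowA μ A = 1 := by
    have := mass_push (rowA (C := C) (k := k)) μ
    unfold mass at this
    rw [this, hμ1]
  have hm : mass (push rowA μ) = 1 := hF
  have hmi := mutual_info_ge (F2 μ) (F2_nonneg μ hμ) (sum_F2 hk μ hμ1)
    (fun a => Orth a.1 a.2) (F2_support μ)
  rw [push_fst_F2 hk μ, push_snd_F2 hk μ hinv] at hmi
  change - log (qTop μ) ≤ _ at hmi
  rw [hh_F2 hk hC μ hμ1] at hmi
  rw [sum_Wtop μ hinv, hInv_eq hk hC]
  have hev : Even (Fintype.card C) := by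
    rw [hC, pow_succ]; exact ⟨2 ^ k, by ring⟩
  have hN : (0 : ℝ) < Fintype.card (Half C) := by exact_mod_cast card_half_pos hev
  rw [log_mul (by positivity) hq.ne', log_div hN.ne' (by positivity), log_pow]
  have hD : Dm (push rowA μ) = log (Fintype.card (Half C)) - hh (push rowA μ) := by
    unfold Dm DN
    rw [hm, one_mul]
  rw [hD]
  push_cast
  linarith

end P162
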