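import Vale.Agent.Lib.P162.TopB
import Vale.Agent.Lib.P162.BinomTop

/-!
# P162: the kernel of the top level: symmetry, mean and pointwise bound, and the collision bound.
-/

open Finset BigOperators Real

set_option linter.unusedSectionVars false

noncomputable section

namespace P162

/-! ### Counting coin vectors -/

section Count
variable {U : Type} [Fintype U] [DecidableEq U]

/-- Coin vectors agreeing with `s` on exactly the points `T` of `S`. -/
lemma card_fibre_agree (S T : Finset U) (s : U → Bool) (hT : T ⊆ S) :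
    ((univ : Finset (U → Bool)).filter fun b => (S.filter fun u => b u = s u) = T).card * 2 ^ S.card
      = 2 ^ Fintype.card U := by
  have h1 : ((univ : Finset (U → Bool)).filter fun b => (S.filter fun u => b u = s u) = T)
      = Fintype.piFinset (fun u => if u ∈ S then {if u ∈ T then s u else !s u} else univ) := by
    ext b
    simp only [Finset.mem_filter, Finset.mem_univ, true_and, Fintype.mem_piFinset]
    constructor
    · intro h u
      by_cases hu : u ∈ S
      · rw [if_pos hu, Finset.mem_singleton]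
        by_cases huT : u ∈ T
        · rw [if_pos huT]
          rw [← h] at huT
          exact (Finset.mem_filter.1 huT).2
        · rw [if_neg huT]
          rw [← h] at huT
          have : b u ≠ s u := fun e => huT (Finset.mem_filter.2 ⟨hu, e⟩)
          cases hb : b u <;> cases hs : s u <;> simp_all
      · rw [if_neg hu]
        exact Finset.mem_univ _
    · intro h
      ext u
      simp only [Finset.mem_filter]
      constructor
      · rintro ⟨hu, he⟩
        by_contra huT
        have := h u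
        rw [if_pos hu, Finset.mem_singleton, if_neg huT, he] at this
        simp at this
      · intro huT
        have hu := hT huT
        have := h u
        rw [if_pos hu, Finset.mem_singleton, if_pos huT] at this
        exact ⟨hu, this⟩
  rw [h1, Fintype.card_piFinset]
  have h2 : ∀ u, (if u ∈ S then ({if u ∈ T then s u else !s u} : Finset Bool) else univ).card
      = if u ∈ S then 1 else 2 := by
    intro u
    split_ifs <;> simp
  simp_rw [h2]
  rw [Finset.prod_ite, Finset.prod_const_one, one_mul, Finset.prod_const, ← pow_add]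
  congr 1
  have h3 : (univ.filter fun u => ¬ u ∈ S).card + (univ.filter fun u => u ∈ S).card = Fintype.card U := by
    rw [← Finset.card_univ, add_comm]
    exact Finset.card_filter_add_card_filter_not _
  have h4 : (univ.filter fun u => u ∈ S) = S := by
    ext u; simp
  rw [h4] at h3
  exact h3

/-- The number of coin vectors agreeing with `s` in exactly `t` points of `S`. -/
lemma card_agree (S : Finset U) (s : U → Bool) (t : ℕ) :
    ((univ : Finset (U → Bool)).filter fun b => (S.filter fun u => b u = s u).card = t).card * 2 ^ S.card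
      = S.card.choose t * 2 ^ Fintype.card U := by
  have h1 : ((univ : Finset (U → Bool)).filter fun b => (S.filter fun u => b u = s u).card = t).card
      = ∑ T ∈ S.powersetCard t,
        ((univ : Finset (U → Bool)).filter fun b => (S.filter fun u => b u = s u) = T).card := by
    rw [Finset.card_eq_sum_card_fiberwise (f := fun b => S.filter fun u => b u = s u)
      (t := S.powersetCard t)]
    · refine Finset.sum_congr rfl fun T hT => ?_
      congr 1
      ext b
      simp only [Finset.mem_filter, Finset.mem_univ, true_and, and_iff_right_iff_imp]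
      intro h
      rw [h]
      exact (Finset.mem_powersetCard.1 hT).2
    · intro b hb
      have hb' := (Finset.mem_filter.1 hb).2
      exact Finset.mem_coe.2 (Finset.mem_powersetCard.2 ⟨Finset.filter_subset _ _, hb'⟩)
  rw [h1, Finset.sum_mul]
  have h2 : ∀ T ∈ S.powersetCard t,
      ((univ : Finset (U → Bool)).filter fun b => (S.filter fun u => b u = s u) = T).card * 2 ^ S.card
        = 2 ^ Fintype.card U := fun T hT =>
    card_fibre_agree S T s (Finset.mem_powersetCard.1 hT).1
  rw [Finset.sum_congr rfl h2, Finset.sum_const, Finset.card_powersetCard, smul_eq_mul]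

end Count

/-! ### Second moment -/

section Moment
variable {U V : Type} [Fintype U] [Fintype V] [DecidableEq U] [DecidableEq V]

/-- The sign of a pair of points. -/
def ySign (p q : U → V) (α β : U → Bool) (b : V → Bool) (u : U) : ℝ :=
  if xor (α u) (b (p u)) ≠ xor (β u) (b (q u)) then 1 else -1

/-- The involution flipping a coordinate. -/
def flipAt (x : V) : Equiv.Perm (V → Bool) :=
  Function.Involutive.toPerm (fun b => Function.update b x (!b x)) (by
    intro b
    funext v
    by_cases hv : v = x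
    · subst hv; simp
    · simp [Function.update_of_ne hv])

lemma flipAt_apply_ne (x : V) (b : V → Bool) {v : V} (hv : v ≠ x) : flipAt x b v = b v := by
  show Function.update b x (!b x) v = b v
  exact Function.update_of_ne hv _ _

lemma flipAt_apply_eq (x : V) (b : V → Bool) : flipAt x b x = !b x := by
  show Function.update b x (!b x) x = !b x
  exact Function.update_self _ _ _

lemma ySign_sq (p q : U → V) (α β : U → Bool) (b : V → Bool) (u : U) :
    |ySign p q α β b u| = 1 := by
  unfold ySign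
  split_ifs <;> simp

lemma sum_ySign_mul_eq_zero (p q : U → V) (α β : U → Bool) (u w : U) (hw : p w ≠ q w)
    (hR : ¬ ((p w = p u ∨ p w = q u) ∧ (q w = p u ∨ q w = q u))) :
    ∑ b : V → Bool, ySign p q α β b u * ySign p q α β b w = 0 := by
  have hex : ∃ x, x ≠ p u ∧ x ≠ q u ∧ ((p w = x ∧ q w ≠ x) ∨ (q w = x ∧ p w ≠ x)) := by
    by_cases h1 : p w = p u ∨ p w = q u
    · have h2 : ¬ (q w = p u ∨ q w = q u) := fun h => hR ⟨h1, h⟩
      push Not at h2
      exact ⟨q w, h2.1, h2.2, Or.inr ⟨rfl, hw⟩⟩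
    · push Not at h1
      exact ⟨p w, h1.1, h1.2, Or.inl ⟨rfl, hw.symm⟩⟩
  obtain ⟨x, hx1, hx2, hx3⟩ := hex
  have hflipu : ∀ b, ySign p q α β (flipAt x b) u = ySign p q α β b u := by
    intro b
    unfold ySign
    rw [flipAt_apply_ne x b hx1.symm, flipAt_apply_ne x b hx2.symm]
  have hflipw : ∀ b, ySign p q α β (flipAt x b) w = - ySign p q α β b w := by
    intro b
    unfold ySign
    rcases hx3 with ⟨h1, h2⟩ | ⟨h1, h2⟩
    · rw [h1, flipAt_apply_eq x b, flipAt_apply_ne x b h2]
      cases α w <;> cases β w <;> cases b x <;> cases b (q w) <;> simp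
    · rw [h1, flipAt_apply_eq x b, flipAt_apply_ne x b h2]
      cases α w <;> cases β w <;> cases b x <;> cases b (p w) <;> simp
  have h := Equiv.sum_comp (flipAt x) (fun b : V → Bool => ySign p q α β b u * ySign p q α β b w)
  have h2 : ∑ b : V → Bool, ySign p q α β (flipAt x b) u * ySign p q α β (flipAt x b) w
      = - ∑ b : V → Bool, ySign p q α β b u * ySign p q α β b w := by
    rw [← Finset.sum_neg_distrib]
    refine Finset.sum_congr rfl fun b _ => ?_
    rw [hflipu, hflipw]
    ring
  rw [h2] at h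
  linarith

/-- The second moment of a sum of signs. -/
lemma second_moment (p q : U → V) (α β : U → Bool) (N : Finset U) (hN : ∀ u ∈ N, p u ≠ q u)
    (hcount : ∀ u, ((univ : Finset U).filter
      fun w => (p w = p u ∨ p w = q u) ∧ (q w = p u ∨ q w = q u)).card ≤ 2) :
    ∑ b : V → Bool, (∑ u ∈ N, ySign p q α β b u) ^ 2
      ≤ 2 * (N.card : ℝ) * (Fintype.card (V → Bool) : ℝ) := by
  have h1 : ∀ b : V → Bool, (∑ u ∈ N, ySign p q α β b u) ^ 2
      = ∑ u ∈ N, ∑ w ∈ N, ySign p q α β b u * ySign p q α β b w := by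
    intro b
    rw [sq, Finset.sum_mul_sum]
  simp_rw [h1]
  rw [Finset.sum_comm]
  have h2 : ∀ u ∈ N, ∑ b : V → Bool, ∑ w ∈ N, ySign p q α β b u * ySign p q α β b w
      ≤ 2 * (Fintype.card (V → Bool) : ℝ) := by
    intro u _
    rw [Finset.sum_comm]
    have h3 : ∀ w ∈ N, ∑ b : V → Bool, ySign p q α β b u * ySign p q α β b w
        ≤ (if (p w = p u ∨ p w = q u) ∧ (q w = p u ∨ q w = q u) then
            (Fintype.card (V → Bool) : ℝ) else 0) := by
      intro w hw
      split_ifs with hR
      · calc ∑ b : V → Bool, ySign p q α β b u * ySign p q α β b w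
            ≤ ∑ _b : V → Bool, (1 : ℝ) := by
              refine Finset.sum_le_sum fun b _ => ?_
              have := abs_le.1 (le_of_eq (show |ySign p q α β b u * ySign p q α β b w| = 1 by
                rw [abs_mul, ySign_sq, ySign_sq, one_mul]))
              exact this.2
          _ = (Fintype.card (V → Bool) : ℝ) := by
              simp
      · exact le_of_eq (sum_ySign_mul_eq_zero p q α β u w (hN w hw) hR)
    refine (Finset.sum_le_sum h3).trans ?_
    have hc : (0 : ℝ) ≤ (Fintype.card (V → Bool) : ℝ) := Nat.cast_nonneg _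
    have h4 : ∑ w ∈ N, (if (p w = p u ∨ p w = q u) ∧ (q w = p u ∨ q w = q u) then
            (Fintype.card (V → Bool) : ℝ) else 0)
        ≤ ∑ w, (if (p w = p u ∨ p w = q u) ∧ (q w = p u ∨ q w = q u) then
            (Fintype.card (V → Bool) : ℝ) else 0) := by
      refine Finset.sum_le_sum_of_subset_of_nonneg (Finset.subset_univ _) fun w _ _ => ?_
      split_ifs <;> simp
    refine h4.trans ?_
    rw [← Finset.sum_filter, Finset.sum_const, nsmul_eq_mul]
    have h5 : (((univ : Finset U).filter
      fun w => (p w = p u ∨ p w = q u) ∧ (q w = p u ∨ q w = q u)).card : ℝ) ≤ 2 := by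
      exact_mod_cast hcount u
    exact mul_le_mul_of_nonneg_right h5 hc
  refine (Finset.sum_le_sum h2).trans ?_
  rw [Finset.sum_const, nsmul_eq_mul]
  exact le_of_eq (by ring)

end Moment

/-! ### The pairs of `g` split by a half set -/

variable {C : Type} [Fintype C] [DecidableEq C] {k : ℕ}

/-- Is the card in place `(i,u)` of `g` in `A'`? -/
def inA (g : C ≃ Pos (k + 1)) (A' : Half C) (i : Bool) (u : Pos k) : Bool :=
  decide (g.symm (i, u) ∈ A'.1)

/-- The pairs of `g` split by `A'`. -/
def splitSet (g : C ≃ Pos (k + 1)) (A' : Half C) : Finset (Pos k) :=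
  univ.filter fun u => inA g A' false u ≠ inA g A' true u

lemma sum_Pos_succ (h : Pos (k + 1) → ℕ) :
    ∑ x : Pos (k + 1), h x = ∑ u : Pos k, (h (false, u) + h (true, u)) := by
  refine (Fintype.sum_prod_type_right (α₁ := Bool) (α₂ := Pos k) (f := h)).trans ?_
  refine Finset.sum_congr rfl fun u _ => ?_
  rw [Fintype.sum_bool, add_comm]

/-- `|A'|` in terms of the pairs. -/
lemma card_half_pairs (g : C ≃ Pos (k + 1)) (A' : Half C) :
    A'.1.card = ∑ u : Pos k, ((if inA g A' false u = true then 1 else 0)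
      + (if inA g A' true u = true then 1 else 0)) := by
  have h1 : A'.1.card = ∑ a : C, if a ∈ A'.1 then 1 else 0 := by
    rw [Finset.card_eq_sum_ones, ← Finset.sum_filter]
    congr 1
    ext a; simp
  rw [h1, ← Equiv.sum_comp g.symm, sum_Pos_succ]
  refine Finset.sum_congr rfl fun u _ => ?_
  simp [inA]

/-- `|row ∩ A'|` in terms of the pairs. -/
lemma card_row_inter (g : C ≃ Pos (k + 1)) (A' : Half C) (b : Pos k → Bool) :
    ((rowA (g.trans (flipE b))).1 ∩ A'.1).card = ∑ u : Pos k, if inA g A' (b u) u = true then 1 else 0 := by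
  have h0 : ∀ a, a ∈ (rowA (g.trans (flipE b))).1 ↔ (g a).1 = b (g a).2 := by
    intro a
    rw [mem_rowA]
    show xor (g a).1 (b (g a).2) = false ↔ _
    cases (g a).1 <;> cases b (g a).2 <;> simp
  rw [← Finset.card_filter]
  refine Finset.card_bij (fun a _ => (g a).2) ?_ ?_ ?_
  · intro a ha
    have ha1 := (h0 a).1 (Finset.mem_inter.1 ha).1
    have ha2 := (Finset.mem_inter.1 ha).2
    refine Finset.mem_filter.2 ⟨Finset.mem_univ _, ?_⟩
    have e : g.symm (b (g a).2, (g a).2) = a := by
      rw [← ha1]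
      exact g.symm_apply_apply a
    simp only [inA, decide_eq_true_eq]
    rw [e]
    exact ha2
  · intro a ha a' ha' e
    have ha1 := (h0 a).1 (Finset.mem_inter.1 ha).1
    have ha1' := (h0 a').1 (Finset.mem_inter.1 ha').1
    apply g.injective
    refine Prod.ext ?_ e
    rw [ha1, ha1']
    exact congrArg b e
  · intro u hu
    have hu' := (Finset.mem_filter.1 hu).2
    simp only [inA, decide_eq_true_eq] at hu'
    refine ⟨g.symm (b u, u), Finset.mem_inter.2 ⟨(h0 _).2 ?_, hu'⟩, ?_⟩
    · rw [apply_symm_fst g (b u, u), apply_symm_snd g (b u, u)]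
    · exact apply_symm_snd g (b u, u)

/-- Orthogonality in terms of the agreement count. -/
lemma orth_row_iff (hC : Fintype.card C = 2 ^ (k + 1)) (g : C ≃ Pos (k + 1)) (A' : Half C)
    (b : Pos k → Bool) :
    Orth (rowA (g.trans (flipE b))) A' ↔
      2 * ((splitSet g A').filter fun u => b u = inA g A' true u).card = (splitSet g A').card := by
  unfold Orth
  rw [card_row_inter g A' b]
  have hA := A'.2
  rw [card_half_pairs g A', hC] at hA
  set n₂ : ℕ := ∑ u : Pos k, if inA g A' false u = true ∧ inA g A' true u = true then 1 else 0 with hn₂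
  have h1 : ∑ u : Pos k, ((if inA g A' false u = true then 1 else 0)
      + (if inA g A' true u = true then 1 else 0)) = 2 * n₂ + (splitSet g A').card := by
    unfold splitSet
    rw [Finset.card_filter, hn₂, Finset.mul_sum, ← Finset.sum_add_distrib]
    refine Finset.sum_congr rfl fun u _ => ?_
    cases inA g A' false u <;> cases inA g A' true u <;> simp
  have h2 : ∑ u : Pos k, (if inA g A' (b u) u = true then 1 else 0)
      = n₂ + ((splitSet g A').filter fun u => b u = inA g A' true u).card := by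
    unfold splitSet
    rw [Finset.filter_filter, Finset.card_filter, hn₂, ← Finset.sum_add_distrib]
    refine Finset.sum_congr rfl fun u _ => ?_
    cases hb : b u <;> cases inA g A' false u <;> cases inA g A' true u <;> simp
  rw [h1] at hA
  rw [h2, hC]
  rw [pow_succ] at hA ⊢
  constructor <;> intro h <;> omega

/-- The probability that a random transversal of the pairs of `g` is orthogonal to `A'`. -/
lemma avg_orth_row (hk : 1 ≤ k) (hC : Fintype.card C = 2 ^ (k + 1)) (g : C ≃ Pos (k + 1)) (A' : Half C) :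
    (∑ b : Pos k → Bool, if Orth (rowA (g.trans (flipE b))) A' then (1 : ℝ) else 0)
        / (Fintype.card (Pos k → Bool) : ℝ) = cb (splitSet g A').card := by
  have hA := A'.2
  rw [card_half_pairs g A', hC] at hA
  set n₂ : ℕ := ∑ u : Pos k, if inA g A' false u = true ∧ inA g A' true u = true then 1 else 0 with hn₂
  have h1 : ∑ u : Pos k, ((if inA g A' false u = true then 1 else 0)
      + (if inA g A' true u = true then 1 else 0)) = 2 * n₂ + (splitSet g A').card := by
    unfold splitSet
    rw [Finset.card_filter, hn₂, Finset.mul_sum, ← Finset.sum_add_distrib]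
    refine Finset.sum_congr rfl fun u _ => ?_
    cases inA g A' false u <;> cases inA g A' true u <;> simp
  rw [h1] at hA
  obtain ⟨i, rfl⟩ : ∃ i, k = i + 1 := ⟨k - 1, by omega⟩
  obtain ⟨t, ht⟩ : ∃ t, (splitSet g A').card = 2 * t := by
    refine ⟨(splitSet g A').card / 2, ?_⟩
    have e : 2 ^ (i + 1 + 1) = 4 * 2 ^ i := by ring
    omega
  have hdiv : (splitSet g A').card / 2 = t := by omega
  have hcount := card_agree (splitSet g A') (inA g A' true) t
  have h3 : ∑ b : Pos (i + 1) → Bool, (if Orth (rowA (g.trans (flipE b))) A' then (1 : ℝ) else 0)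
      = (((univ : Finset (Pos (i + 1) → Bool)).filter
        fun b => ((splitSet g A').filter fun u => b u = inA g A' true u).card = t).card : ℝ) := by
    rw [Finset.card_filter]
    push_cast
    refine Finset.sum_congr rfl fun b _ => ?_
    have hiff := orth_row_iff hC g A' b
    by_cases h : Orth (rowA (g.trans (flipE b))) A'
    · rw [if_pos h, if_pos]
      have := hiff.1 h
      omega
    · rw [if_neg h, if_neg]
      intro h'
      exact h (hiff.2 (by omega))
  rw [h3]
  unfold cb
  rw [hdiv, Fintype.card_fun, Fintype.card_bool]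
  have hc : ((((univ : Finset (Pos (i + 1) → Bool)).filter
        fun b => ((splitSet g A').filter fun u => b u = inA g A' true u).card = t).card * 2 ^ (splitSet g A').card : ℕ) : ℝ)
      = (((splitSet g A').card.choose t * 2 ^ Fintype.card (Pos (i + 1)) : ℕ) : ℝ) := by
    rw [hcount]
  push_cast at hc ⊢
  rw [div_eq_div_iff (by positivity) (by positivity)]
  linarith

/-! ### The second moment for a random `A'` -/

section Sec
variable (g g' : C ≃ Pos (k + 1))

/-- Second coordinates of the pair `u` of `g` read in `g'`. -/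
def sP : Pos k → Pos k := fun u => (g' (g.symm (false, u))).2
def sQ : Pos k → Pos k := fun u => (g' (g.symm (true, u))).2
def sA : Pos k → Bool := fun u => (g' (g.symm (false, u))).1
def sB : Pos k → Bool := fun u => (g' (g.symm (true, u))).1

lemma inA_flip (b' : Pos k → Bool) (i : Bool) (u : Pos k) :
    inA g (rowA (g'.trans (flipE b'))) i u
      = !(xor (g' (g.symm (i, u))).1 (b' (g' (g.symm (i, u))).2)) := by
  unfold inA
  have h := mem_rowA (g'.trans (flipE b')) (g.symm (i, u))
  by_cases hm : g.symm (i, u) ∈ (rowA (g'.trans (flipE b'))).1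
  · rw [decide_eq_true hm]
    have h2 := h.1 hm
    change xor (g' (g.symm (i, u))).1 (b' (g' (g.symm (i, u))).2) = false at h2
    rw [h2]; rfl
  · rw [decide_eq_false hm]
    have h2 : ¬ xor (g' (g.symm (i, u))).1 (b' (g' (g.symm (i, u))).2) = false := fun e => hm (h.2 e)
    simp only [Bool.not_eq_false] at h2
    rw [h2]; rfl

lemma splitSet_card (b' : Pos k → Bool) :
    ((splitSet g (rowA (g'.trans (flipE b')))).card : ℝ)
      = ∑ u : Pos k, (1 + ySign (sP g g') (sQ g g') (sA g g') (sB g g') b' u) / 2 := by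
  unfold splitSet
  rw [Finset.card_filter]
  push_cast
  refine Finset.sum_congr rfl fun u _ => ?_
  unfold ySign sP sQ sA sB
  rw [inA_flip, inA_flip]
  by_cases h : xor (g' (g.symm (false, u))).1 (b' (g' (g.symm (false, u))).2)
      = xor (g' (g.symm (true, u))).1 (b' (g' (g.symm (true, u))).2)
  · rw [h]
    simp
  · rw [if_pos, if_pos h]
    · norm_num
    · intro h'
      apply h
      simpa using h'

lemma pair_count (u : Pos k) :
    ((univ : Finset (Pos k)).filter
      fun w => (sP g g' w = sP g g' u ∨ sP g g' w = sQ g g' u)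
        ∧ (sQ g g' w = sP g g' u ∨ sQ g g' w = sQ g g' u)).card ≤ 2 := by
  set W := ((univ : Finset (Pos k)).filter
      fun w => (sP g g' w = sP g g' u ∨ sP g g' w = sQ g g' u)
        ∧ (sQ g g' w = sP g g' u ∨ sQ g g' w = sQ g g' u)) with hW
  have h1 : (W ×ˢ (univ : Finset Bool)).card
      ≤ ((univ : Finset Bool) ×ˢ ({sP g g' u, sQ g g' u} : Finset (Pos k))).card := by
    refine Finset.card_le_card_of_injOn (fun x => g' (g.symm (x.2, x.1))) ?_ ?_
    · rintro ⟨w, i⟩ hx
      have hw := (Finset.mem_filter.1 (Finset.mem_product.1 (Finset.mem_coe.1 hx)).1).2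
      refine Finset.mem_coe.2 (Finset.mem_product.2 ⟨Finset.mem_univ _, ?_⟩)
      simp only [Finset.mem_insert, Finset.mem_singleton]
      cases i
      · exact hw.1
      · exact hw.2
    · rintro ⟨w, i⟩ _ ⟨w', i'⟩ _ e
      have e2 := g.symm.injective (g'.injective e)
      have e3 : i = i' := congrArg Prod.fst e2
      have e4 : w = w' := congrArg Prod.snd e2
      rw [e3, e4]
  rw [Finset.card_product, Finset.card_product, Finset.card_univ, Fintype.card_bool] at h1
  have h2 : ({sP g g' u, sQ g g' u} : Finset (Pos k)).card ≤ 2 := Finset.card_le_two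
  omega

lemma pair_ne (u : Pos k) (h : sP g g' u = sQ g g' u) : sA g g' u ≠ sB g g' u := by
  intro e
  have : g' (g.symm (false, u)) = g' (g.symm (true, u)) := Prod.ext e h
  have h2 := g.symm.injective (g'.injective this)
  have h3 : false = true := congrArg Prod.fst h2
  exact absurd h3 (by simp)

/-- The hypothesis of `top_avg_le'`. -/
lemma top_second_moment :
    (∑ b' : Pos k → Bool, (max 0 (((2 ^ k : ℕ) : ℝ) / 2
        - ((splitSet g (rowA (g'.trans (flipE b')))).card : ℝ))) ^ 2)
      / (Fintype.card (Pos k → Bool) : ℝ) ≤ ((2 ^ k : ℕ) : ℝ) / 2 := by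
  set p := sP g g' with hp
  set q := sQ g g' with hq
  set α := sA g g' with hα
  set β := sB g g' with hβ
  set N : Finset (Pos k) := univ.filter fun u => p u ≠ q u with hN
  have hm := second_moment p q α β N (fun u hu => (Finset.mem_filter.1 hu).2) (fun u => pair_count g g' u)
  have hcardN : (N.card : ℝ) ≤ ((2 ^ k : ℕ) : ℝ) := by
    have : N.card ≤ 2 ^ k := by
      rw [← card_Pos k]
      exact Finset.card_le_univ _
    exact_mod_cast this
  have hΩ : (0 : ℝ) < (Fintype.card (Pos k → Bool) : ℝ) := by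
    have : 0 < Fintype.card (Pos k → Bool) := Fintype.card_pos
    exact_mod_cast this
  have hpoint : ∀ b' : Pos k → Bool, (max 0 (((2 ^ k : ℕ) : ℝ) / 2
        - ((splitSet g (rowA (g'.trans (flipE b')))).card : ℝ))) ^ 2
      ≤ (1 / 4) * (∑ u ∈ N, ySign p q α β b' u) ^ 2 := by
    intro b'
    rw [splitSet_card]
    have h1 : ∑ u : Pos k, (1 + ySign p q α β b' u) / 2
        = ((2 ^ k : ℕ) : ℝ) / 2 + (1 / 2) * ∑ u, ySign p q α β b' u := by
      have e : ((2 ^ k : ℕ) : ℝ) = ∑ _u : Pos k, (1 : ℝ) := by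
        rw [Finset.sum_const, Finset.card_univ, card_Pos]
        simp
      rw [e, Finset.mul_sum, Finset.sum_div, ← Finset.sum_add_distrib]
      refine Finset.sum_congr rfl fun u _ => ?_
      ring
    rw [h1]
    have h2 : ∑ u, ySign p q α β b' u
        = ∑ u ∈ N, ySign p q α β b' u + ∑ u ∈ univ.filter (fun u => ¬ p u ≠ q u), ySign p q α β b' u :=
      (Finset.sum_filter_add_sum_filter_not _ _ _).symm
    have h3 : 0 ≤ ∑ u ∈ univ.filter (fun u => ¬ p u ≠ q u), ySign p q α β b' u := by
      refine Finset.sum_nonneg fun u hu => ?_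
      have hu' : p u = q u := not_not.1 (Finset.mem_filter.1 hu).2
      have hne := pair_ne g g' u hu'
      unfold ySign
      rw [if_pos]
      · norm_num
      · rw [← hu']
        intro e
        apply hne
        cases hb : b' (p u) <;> simp_all
    set Y := ∑ u ∈ N, ySign p q α β b' u with hY
    set c := ∑ u ∈ univ.filter (fun u => ¬ p u ≠ q u), ySign p q α β b' u with hc
    have h4 : max 0 (((2 ^ k : ℕ) : ℝ) / 2 - (((2 ^ k : ℕ) : ℝ) / 2 + (1 / 2) * ∑ u, ySign p q α β b' u))
        ≤ (1 / 2) * |Y| := by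
      rw [h2]
      apply max_le (by positivity)
      have := neg_abs_le Y
      linarith
    have h5 : 0 ≤ max 0 (((2 ^ k : ℕ) : ℝ) / 2 - (((2 ^ k : ℕ) : ℝ) / 2 + (1 / 2) * ∑ u, ySign p q α β b' u)) :=
      le_max_left _ _
    have h6 := pow_le_pow_left₀ h5 h4 2
    have h7 : ((1 / 2) * |Y|) ^ 2 = (1 / 4) * Y ^ 2 := by
      rw [mul_pow, sq_abs]; norm_num
    rw [h7] at h6
    exact h6
  rw [div_le_iff₀ hΩ]
  calc ∑ b' : Pos k → Bool, (max 0 (((2 ^ k : ℕ) : ℝ) / 2
        - ((splitSet g (rowA (g'.trans (flipE b')))).card : ℝ))) ^ 2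
      ≤ ∑ b' : Pos k → Bool, (1 / 4) * (∑ u ∈ N, ySign p q α β b' u) ^ 2 :=
        Finset.sum_le_sum fun b' _ => hpoint b'
    _ = (1 / 4) * ∑ b' : Pos k → Bool, (∑ u ∈ N, ySign p q α β b' u) ^ 2 := by
        rw [Finset.mul_sum]
    _ ≤ (1 / 4) * (2 * (N.card : ℝ) * (Fintype.card (Pos k → Bool) : ℝ)) := by
        apply mul_le_mul_of_nonneg_left hm (by norm_num)
    _ ≤ ((2 ^ k : ℕ) : ℝ) / 2 * (Fintype.card (Pos k → Bool) : ℝ) := by
        have := mul_le_mul_of_nonneg_right hcardN hΩ.le
        nlinarith [this]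

end Sec

/-! ### The facts on `Wtop` -/

lemma hInv_nonneg' (N : ℕ) : 0 ≤ hInv N := by
  unfold hInv
  positivity

lemma Wtop_nonneg (g g' : C ≃ Pos (k + 1)) : 0 ≤ Wtop g g' := by
  unfold Wtop avg
  refine mul_nonneg (hInv_nonneg' _) (div_nonneg (Finset.sum_nonneg fun _ _ => ?_) (Nat.cast_nonneg _))
  split_ifs <;> norm_num

lemma Wtop_symm (g g' : C ≃ Pos (k + 1)) : Wtop g g' = Wtop g' g := by
  unfold Wtop avg
  congr 2
  refine Fintype.sum_equiv (Equiv.prodComm _ _) _ _ fun bb => ?_
  show (if Orth (rowA (g.trans (flipE bb.1))) (rowA (g'.trans (flipE bb.2))) then (1 : ℝ) else 0)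
    = if Orth (rowA (g'.trans (flipE bb.2))) (rowA (g.trans (flipE bb.1))) then (1 : ℝ) else 0
  by_cases h : Orth (rowA (g.trans (flipE bb.1))) (rowA (g'.trans (flipE bb.2)))
  · rw [if_pos h, if_pos ((orth_comm _ _).1 h)]
  · rw [if_neg h, if_neg (fun h' => h ((orth_comm _ _).1 h'))]

/-- The number of bijections with row orthogonal to a given half set. -/
lemma sum_orth_rowA (hk : 1 ≤ k) (hC : Fintype.card C = 2 ^ (k + 1)) (A : Half C) :
    ∑ g' : C ≃ Pos (k + 1), (if Orth A (rowA g') then (1 : ℝ) else 0)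
      = (((2 ^ k).factorial : ℕ) : ℝ) ^ 2 * (bN k) ^ 2 := by
  rw [sum_assemble]
  have h1 : ∀ A' : Half C, ∑ e : Dec k A', (if Orth A (rowA (assemble A' e)) then (1 : ℝ) else 0)
      = (((2 ^ k).factorial : ℕ) : ℝ) ^ 2 * (if Orth A A' then 1 else 0) := by
    intro A'
    simp_rw [rowA_assemble]
    rw [Finset.sum_const, Finset.card_univ, card_Dec hC A', nsmul_eq_mul]
    push_cast
    rfl
  rw [Finset.sum_congr rfl fun A' _ => h1 A', ← Finset.mul_sum]
  congr 1
  obtain ⟨i, rfl⟩ : ∃ i, k = i + 1 := ⟨k - 1, by omega⟩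
  have hX : Fintype.card C = 4 * 2 ^ i := by rw [hC]; ring
  have h2 := card_orth (2 ^ i) hX A
  rw [← Finset.sum_filter, Finset.sum_const, nsmul_eq_mul, mul_one, h2]
  unfold bN
  have hevP : Even (Fintype.card (Pos (i + 1))) := by
    rw [card_Pos]
    exact ⟨2 ^ i, by rw [pow_succ]; ring⟩
  rw [card_half hevP, card_Pos]
  have h3 : 2 ^ (i + 1) = 2 * 2 ^ i := by ring
  have h4 : 2 * 2 ^ i / 2 = 2 ^ i := by simp
  rw [h3, h4]
  push_cast
  rfl

lemma card_bij_half (hC : Fintype.card C = 2 ^ (k + 1)) :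
    (Fintype.card (C ≃ Pos (k + 1)) : ℝ)
      = (((2 ^ k).factorial : ℕ) : ℝ) ^ 2 * (Fintype.card (Half C) : ℝ) := by
  have h := sum_assemble (C := C) (k := k) (fun _ => (1 : ℝ))
  simp only [Finset.sum_const, Finset.card_univ, nsmul_eq_mul, mul_one] at h
  rw [h]
  have h1 : ∀ A : Half C, (Fintype.card (Dec k A) : ℝ) = (((2 ^ k).factorial : ℕ) : ℝ) ^ 2 := by
    intro A
    rw [card_Dec hC A]
    push_cast
    rfl
  rw [Finset.sum_congr rfl fun A _ => h1 A]
  simp only [Finset.sum_const, Finset.card_univ, nsmul_eq_mul]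
  ring

lemma Wtop_mean (hC : Fintype.card C = 2 ^ (k + 1)) (hk : 1 ≤ k) (g : C ≃ Pos (k + 1)) :
    ∑ g' : C ≃ Pos (k + 1), Wtop g g' = Fintype.card (C ≃ Pos (k + 1)) := by
  unfold Wtop avg
  rw [← Finset.mul_sum, ← Finset.sum_div, Finset.sum_comm]
  have h1 : ∀ bb : (Pos k → Bool) × (Pos k → Bool), ∑ g' : C ≃ Pos (k + 1),
      (if Orth (rowA (g.trans (flipE bb.1))) (rowA (g'.trans (flipE bb.2))) then (1 : ℝ) else 0)
      = (((2 ^ k).factorial : ℕ) : ℝ) ^ 2 * (bN k) ^ 2 := by
    intro bb
    rw [← sum_orth_rowA hk hC (rowA (g.trans (flipE bb.1)))]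
    exact Fintype.sum_equiv (Equiv.equivCongr (Equiv.refl C) (flipE bb.2)) _ _ fun g' => rfl
  rw [Finset.sum_congr rfl fun bb _ => h1 bb]
  have hN : (Fintype.card ((Pos k → Bool) × (Pos k → Bool)) : ℝ) ≠ 0 := by
    have : 0 < Fintype.card ((Pos k → Bool) × (Pos k → Bool)) := Fintype.card_pos
    positivity
  rw [Finset.sum_const, Finset.card_univ, nsmul_eq_mul, mul_div_cancel_left₀ _ hN,
    hInv_eq hk hC, card_bij_half hC]
  have hb := bN_pos hk
  field_simp

/-- Pointwise bound (variance of the number of pairs of `g` split by `A'`, `top_avg_le'`). -/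
theorem Wtop_le : ∃ K : ℝ, 0 < K ∧ ∃ k₀ : ℕ, ∀ k, k₀ ≤ k → ∀ (C : Type) [Fintype C] [DecidableEq C],
    Fintype.card C = 2 ^ (k + 1) → ∀ g g' : C ≃ Pos (k + 1),
    Wtop g g' ≤ 1 + K / sqrt ((2 : ℝ) ^ k) := by
  obtain ⟨K, m₀, hK, h⟩ := top_avg_le'
  obtain ⟨n, hn⟩ := exists_nat_ge m₀
  refine ⟨K, hK, n + 1, ?_⟩
  intro k hk C _ _ hC g g'
  have hk1 : 1 ≤ k := by omega
  have hm : m₀ ≤ ((2 ^ k : ℕ) : ℝ) := by
    refine hn.trans ?_
    have : n < 2 ^ k := lt_of_le_of_lt (by omega) (Nat.lt_two_pow_self (n := k))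
    exact_mod_cast this.le
  have hev : Even (2 ^ k) := by
    obtain ⟨i, rfl⟩ : ∃ i, k = i + 1 := ⟨k - 1, by omega⟩
    exact ⟨2 ^ i, by rw [pow_succ]; ring⟩
  have hmain := h (Pos k → Bool) (2 ^ k)
    (fun b' => (splitSet g (rowA (g'.trans (flipE b')))).card) hm hev (top_second_moment g g')
  have hW : Wtop g g' = hInv (2 ^ k) * ((∑ b' : Pos k → Bool,
      cb (splitSet g (rowA (g'.trans (flipE b')))).card) / (Fintype.card (Pos k → Bool) : ℝ)) := by
    unfold Wtop avg
    congr 1
    rw [Fintype.sum_prod_type_right, Fintype.card_prod]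
    have hΩ : (Fintype.card (Pos k → Bool) : ℝ) ≠ 0 := by
      have : 0 < Fintype.card (Pos k → Bool) := Fintype.card_pos
      positivity
    have h1 : ∀ b' : Pos k → Bool,
        cb (splitSet g (rowA (g'.trans (flipE b')))).card
        = (∑ b : Pos k → Bool, if Orth (rowA (g.trans (flipE b))) (rowA (g'.trans (flipE b'))) then (1 : ℝ) else 0)
          / (Fintype.card (Pos k → Bool) : ℝ) := fun b' =>
      (avg_orth_row hk1 hC g _).symm
    simp_rw [h1]
    rw [← Finset.sum_div]
    push_cast
    field_simp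
  rw [hW]
  have e : ((2 ^ k : ℕ) : ℝ) = (2 : ℝ) ^ k := by push_cast; rfl
  rw [← e]
  exact hmain

/-- Collision term at the top level is tiny. -/
theorem zeta_top : ∃ k₀ : ℕ, 1 ≤ k₀ ∧ ∀ k, k₀ ≤ k → ∀ (C : Type) [Fintype C] [DecidableEq C],
    Fintype.card C = 2 ^ (k + 1) → ∀ μ : (C ≃ Pos (k + 1)) → ℝ, (∀ g, 0 ≤ μ g) → ∑ g, μ g = 1 →
    log (∑ g, ∑ g', μ g * μ g' * Wtop g g') ≤ (1 / ((k : ℝ) + 1) ^ 4) * Dm μ := by
  obtain ⟨K, hK, k₁, hle⟩ := Wtop_le
  obtain ⟨k₂, hk₂, hidx⟩ := exists_index (83 * K + 1)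
  refine ⟨max (k₁ + 1) k₂, le_trans (by omega) (le_max_left _ _), ?_⟩
  intro k hk C _ _ hC μ hμ hμ1
  have hk1 : k₁ ≤ k := by
    have := le_max_left (k₁ + 1) k₂
    omega
  have hk2 : k₂ ≤ k := le_trans (le_max_right _ _) hk
  have hk0 : 1 ≤ k := by
    have := le_max_left (k₁ + 1) k₂
    omega
  haveI : Nonempty (C ≃ Pos (k + 1)) := by
    refine ⟨Fintype.equivOfCardEq ?_⟩
    rw [hC, card_Pos]
  have hs : 0 < sqrt ((2 : ℝ) ^ k) := sqrt_pos.2 (by positivity)
  have hmain := log_kernel_le_of_pointwise (G := C ≃ Pos (k + 1)) Wtop Wtop_symm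
    (fun g => Wtop_mean hC hk0 g) (K / sqrt ((2 : ℝ) ^ k)) (by positivity)
    (fun a b => hle k hk1 C hC a b) Wtop_nonneg μ hμ hμ1
  refine hmain.trans ?_
  have hD : 0 ≤ Dm μ := Dm_nonneg hμ
  apply mul_le_mul_of_nonneg_right _ hD
  have h1 := hidx k hk2
  have hs2 : sqrt (sqrt ((2 : ℝ) ^ (k - 1))) ≤ sqrt ((2 : ℝ) ^ k) := by
    apply sqrt_le_sqrt
    have h2 : sqrt ((2 : ℝ) ^ (k - 1)) ≤ (2 : ℝ) ^ (k - 1) := by
      have h3 : (1 : ℝ) ≤ (2 : ℝ) ^ (k - 1) := one_le_pow₀ (by norm_num)
      calc sqrt ((2 : ℝ) ^ (k - 1)) ≤ sqrt (((2 : ℝ) ^ (k - 1)) ^ 2) := by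
            apply sqrt_le_sqrt
            nlinarith
        _ = (2 : ℝ) ^ (k - 1) := sqrt_sq (by positivity)
    have h4 : (2 : ℝ) ^ (k - 1) ≤ (2 : ℝ) ^ k := pow_le_pow_right₀ (by norm_num) (by omega)
    exact h2.trans h4
  have hk4 : (0 : ℝ) < ((k : ℝ) + 1) ^ 4 := by positivity
  have hk5 : ((k : ℝ) + 1) ^ 4 ≤ ((k : ℝ) + 1) ^ 5 :=
    pow_le_pow_right₀ (by linarith [Nat.cast_nonneg (α := ℝ) k]) (by norm_num)
  have h6 : 83 * K * ((k : ℝ) + 1) ^ 4 ≤ sqrt ((2 : ℝ) ^ k) := by
    calc 83 * K * ((k : ℝ) + 1) ^ 4 ≤ (83 * K + 1) * ((k : ℝ) + 1) ^ 5 := by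
          have : 83 * K * ((k : ℝ) + 1) ^ 4 ≤ 83 * K * ((k : ℝ) + 1) ^ 5 :=
            mul_le_mul_of_nonneg_left hk5 (by positivity)
          have h7 : 0 ≤ ((k : ℝ) + 1) ^ 5 := by positivity
          linarith
      _ ≤ sqrt (sqrt ((2 : ℝ) ^ (k - 1))) := h1
      _ ≤ _ := hs2
  rw [show 83 * (K / sqrt ((2 : ℝ) ^ k)) = (83 * K) / sqrt ((2 : ℝ) ^ k) by ring,
    div_le_div_iff₀ hs hk4]
  linarith

end P162
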