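import Vale.Agent.Lib.P162.TopC

/-!
# P162: the crude bound for the top level (every fixed level), the constant `TopConst`.
-/

open Finset BigOperators Real

set_option linter.unusedSectionVars false

noncomputable section

namespace P162

section Analytic

variable {α : Type*} [Fintype α]

lemma sum_sq_le_sq_sum_abs (x : α → ℝ) : ∑ a, x a ^ 2 ≤ (∑ a, |x a|) ^ 2 := by
  set S := ∑ a, |x a| with hS
  have hS0 : 0 ≤ S := Finset.sum_nonneg fun _ _ => abs_nonneg _
  have h1 : ∀ a, x a ^ 2 ≤ |x a| * S := by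
    intro a
    have h2 : |x a| ≤ S := Finset.single_le_sum (f := fun a => |x a|) (fun _ _ => abs_nonneg _) (Finset.mem_univ a)
    have h3 : x a ^ 2 = |x a| * |x a| := by rw [← sq, sq_abs]
    rw [h3]
    exact mul_le_mul_of_nonneg_left h2 (abs_nonneg _)
  calc ∑ a, x a ^ 2 ≤ ∑ a, |x a| * S := Finset.sum_le_sum fun a _ => h1 a
    _ = S ^ 2 := by rw [← Finset.sum_mul, sq]

/-- Relative entropy is at most `N` times the square of the `ℓ¹` distance. -/
lemma Dm_le_chi [Nonempty α] {p : α → ℝ} (hp : ∀ a, 0 ≤ p a) (hp1 : ∑ a, p a = 1) :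
    Dm p ≤ (Fintype.card α : ℝ) * (∑ a, |p a - 1 / (Fintype.card α : ℝ)|) ^ 2 := by
  have hN : (0 : ℝ) < Fintype.card α := by exact_mod_cast Fintype.card_pos
  rw [Dm_eq_sum_phi hp hp1, div_le_iff₀ hN]
  have h1 : ∀ a, (let t := p a * Fintype.card α; t * log t - t + 1)
      ≤ (Fintype.card α : ℝ) ^ 2 * (p a - 1 / (Fintype.card α : ℝ)) ^ 2 := by
    intro a
    simp only
    have ht : 0 ≤ p a * Fintype.card α := mul_nonneg (hp a) hN.le
    have e : (Fintype.card α : ℝ) ^ 2 * (p a - 1 / (Fintype.card α : ℝ)) ^ 2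
        = (p a * Fintype.card α - 1) ^ 2 := by
      field_simp
    rw [e]
    set t := p a * (Fintype.card α : ℝ) with htdef
    rcases ht.eq_or_lt with h0 | h0
    · rw [← h0]; norm_num
    · have := Real.log_le_sub_one_of_pos h0
      nlinarith [mul_le_mul_of_nonneg_left this ht]
  calc ∑ a, (let t := p a * (Fintype.card α : ℝ); t * log t - t + 1)
      ≤ ∑ a, (Fintype.card α : ℝ) ^ 2 * (p a - 1 / (Fintype.card α : ℝ)) ^ 2 :=
        Finset.sum_le_sum fun a _ => h1 a
    _ = (Fintype.card α : ℝ) ^ 2 * ∑ a, (p a - 1 / (Fintype.card α : ℝ)) ^ 2 := by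
        rw [Finset.mul_sum]
    _ ≤ (Fintype.card α : ℝ) ^ 2 * (∑ a, |p a - 1 / (Fintype.card α : ℝ)|) ^ 2 :=
        mul_le_mul_of_nonneg_left (sum_sq_le_sq_sum_abs _) (by positivity)
    _ = _ := by ring

/-- Pinsker for a sub-probability. -/
lemma pinsker_mass [Nonempty α] {p : α → ℝ} (hp : ∀ a, 0 ≤ p a) {f : ℝ} (hf : ∑ a, p a = f)
    (hf1 : f ≤ 1) :
    (∑ a, |p a - f / (Fintype.card α : ℝ)|) ^ 2 ≤ 4 * Dm p := by
  have hf0 : 0 ≤ f := hf ▸ Finset.sum_nonneg fun a _ => hp a
  have hN : (0 : ℝ) < Fintype.card α := by exact_mod_cast Fintype.card_pos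
  rcases hf0.eq_or_lt with h0 | h0
  · subst h0
    have hz : ∀ a, p a = 0 := by
      intro a
      exact (Finset.sum_eq_zero_iff_of_nonneg fun a _ => hp a).1 hf a (Finset.mem_univ a)
    have h3 : ∑ a, |p a - 0 / (Fintype.card α : ℝ)| = 0 := by
      refine Finset.sum_eq_zero fun a _ => ?_
      rw [hz a]; simp
    rw [h3]
    have := Dm_nonneg hp
    norm_num
    linarith
  · set q : α → ℝ := fun a => f⁻¹ * p a with hq
    have hq0 : ∀ a, 0 ≤ q a := fun a => mul_nonneg (inv_nonneg.2 hf0) (hp a)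
    have hq1 : ∑ a, q a = 1 := by
      simp only [hq]
      rw [← Finset.mul_sum, hf]
      exact inv_mul_cancel₀ h0.ne'
    have hpq : p = fun a => f * q a := by
      funext a
      simp only [hq]
      field_simp
    have hP := pinsker_uniform hq0 hq1
    have hD : Dm p = f * Dm q := by
      rw [hpq]
      exact Dm_smul f q
    have hS : ∑ a, |p a - f / (Fintype.card α : ℝ)|
        = f * ∑ a, |q a - 1 / (Fintype.card α : ℝ)| := by
      rw [Finset.mul_sum]
      refine Finset.sum_congr rfl fun a _ => ?_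
      have e : p a - f / (Fintype.card α : ℝ) = f * (q a - 1 / (Fintype.card α : ℝ)) := by
        simp only [hq]
        field_simp
      rw [e, abs_mul, abs_of_pos h0]
    rw [hS, hD, mul_pow]
    have hDq : 0 ≤ Dm q := Dm_nonneg hq0
    have h5 : f ^ 2 * (∑ a, |q a - 1 / (Fintype.card α : ℝ)|) ^ 2 ≤ f ^ 2 * (4 * Dm q) :=
      mul_le_mul_of_nonneg_left hP (by positivity)
    have h6 : f ^ 2 * (4 * Dm q) ≤ 4 * (f * Dm q) := by
      have h7 : f ^ 2 ≤ f := by nlinarith
      nlinarith [mul_le_mul_of_nonneg_right h7 hDq]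
    linarith

/-- The abstract form of the crude bound: a row law which is a fixed point of a minorized
doubly stochastic kernel factored through the row data. -/
theorem crude_abstract {H : Type} [Fintype H] [Nonempty H] (E : H → Type) [∀ A, Fintype (E A)]
    [∀ A, Nonempty (E A)] (w : ∀ A, E A → H → ℝ) (hw0 : ∀ A e A', 0 ≤ w A e A')
    (hw1 : ∀ A e, ∑ A', w A e A' = 1) (a : ℝ) (ha : 0 < a)
    (hQ : ∀ A A', a ≤ (∑ e, w A e A') / (Fintype.card (E A) : ℝ))
    (hQU : ∀ A', ∑ A, (∑ e, w A e A') / (Fintype.card (E A) : ℝ) = 1)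
    (F : H → ℝ) (hF0 : ∀ A, 0 ≤ F A) (hF1 : ∑ A, F A = 1) (ρ : ∀ A, E A → ℝ)
    (hρ0 : ∀ A e, 0 ≤ ρ A e) (hρm : ∀ A, ∑ e, ρ A e = F A)
    (hFix : ∀ A', F A' = ∑ A, ∑ e, ρ A e * w A e A') :
    Dm F ≤ (4 / a ^ 2) * ∑ A, Dm (ρ A) := by
  have hN : (0 : ℝ) < Fintype.card H := by exact_mod_cast Fintype.card_pos
  set N : ℝ := (Fintype.card H : ℝ) with hNdef
  set n : H → ℝ := fun A => (Fintype.card (E A) : ℝ) with hn
  have hn0 : ∀ A, 0 < n A := fun A => by
    simp only [hn]
    exact_mod_cast Fintype.card_pos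
  set Q : H → H → ℝ := fun A A' => (∑ e, w A e A') / n A with hQdef
  have hQ1 : ∀ A, ∑ A', Q A A' = 1 := by
    intro A
    simp only [hQdef]
    rw [← Finset.sum_div, Finset.sum_comm]
    simp_rw [hw1]
    simp only [Finset.sum_const, Finset.card_univ, nsmul_eq_mul, mul_one]
    exact div_self (hn0 A).ne'
  set FQ : H → ℝ := fun A' => ∑ A, F A * Q A A' with hFQ
  set x : H → ℝ := fun A => ∑ e, |ρ A e - F A / n A| with hx
  have hx0 : ∀ A, 0 ≤ x A := fun A => Finset.sum_nonneg fun _ _ => abs_nonneg _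
  -- (a)
  have ha1 : ∑ A', |F A' - FQ A'| ≤ ∑ A, x A := by
    have h1 : ∀ A', F A' - FQ A' = ∑ A, ∑ e, (ρ A e - F A / n A) * w A e A' := by
      intro A'
      rw [hFix A']
      simp only [hFQ, hQdef]
      rw [← Finset.sum_sub_distrib]
      refine Finset.sum_congr rfl fun A _ => ?_
      simp_rw [sub_mul]
      rw [Finset.sum_sub_distrib]
      congr 1
      rw [← Finset.mul_sum]
      ring
    calc ∑ A', |F A' - FQ A'| ≤ ∑ A', ∑ A, ∑ e, |ρ A e - F A / n A| * w A e A' := by
          refine Finset.sum_le_sum fun A' _ => ?_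
          rw [h1]
          refine (Finset.abs_sum_le_sum_abs _ _).trans (Finset.sum_le_sum fun A _ => ?_)
          refine (Finset.abs_sum_le_sum_abs _ _).trans (Finset.sum_le_sum fun e _ => ?_)
          rw [abs_mul, abs_of_nonneg (hw0 A e A')]
      _ = ∑ A, ∑ e, |ρ A e - F A / n A| := by
          rw [Finset.sum_comm]
          refine Finset.sum_congr rfl fun A _ => ?_
          rw [Finset.sum_comm]
          refine Finset.sum_congr rfl fun e _ => ?_
          rw [← Finset.mul_sum, hw1, mul_one]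
      _ = ∑ A, x A := rfl
  -- (b)
  have hb : (∑ A, x A) ^ 2 ≤ N * (4 * ∑ A, Dm (ρ A)) := by
    have h1 : (∑ A, x A) ^ 2 ≤ N * ∑ A, x A ^ 2 := by
      have := sq_sum_le_card_mul_sum_sq (s := (univ : Finset H)) (f := x)
      simpa [hNdef, Finset.card_univ] using this
    refine h1.trans (mul_le_mul_of_nonneg_left ?_ hN.le)
    rw [Finset.mul_sum]
    refine Finset.sum_le_sum fun A _ => ?_
    have hFA : F A ≤ 1 := by
      rw [← hF1]
      exact Finset.single_le_sum (f := F) (fun A _ => hF0 A) (Finset.mem_univ A)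
    haveI : Nonempty (E A) := inferInstance
    exact pinsker_mass (hρ0 A) (hρm A) hFA
  -- (c)
  set h : H → ℝ := fun A => F A - 1 / N with hh'
  have hsum : ∑ A, h A = 0 := by
    simp only [hh']
    rw [Finset.sum_sub_distrib, hF1]
    simp only [Finset.sum_const, Finset.card_univ, nsmul_eq_mul]
    rw [← hNdef]
    field_simp
    norm_num
  have hc : ∑ A', |FQ A' - 1 / N| ≤ (1 - a * N) * ∑ A, |h A| := by
    have h1 : ∀ A', FQ A' - 1 / N = ∑ A, h A * (Q A A' - a) := by
      intro A'
      have e1 : ∑ A, Q A A' = 1 := hQU A'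
      calc FQ A' - 1 / N = FQ A' - (1 / N) * ∑ A, Q A A' := by rw [e1, mul_one]
        _ = ∑ A, h A * Q A A' := by
            simp only [hFQ, hh']
            rw [Finset.mul_sum, ← Finset.sum_sub_distrib]
            refine Finset.sum_congr rfl fun A _ => ?_
            ring
        _ = ∑ A, h A * Q A A' - a * ∑ A, h A := by rw [hsum]; ring
        _ = ∑ A, h A * (Q A A' - a) := by
            rw [Finset.mul_sum, ← Finset.sum_sub_distrib]
            refine Finset.sum_congr rfl fun A _ => ?_
            ring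
    calc ∑ A', |FQ A' - 1 / N| ≤ ∑ A', ∑ A, |h A| * (Q A A' - a) := by
          refine Finset.sum_le_sum fun A' _ => ?_
          rw [h1]
          refine (Finset.abs_sum_le_sum_abs _ _).trans (Finset.sum_le_sum fun A _ => ?_)
          rw [abs_mul, abs_of_nonneg (sub_nonneg.2 (hQ A A'))]
      _ = ∑ A, |h A| * (1 - a * N) := by
          rw [Finset.sum_comm]
          refine Finset.sum_congr rfl fun A _ => ?_
          rw [← Finset.mul_sum, Finset.sum_sub_distrib, hQ1]
          simp only [Finset.sum_const, Finset.card_univ, nsmul_eq_mul]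
          rw [← hNdef]
          ring
      _ = (1 - a * N) * ∑ A, |h A| := by
          rw [Finset.mul_sum]
          refine Finset.sum_congr rfl fun A _ => ?_
          ring
  -- (d)
  set L := ∑ A, |h A| with hL
  have hL0 : 0 ≤ L := Finset.sum_nonneg fun _ _ => abs_nonneg _
  set X := ∑ A, x A with hX
  have hX0 : 0 ≤ X := Finset.sum_nonneg fun A _ => hx0 A
  have hd : a * N * L ≤ X := by
    have h1 : L ≤ ∑ A', |F A' - FQ A'| + ∑ A', |FQ A' - 1 / N| := by
      rw [← Finset.sum_add_distrib]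
      refine Finset.sum_le_sum fun A' _ => ?_
      have : h A' = (F A' - FQ A') + (FQ A' - 1 / N) := by
        simp only [hh']
        ring
      rw [this]
      exact abs_add_le _ _
    linarith
  -- (e)
  have he : Dm F ≤ N * L ^ 2 := Dm_le_chi hF0 hF1
  have hsq : (a * N * L) ^ 2 ≤ X ^ 2 := pow_le_pow_left₀ (by positivity) hd 2
  have hD0 : 0 ≤ ∑ A, Dm (ρ A) := Finset.sum_nonneg fun A _ => Dm_nonneg (hρ0 A)
  have hfin : N * L ^ 2 ≤ (4 / a ^ 2) * ∑ A, Dm (ρ A) := by
    rw [div_mul_eq_mul_div, le_div_iff₀ (by positivity)]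
    have h2 : (N * L ^ 2 * a ^ 2) * N ≤ (4 * ∑ A, Dm (ρ A)) * N := by
      calc (N * L ^ 2 * a ^ 2) * N = (a * N * L) ^ 2 := by ring
        _ ≤ X ^ 2 := hsq
        _ ≤ N * (4 * ∑ A, Dm (ρ A)) := hb
        _ = _ := by ring
    exact le_of_mul_le_mul_right h2 hN
  exact he.trans hfin

end Analytic

variable {C : Type} [Fintype C] [DecidableEq C] {k : ℕ}

lemma exists_equiv_fiber {X Y I : Type} [Fintype X] [Fintype Y] [DecidableEq I]
    (f : X → I) (f' : Y → I)
    (h : ∀ i, (univ.filter fun x => f x = i).card = (univ.filter fun y => f' y = i).card) :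
    ∃ e : X ≃ Y, ∀ x, f' (e x) = f x := by
  refine ⟨Equiv.ofFiberEquiv (f := f) (g := f') (fun i => Fintype.equivOfCardEq ?_),
    fun x => Equiv.ofFiberEquiv_map _ x⟩
  rw [Fintype.card_subtype, Fintype.card_subtype]
  exact h i

/-- Any two half sets are related by a bijection and a flip. -/
lemma exists_flip_to (hC : Fintype.card C = 2 ^ (k + 1)) (A A' : Half C) :
    ∃ (g : C ≃ Pos (k + 1)) (b : Pos k → Bool), rowA g = A ∧ rowA (g.trans (flipE b)) = A' := by
  have hA : 2 * A.1.card = 2 ^ k * 2 := by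
    have := A.2
    rw [← pow_succ, ← hC]
    exact this
  have hA' : 2 * A'.1.card = 2 ^ k * 2 := by
    have := A'.2
    rw [← pow_succ, ← hC]
    exact this
  have hcA : A.1.card = 2 ^ k := by omega
  have hcA' : A'.1.card = 2 ^ k := by omega
  set t := (A.1 ∩ A'.1).card with ht
  have htle : t ≤ 2 ^ k := by
    rw [← hcA]
    exact Finset.card_le_card Finset.inter_subset_left
  obtain ⟨S, -, hS⟩ := Finset.exists_subset_card_eq
    (show t ≤ (univ : Finset (Pos k)).card by rw [Finset.card_univ, card_Pos]; exact htle)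
  -- counts on `C`
  set n₁₁ := (univ.filter fun a => a ∈ A.1 ∧ a ∈ A'.1).card with hn₁₁
  set n₁₀ := (univ.filter fun a => a ∈ A.1 ∧ a ∉ A'.1).card with hn₁₀
  set n₀₁ := (univ.filter fun a => a ∉ A.1 ∧ a ∈ A'.1).card with hn₀₁
  set n₀₀ := (univ.filter fun a => a ∉ A.1 ∧ a ∉ A'.1).card with hn₀₀
  have h11 : n₁₁ = t := by
    rw [hn₁₁, ht]
    congr 1
    ext a
    simp
  have h1 : n₁₁ + n₁₀ = 2 ^ k := by
    rw [← hcA, hn₁₁, hn₁₀, ← Finset.card_union_of_disjoint]
    · congr 1
      ext a
      simp only [Finset.mem_union, Finset.mem_filter, Finset.mem_univ, true_and]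
      tauto
    · rw [Finset.disjoint_left]
      intro a h1 h2
      exact (Finset.mem_filter.1 h2).2.2 (Finset.mem_filter.1 h1).2.2
  have h2 : n₁₁ + n₀₁ = 2 ^ k := by
    rw [← hcA', hn₁₁, hn₀₁, ← Finset.card_union_of_disjoint]
    · congr 1
      ext a
      simp only [Finset.mem_union, Finset.mem_filter, Finset.mem_univ, true_and]
      tauto
    · rw [Finset.disjoint_left]
      intro a h1 h2
      exact (Finset.mem_filter.1 h2).2.1 (Finset.mem_filter.1 h1).2.1
  have h3 : n₀₁ + n₀₀ = 2 ^ k := by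
    have h4 : (univ.filter fun a => a ∉ A.1).card = 2 ^ k := by
      have h5 := Finset.card_filter_add_card_filter_not (s := (univ : Finset C)) (fun a => a ∈ A.1)
      have h6 : (univ.filter fun a => a ∈ A.1) = A.1 := by
        ext a; simp
      rw [h6, hcA, Finset.card_univ] at h5
      have h7 : Fintype.card C = 2 ^ k * 2 := by rw [hC, pow_succ]
      omega
    rw [← h4, hn₀₁, hn₀₀, ← Finset.card_union_of_disjoint]
    · congr 1
      ext a
      simp only [Finset.mem_union, Finset.mem_filter, Finset.mem_univ, true_and]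
      tauto
    · rw [Finset.disjoint_left]
      intro a h1 h2
      exact (Finset.mem_filter.1 h2).2.2 (Finset.mem_filter.1 h1).2.2
  -- counts on positions
  have hSc : (univ.filter fun u => u ∉ S).card = 2 ^ k - t := by
    have h5 := Finset.card_filter_add_card_filter_not (s := (univ : Finset (Pos k))) (fun u => u ∈ S)
    have h6 : (univ.filter fun u => u ∈ S) = S := by
      ext a; simp
    rw [h6, hS, Finset.card_univ, card_Pos] at h5
    omega
  have hSf : (univ.filter fun u => u ∈ S).card = t := by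
    have h6 : (univ.filter fun u => u ∈ S) = S := by
      ext a; simp
    rw [h6, hS]
  obtain ⟨e, he⟩ := exists_equiv_fiber
    (fun a : C => (decide (a ∈ A.1), decide (a ∈ A'.1)))
    (fun x : Pos (k + 1) => ((!x.1 : Bool), xor x.1 (decide (x.2 ∈ S)))) (by
      rintro ⟨c, d⟩
      rw [Finset.card_filter, Finset.card_filter, sum_Pos_succ]
      have e1 : ∑ a : C, (if (decide (a ∈ A.1), decide (a ∈ A'.1)) = (c, d) then 1 else 0)
          = (univ.filter fun a : C => (decide (a ∈ A.1), decide (a ∈ A'.1)) = (c, d)).card := by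
        rw [Finset.card_filter]
      rw [e1]
      have e2 : ∑ u : Pos k, ((if ((!(false : Bool)), xor false (decide (u ∈ S))) = (c, d) then 1 else 0)
          + (if ((!(true : Bool)), xor true (decide (u ∈ S))) = (c, d) then 1 else 0))
          = ∑ u : Pos k, ((if c = true ∧ (decide (u ∈ S) = d) then 1 else 0)
            + (if c = false ∧ (decide (u ∈ S) = !d) then 1 else 0)) := by
        refine Finset.sum_congr rfl fun u _ => ?_
        cases c <;> cases d <;> by_cases hu : u ∈ S <;> simp [hu]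
      change (univ.filter fun a : C => (decide (a ∈ A.1), decide (a ∈ A'.1)) = (c, d)).card = ∑ u : Pos k, ((if ((!(false : Bool)), xor false (decide (u ∈ S))) = (c, d) then 1 else 0)
          + (if ((!(true : Bool)), xor true (decide (u ∈ S))) = (c, d) then 1 else 0))
      rw [e2, Finset.sum_add_distrib, ← Finset.card_filter, ← Finset.card_filter]
      cases c <;> cases d
      · -- (false,false)
        have e3 : (univ.filter fun a : C => (decide (a ∈ A.1), decide (a ∈ A'.1)) = (false, false))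
            = univ.filter fun a => a ∉ A.1 ∧ a ∉ A'.1 := by
          ext a; simp
        have e4 : (univ.filter fun u : Pos k => false = true ∧ decide (u ∈ S) = false) = ∅ := by simp
        have e5 : (univ.filter fun u : Pos k => false = false ∧ decide (u ∈ S) = !false)
            = univ.filter fun u => u ∈ S := by
          ext u; simp
        rw [e3, e4, e5, hSf, Finset.card_empty]
        omega
      · have e3 : (univ.filter fun a : C => (decide (a ∈ A.1), decide (a ∈ A'.1)) = (false, true))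
            = univ.filter fun a => a ∉ A.1 ∧ a ∈ A'.1 := by
          ext a; simp
        have e4 : (univ.filter fun u : Pos k => false = true ∧ decide (u ∈ S) = true) = ∅ := by simp
        have e5 : (univ.filter fun u : Pos k => false = false ∧ decide (u ∈ S) = !true)
            = univ.filter fun u => u ∉ S := by
          ext u; simp
        rw [e3, e4, e5, hSc, Finset.card_empty]
        omega
      · have e3 : (univ.filter fun a : C => (decide (a ∈ A.1), decide (a ∈ A'.1)) = (true, false))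
            = univ.filter fun a => a ∈ A.1 ∧ a ∉ A'.1 := by
          ext a; simp
        have e4 : (univ.filter fun u : Pos k => true = true ∧ decide (u ∈ S) = false)
            = univ.filter fun u => u ∉ S := by
          ext u; simp
        have e5 : (univ.filter fun u : Pos k => true = false ∧ decide (u ∈ S) = !false) = ∅ := by simp
        rw [e3, e4, e5, hSc, Finset.card_empty]
        omega
      · have e3 : (univ.filter fun a : C => (decide (a ∈ A.1), decide (a ∈ A'.1)) = (true, true))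
            = univ.filter fun a => a ∈ A.1 ∧ a ∈ A'.1 := by
          ext a; simp
        have e4 : (univ.filter fun u : Pos k => true = true ∧ decide (u ∈ S) = true)
            = univ.filter fun u => u ∈ S := by
          ext u; simp
        have e5 : (univ.filter fun u : Pos k => true = false ∧ decide (u ∈ S) = !true) = ∅ := by simp
        rw [e3, e4, e5, hSf, Finset.card_empty]
        omega)
  refine ⟨e, fun u => !decide (u ∈ S), ?_, ?_⟩
  · apply Subtype.ext
    ext a
    rw [mem_rowA]
    have h1 := congrArg Prod.fst (he a)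
    simp only at h1
    constructor
    · intro h
      rw [h] at h1
      simpa using h1.symm
    · intro h
      rw [decide_eq_true h] at h1
      simpa using h1
  · apply Subtype.ext
    ext a
    rw [mem_rowA]
    have h1 := congrArg Prod.snd (he a)
    simp only at h1
    show xor (e a).1 (!decide ((e a).2 ∈ S)) = false ↔ _
    constructor
    · intro h
      have h2 : xor (e a).1 (decide ((e a).2 ∈ S)) = true := by
        cases h3 : (e a).1 <;> cases h4 : decide ((e a).2 ∈ S) <;> simp_all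
      rw [h2] at h1
      simpa using h1.symm
    · intro h
      rw [decide_eq_true h] at h1
      cases h3 : (e a).1 <;> cases h4 : decide ((e a).2 ∈ S) <;> simp_all

/-- The law of the row of a transversal. -/
def wT (g : C ≃ Pos (k + 1)) (A' : Half C) : ℝ :=
  (∑ b : Pos k → Bool, if rowA (g.trans (flipE b)) = A' then (1 : ℝ) else 0)
    / (Fintype.card (Pos k → Bool) : ℝ)

lemma wT_nonneg (g : C ≃ Pos (k + 1)) (A' : Half C) : 0 ≤ wT g A' :=
  div_nonneg (Finset.sum_nonneg fun _ _ => by split_ifs <;> norm_num) (Nat.cast_nonneg _)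

lemma card_coin_pos : (0 : ℝ) < (Fintype.card (Pos k → Bool) : ℝ) := by
  have : 0 < Fintype.card (Pos k → Bool) := Fintype.card_pos
  exact_mod_cast this

lemma sum_wT (g : C ≃ Pos (k + 1)) : ∑ A', wT g A' = 1 := by
  unfold wT
  rw [← Finset.sum_div, Finset.sum_comm]
  have h1 : ∀ b : Pos k → Bool, ∑ A' : Half C, (if rowA (g.trans (flipE b)) = A' then (1 : ℝ) else 0) = 1 := by
    intro b
    rw [Finset.sum_ite_eq]
    simp
  simp_rw [h1]
  simp only [Finset.sum_const, Finset.card_univ, nsmul_eq_mul, mul_one]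
  exact div_self card_coin_pos.ne'

/-- The fixed point identity for flip-invariant laws. -/
lemma sum_mul_wT (μ : (C ≃ Pos (k + 1)) → ℝ) (hinv : FlipInv μ) (A' : Half C) :
    ∑ g, μ g * wT g A' = push rowA μ A' := by
  unfold wT
  have h1 : ∀ b : Pos k → Bool, ∑ g, μ g * (if rowA (g.trans (flipE b)) = A' then (1 : ℝ) else 0)
      = push rowA μ A' := by
    intro b
    rw [sum_flip μ hinv b (fun g => if rowA g = A' then (1 : ℝ) else 0)]
    unfold push
    rw [Finset.sum_filter]
    refine Finset.sum_congr rfl fun g _ => ?_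
    split_ifs <;> simp
  simp_rw [mul_div_assoc', Finset.mul_sum]
  rw [← Finset.sum_div, Finset.sum_comm]
  simp_rw [h1]
  simp only [Finset.sum_const, Finset.card_univ, nsmul_eq_mul]
  exact mul_div_cancel_left₀ _ card_coin_pos.ne'

/-- The level-dependent constant of the minorization. -/
def aK (k : ℕ) : ℝ := 1 / ((((2 ^ k).factorial : ℕ) : ℝ) ^ 2 * (Fintype.card (Pos k → Bool) : ℝ))

lemma aK_pos (k : ℕ) : 0 < aK k := by
  unfold aK
  have h1 : (0 : ℝ) < (((2 ^ k).factorial : ℕ) : ℝ) := by exact_mod_cast Nat.factorial_pos _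
  have h2 := card_coin_pos (k := k)
  positivity

/-- The crude bound for every fixed level. -/
theorem crude_top (hC : Fintype.card C = 2 ^ (k + 1)) (μ : (C ≃ Pos (k + 1)) → ℝ)
    (hμ : ∀ g, 0 ≤ μ g) (hμ1 : ∑ g, μ g = 1) (hinv : FlipInv μ) :
    Dm (push rowA μ) ≤ (4 / aK k ^ 2) * ∑ A : Half C, Dm (rhoA μ A) := by
  have hev : Even (Fintype.card C) := by
    rw [hC, pow_succ]; exact ⟨2 ^ k, by ring⟩
  haveI : Nonempty (Half C) := Fintype.card_pos_iff.1 (card_half_pos hev)
  have hn : ∀ A : Half C, (Fintype.card (Dec k A) : ℝ) = (((2 ^ k).factorial : ℕ) : ℝ) ^ 2 := by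
    intro A
    rw [card_Dec hC A]
    push_cast
    rfl
  have hn0 : (0 : ℝ) < (((2 ^ k).factorial : ℕ) : ℝ) ^ 2 := by
    have h1 : (0 : ℝ) < (((2 ^ k).factorial : ℕ) : ℝ) := by exact_mod_cast Nat.factorial_pos _
    positivity
  haveI hne : ∀ A : Half C, Nonempty (Dec k A) := by
    intro A
    apply Fintype.card_pos_iff.1
    have := hn A
    have h2 : (0 : ℝ) < (Fintype.card (Dec k A) : ℝ) := by rw [this]; exact hn0
    exact_mod_cast h2
  refine crude_abstract (fun A : Half C => Dec k A) (fun A e A' => wT (assemble A e) A')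
    (fun A e A' => wT_nonneg _ _) (fun A e => sum_wT _) (aK k) (aK_pos k) ?_ ?_
    (push rowA μ) (push_nonneg _ hμ) ?_ (rhoA μ) (fun A e => hμ _) (fun A => mass_rhoA μ A) ?_
  · -- minorization
    intro A A'
    obtain ⟨g, b, hg, hb⟩ := exists_flip_to hC A A'
    obtain ⟨e, rfl⟩ := (mem_range_assemble A g).2 hg
    rw [hn A]
    unfold aK
    rw [one_div, mul_inv, inv_eq_one_div, div_mul_eq_mul_div, one_mul]
    apply div_le_div_of_nonneg_right _ hn0.le
    refine le_trans ?_ (Finset.single_le_sum (f := fun e => wT (assemble A e) A')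
      (fun e _ => wT_nonneg _ _) (Finset.mem_univ e))
    show _ ≤ wT (assemble A e) A'
    unfold wT
    rw [inv_eq_one_div]
    apply div_le_div_of_nonneg_right _ card_coin_pos.le
    refine le_trans ?_ (Finset.single_le_sum (f := fun b : Pos k → Bool =>
      if rowA ((assemble A e).trans (flipE b)) = A' then (1 : ℝ) else 0)
      (fun b _ => by split_ifs <;> norm_num) (Finset.mem_univ b))
    rw [if_pos hb]
  · -- double stochasticity
    intro A'
    simp_rw [hn]
    rw [← Finset.sum_div]
    have h1 := sum_mul_wT (C := C) (k := k) (fun _ => (1 : ℝ)) (fun _ _ => rfl) A'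
    have h1' : ∑ g : C ≃ Pos (k + 1), wT g A' = push (rowA (C := C) (k := k)) (fun _ => (1 : ℝ)) A' := by
      rw [← h1]
      refine Finset.sum_congr rfl fun g _ => ?_
      rw [one_mul]
    rw [sum_assemble (fun g => wT g A')] at h1'
    rw [h1']
    have h2 : push (rowA (C := C) (k := k)) (fun _ => (1 : ℝ)) A'
        = ∑ A : Half C, ∑ e : Dec k A, (if A = A' then (1 : ℝ) else 0) := by
      unfold push
      rw [Finset.sum_filter, sum_assemble]
      refine Finset.sum_congr rfl fun A _ => Finset.sum_congr rfl fun e _ => ?_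
      rw [rowA_assemble]
    rw [h2]
    have h3 : ∀ A : Half C, ∑ e : Dec k A, (if A = A' then (1 : ℝ) else 0)
        = (((2 ^ k).factorial : ℕ) : ℝ) ^ 2 * (if A = A' then (1 : ℝ) else 0) := by
      intro A
      rw [Finset.sum_const, Finset.card_univ, nsmul_eq_mul, hn A]
    simp_rw [h3]
    rw [← Finset.mul_sum, Finset.sum_ite_eq' univ A' (fun _ => (1 : ℝ))]
    simp only [Finset.mem_univ, if_true, mul_one]
    exact div_self hn0.ne'
  · -- mass
    have := mass_push (rowA (C := C) (k := k)) μ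
    unfold mass at this
    rw [this, hμ1]
  · -- fixed point
    intro A'
    rw [← sum_mul_wT μ hinv A', sum_assemble (fun g => μ g * wT g A')]
    rfl

/-! ### The constant of the top level -/

/-- The constant of (TOP) at level `k + 1` (the row is a half set of `2^(k+1)` cards). -/
def TopConst (k : ℕ) (θ : ℝ) : Prop :=
  ∀ (C : Type) [Fintype C] [DecidableEq C], Fintype.card C = 2 ^ (k + 1) →
    ∀ μ : (C ≃ Pos (k + 1)) → ℝ, (∀ g, 0 ≤ μ g) → FlipInv μ →
      Dm (push rowA μ) ≤ θ * ∑ A : Half C, uA μ A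

lemma push_smul' {α β : Type*} [Fintype α] [DecidableEq β] (f : α → β) (t : ℝ) (p : α → ℝ) :
    push f (fun a => t * p a) = fun b => t * push f p b := by
  funext b
  unfold push
  rw [Finset.mul_sum]

lemma rhoA_smul (t : ℝ) (μ : (C ≃ Pos (k + 1)) → ℝ) (A : Half C) :
    rhoA (fun g => t * μ g) A = fun e => t * rhoA μ A e := rfl

lemma uA_smul (t : ℝ) (μ : (C ≃ Pos (k + 1)) → ℝ) (A : Half C) :
    uA (fun g => t * μ g) A = t * uA μ A := by
  unfold uA
  rw [rhoA_smul, Dm_smul, push_smul', push_smul', Dm_smul, Dm_smul]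
  ring

lemma topConst_of_mass_one {θ : ℝ}
    (h : ∀ (C : Type) [Fintype C] [DecidableEq C], Fintype.card C = 2 ^ (k + 1) →
      ∀ μ : (C ≃ Pos (k + 1)) → ℝ, (∀ g, 0 ≤ μ g) → ∑ g, μ g = 1 → FlipInv μ →
      Dm (push rowA μ) ≤ θ * ∑ A : Half C, uA μ A) : TopConst k θ := by
  intro C _ _ hC μ hμ hinv
  set M := ∑ g, μ g with hM
  have hM0 : 0 ≤ M := Finset.sum_nonneg fun g _ => hμ g
  rcases hM0.eq_or_lt with h0 | h0
  · have hz : μ = fun g => 0 * μ g := by
      funext g
      rw [zero_mul]
      exact (Finset.sum_eq_zero_iff_of_nonneg fun a _ => hμ a).1 h0.symm g (Finset.mem_univ g)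
    rw [hz, push_smul', Dm_smul]
    simp_rw [uA_smul]
    simp
  · set ν : (C ≃ Pos (k + 1)) → ℝ := fun g => M⁻¹ * μ g with hν
    have hμν : μ = fun g => M * ν g := by
      funext g
      simp only [hν]
      field_simp
    have hν0 : ∀ g, 0 ≤ ν g := fun g => mul_nonneg (inv_nonneg.2 hM0) (hμ g)
    have hν1 : ∑ g, ν g = 1 := by
      simp only [hν]
      rw [← Finset.mul_sum]
      exact inv_mul_cancel₀ h0.ne'
    have hνinv : FlipInv ν := by
      intro b g
      simp only [hν]
      rw [hinv b g]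
    have hmain := h C hC ν hν0 hν1 hνinv
    rw [hμν, push_smul', Dm_smul]
    simp_rw [uA_smul]
    rw [← Finset.mul_sum]
    calc M * Dm (push rowA ν) ≤ M * (θ * ∑ A : Half C, uA ν A) :=
          mul_le_mul_of_nonneg_left hmain hM0
      _ = _ := by ring

/-- Every level has a finite constant. -/
theorem topConst_crude (k : ℕ) : ∃ K : ℝ, 0 ≤ K ∧ TopConst k K := by
  refine ⟨2 * (4 / aK k ^ 2), ?_, ?_⟩
  · have := aK_pos k
    positivity
  · apply topConst_of_mass_one
    intro C _ _ hC μ hμ hμ1 hinv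
    refine (crude_top hC μ hμ hμ1 hinv).trans ?_
    have h1 : ∑ A : Half C, Dm (rhoA μ A) ≤ 2 * ∑ A : Half C, uA μ A := by
      rw [Finset.mul_sum]
      exact Finset.sum_le_sum fun A _ => uA_ge hC μ hμ A
    have h2 : 0 ≤ 4 / aK k ^ 2 := by
      have := aK_pos k
      positivity
    calc (4 / aK k ^ 2) * ∑ A : Half C, Dm (rhoA μ A)
        ≤ (4 / aK k ^ 2) * (2 * ∑ A : Half C, uA μ A) := mul_le_mul_of_nonneg_left h1 h2
      _ = _ := by ring

/-- Large levels have the sharp constant. -/
theorem topConst_large : ∃ C₁ k₀ : ℕ, C₁ + 1 < k₀ ∧ ∀ k, k₀ ≤ k → TopConst k (1 / ((k : ℝ) - C₁)) := by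
  obtain ⟨j₀, hj₀, hbip⟩ := bip_final
  obtain ⟨k₁, hk₁, hz⟩ := zeta_top
  refine ⟨j₀ + 1, max k₁ (j₀ + 3), lt_of_lt_of_le (by omega) (le_max_right _ _), ?_⟩
  intro k hk
  have hk1 : k₁ ≤ k := le_trans (le_max_left _ _) hk
  have hk2 : j₀ + 3 ≤ k := le_trans (le_max_right _ _) hk
  have hk0 : 1 ≤ k := by omega
  apply topConst_of_mass_one
  intro C _ _ hC μ hμ hμ1 hinv
  set t : ℝ := (k : ℝ) - j₀ with ht
  have htk : (3 : ℝ) ≤ t := by
    have : ((j₀ + 3 : ℕ) : ℝ) ≤ k := by exact_mod_cast hk2
    push_cast at this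
    simp only [ht]
    linarith
  have hΘ := hbip k (by omega)
  set U := ∑ A : Half C, uA μ A with hU
  have hU0 : 0 ≤ U := Finset.sum_nonneg fun A _ =>
    (Dm_nonneg (push_nonneg _ (rhoA_nonneg hμ A))).trans (Dm_nuA_le hC μ hμ A)
  have hΘ0 : 0 ≤ 1 / t := by
    apply div_nonneg <;> linarith
  have hx : ∑ A : Half C, xRow (nuA μ A) ≤ (1 / t) * U := by
    rw [hU, Finset.mul_sum]
    refine Finset.sum_le_sum fun A _ => ?_
    have h1 := hΘ ↥A.1 {a // a ∉ A.1} (card_half_part_pow hC A) (card_half_compl_pow hC A)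
      (nuA μ A) (push_nonneg _ (rhoA_nonneg hμ A))
    exact h1.trans (mul_le_mul_of_nonneg_left (Dm_nuA_le hC μ hμ A) hΘ0)
  have hlog := hz k hk1 C hC μ hμ hμ1
  have hchain := Dm_rowA hC μ
  have hrho : ∑ A : Half C, Dm (rhoA μ A) ≤ 2 * U := by
    rw [hU, Finset.mul_sum]
    exact Finset.sum_le_sum fun A _ => uA_ge hC μ hμ A
  have htop := top_ineq hk0 hC μ hμ hμ1 hinv
  set x := Dm (push rowA μ) with hxdef
  set E : ℝ := ((k : ℝ) + 1) ^ 4 with hE
  have hkr : (4 : ℝ) ≤ (k : ℝ) + 1 := by
    have : ((j₀ + 3 : ℕ) : ℝ) ≤ k := by exact_mod_cast hk2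
    have hj : (1 : ℝ) ≤ j₀ := by exact_mod_cast hj₀
    push_cast at this
    linarith
  have hE0 : 0 < E := by positivity
  have hte : t ≤ (k : ℝ) + 1 := by
    simp only [ht]
    have : (0 : ℝ) ≤ j₀ := Nat.cast_nonneg _
    linarith
  -- the main inequality
  have hDm : 1 / E * Dm μ ≤ 1 / E * (x + 2 * U) := by
    apply mul_le_mul_of_nonneg_left _ (by positivity)
    rw [hchain]
    linarith
  have h1 : x ≤ (1 / t) * U + 1 / E * (x + 2 * U) := by
    linarith
  have hkey : (2 * t - 1) * t ≤ E := by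
    simp only [hE]
    have h3 : t ^ 2 ≤ ((k : ℝ) + 1) ^ 2 := pow_le_pow_left₀ (by linarith) hte 2
    have h4 : ((k : ℝ) + 1) ^ 4 = ((k : ℝ) + 1) ^ 2 * ((k : ℝ) + 1) ^ 2 := by ring
    have h5 : (16 : ℝ) ≤ ((k : ℝ) + 1) ^ 2 := by nlinarith
    nlinarith
  have ht0 : 0 < t := by linarith
  have ht1 : 0 < t - 1 := by linarith
  have hcast : (k : ℝ) - ((j₀ + 1 : ℕ) : ℝ) = t - 1 := by
    simp only [ht]
    push_cast
    ring
  rw [hcast, one_div, inv_mul_eq_div, le_div_iff₀ ht1]
  -- clear denominators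
  have h6 : x * (t * E) ≤ U * E + (x + 2 * U) * t := by
    have := mul_le_mul_of_nonneg_right h1 (show 0 ≤ t * E by positivity)
    have e : ((1 / t) * U + 1 / E * (x + 2 * U)) * (t * E) = U * E + (x + 2 * U) * t := by
      field_simp
    linarith
  have hEt : E - t > 0 := by
    nlinarith
  have h7 : x * (E - 1) * t ≤ U * (E + 2 * t) := by nlinarith
  have h8 : (E + 2 * t) * (t - 1) ≤ (E - 1) * t := by nlinarith
  have hE1 : 0 < (E - 1) * t := by
    apply mul_pos _ ht0
    nlinarith
  have h9 : (x * (t - 1)) * ((E - 1) * t) ≤ U * ((E - 1) * t) := by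
    calc (x * (t - 1)) * ((E - 1) * t) = (x * (E - 1) * t) * (t - 1) := by ring
      _ ≤ (U * (E + 2 * t)) * (t - 1) := mul_le_mul_of_nonneg_right h7 ht1.le
      _ = U * ((E + 2 * t) * (t - 1)) := by ring
      _ ≤ U * ((E - 1) * t) := mul_le_mul_of_nonneg_left h8 hU0
  exact le_of_mul_le_mul_right h9 hE1

end P162
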